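import Vale.Agent.P097.H402.Rat.Defs
import Vale.Agent.P097.H24.K23
import Vale.Agent.P097.H990.K1

/-! # P097: the pencil law `LawB`: expansions at the zero section

* `plaw` : area preservation of the chord map,
* `order3` : a solution of `LawB σ` vanishes exactly to order three. -/

set_option linter.all false

namespace Vale.Agent.P097.H849

open Complex Filter Topology Set Metric
open Vale.Agent.P097.H402.Rat (Ex aB LawB)
open Vale.Agent.P097.H24 (mul_Ex Ex_neg Ex_ne Ex_zero ev_Ex_ne)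

noncomputable section

variable {σ : ℝ}

lemma Ex_an (z : ℂ) : AnalyticAt ℂ Ex z := by
  rw [H990.Ex_eq]; exact H990.diff_E1.analyticAt z

lemma aB_an : AnalyticAt ℂ (aB σ) 0 := by
  have e1 : AnalyticAt ℂ (fun τ : ℂ => Ex (((σ : ℂ) + 2) * τ)) 0 :=
    (Ex_an _).comp' (f := fun τ : ℂ => ((σ : ℂ) + 2) * τ) (by fun_prop)
  have e2 : AnalyticAt ℂ (fun τ : ℂ => Ex (((σ : ℂ) + 1) * τ)) 0 :=
    (Ex_an _).comp' (f := fun τ : ℂ => ((σ : ℂ) + 1) * τ) (by fun_prop)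
  have : aB σ = fun τ : ℂ => Ex (((σ : ℂ) + 2) * τ) / Ex (((σ : ℂ) + 1) * τ) := rfl
  rw [this]
  exact e1.div e2 (by simp [Ex_zero])

lemma aB_zero : aB σ 0 = 1 := by simp [aB, Ex_zero]

lemma aB_neg (τ : ℂ) : aB σ (-τ) = exp (-τ) * aB σ τ := by
  unfold aB
  rw [mul_neg, mul_neg, Ex_neg, Ex_neg, mul_div_mul_comm, ← exp_sub]
  congr 2
  ring

lemma Ex_conj (z : ℂ) : Ex ((starRingEnd ℂ) z) = (starRingEnd ℂ) (Ex z) := by
  rw [H990.Ex_eq]; exact H990.E1_conj z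

lemma aB_conj (τ : ℂ) : aB σ ((starRingEnd ℂ) τ) = (starRingEnd ℂ) (aB σ τ) := by
  unfold aB
  have h2 : (starRingEnd ℂ) 2 = 2 := map_ofNat _ 2
  rw [map_div₀, ← Ex_conj, ← Ex_conj]
  simp [h2]

lemma tneg : Tendsto (fun τ : ℂ => -τ) (𝓝 0) (𝓝 0) := by
  have := (continuous_neg (G := ℂ)).tendsto 0; simpa using this

lemma tconj : Tendsto (fun τ : ℂ => (starRingEnd ℂ) τ) (𝓝 0) (𝓝 0) := by
  have := (continuous_conj).tendsto (0:ℂ); simpa using this

lemma half {u : ℂ → ℂ} {c : ℂ} (hu : DifferentiableAt ℂ u 0)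
    (h : ∀ᶠ τ in 𝓝 (0:ℂ), u τ = exp (c * τ) * u (-τ)) : 2 * deriv u 0 = c * u 0 := by
  have h1 : HasDerivAt (fun τ : ℂ => exp (c * τ)) c 0 := by
    have := ((hasDerivAt_id (0:ℂ)).const_mul c).cexp
    simpa using this
  have h2 : HasDerivAt (fun τ : ℂ => u (-τ)) (-deriv u 0) 0 := by
    have h3 : HasDerivAt u (deriv u 0) (-(0:ℂ)) := by simpa using hu.hasDerivAt
    have := h3.comp (0:ℂ) (hasDerivAt_neg (0:ℂ))
    rw [mul_neg_one] at this
    exact this
  have h3 := h1.mul h2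
  have h4 : HasDerivAt u (c * u (-0) + exp (c * 0) * -deriv u 0) 0 := h3.congr_of_eventuallyEq h
  have := h4.unique hu.hasDerivAt
  simp at this
  linear_combination -this

/-- derivative of the chord function at `-τ` -/
lemma deriv_aB_neg : ∀ᶠ τ in 𝓝 (0:ℂ),
    deriv (aB σ) (-τ) = exp (-τ) * (aB σ τ - deriv (aB σ) τ) := by
  have h0 := (aB_an (σ := σ)).eventually_analyticAt
  filter_upwards [h0, tneg.eventually h0] with τ h1 h2
  have d1 : HasDerivAt (fun τ : ℂ => aB σ (-τ)) (-deriv (aB σ) (-τ)) τ := by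
    have := h2.differentiableAt.hasDerivAt.comp τ (hasDerivAt_neg τ)
    rw [mul_neg_one] at this
    exact this
  have d2 : HasDerivAt (fun τ : ℂ => exp (-τ) * aB σ τ)
      (-exp (-τ) * aB σ τ + exp (-τ) * deriv (aB σ) τ) τ := by
    have e1 : HasDerivAt (fun τ : ℂ => exp (-τ)) (-exp (-τ)) τ := by
      have := (hasDerivAt_neg τ).cexp
      simpa using this
    exact e1.mul h1.differentiableAt.hasDerivAt
  have e : (fun τ : ℂ => aB σ (-τ)) = fun τ : ℂ => exp (-τ) * aB σ τ := funext aB_neg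
  rw [e] at d1
  have := d1.unique d2
  linear_combination -this

lemma deriv_aB_zero : deriv (aB σ) 0 = 1 / 2 := by
  have h := (deriv_aB_neg (σ := σ)).self_of_nhds
  simp [aB_zero] at h
  linear_combination h / 2

/-- the two relations -/
lemma aB_rel1 (τ : ℂ) (h : Ex (((σ : ℂ) + 1) * τ) ≠ 0) :
    ((σ : ℂ) + 2) * (exp ((σ + 1) * τ) - 1) * aB σ τ = (σ + 1) * (exp ((σ + 2) * τ) - 1) := by
  have h1 := mul_Ex (((σ : ℂ) + 1) * τ)
  have h2 := mul_Ex (((σ : ℂ) + 2) * τ)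
  have h3 : aB σ τ * Ex (((σ : ℂ) + 1) * τ) = Ex (((σ : ℂ) + 2) * τ) := div_mul_cancel₀ _ h
  rw [← h1, ← h2, ← h3]
  ring

lemma aB_rel2 (hs2 : (σ : ℂ) + 2 ≠ 0) : ∀ᶠ τ in 𝓝 (0:ℂ),
    (exp ((σ + 1) * τ) - 1) * deriv (aB σ) τ =
      (σ + 1) * exp ((σ + 1) * τ) * (exp τ - aB σ τ) := by
  have h0 := (aB_an (σ := σ)).eventually_analyticAt
  have h1 := (ev_Ex_ne ((σ : ℂ) + 1)).eventually_nhds
  filter_upwards [h0, h1] with τ h0 h1
  have d1 : HasDerivAt (fun τ : ℂ => ((σ : ℂ) + 2) * (exp ((σ + 1) * τ) - 1) * aB σ τ)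
      (((σ : ℂ) + 2) * (exp ((σ + 1) * τ) * (σ + 1)) * aB σ τ +
        ((σ : ℂ) + 2) * (exp ((σ + 1) * τ) - 1) * deriv (aB σ) τ) τ := by
    have e1 : HasDerivAt (fun τ : ℂ => exp (((σ : ℂ) + 1) * τ))
        (exp ((σ + 1) * τ) * (σ + 1)) τ := by
      have := ((hasDerivAt_id τ).const_mul ((σ : ℂ) + 1)).cexp
      simpa using this
    exact ((e1.sub_const 1).const_mul _).mul h0.differentiableAt.hasDerivAt
  have d2 : HasDerivAt (fun τ : ℂ => ((σ : ℂ) + 1) * (exp ((σ + 2) * τ) - 1))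
      (((σ : ℂ) + 1) * (exp ((σ + 2) * τ) * (σ + 2))) τ := by
    have e1 : HasDerivAt (fun τ : ℂ => exp (((σ : ℂ) + 2) * τ))
        (exp ((σ + 2) * τ) * (σ + 2)) τ := by
      have := ((hasDerivAt_id τ).const_mul ((σ : ℂ) + 2)).cexp
      simpa using this
    exact (e1.sub_const 1).const_mul _
  have d3 := d1.congr_of_eventuallyEq (f₁ := fun τ : ℂ => ((σ : ℂ) + 1) * (exp ((σ + 2) * τ) - 1))
    (h1.mono fun x hx => (aB_rel1 x hx).symm)
  have h2 := d3.unique d2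
  have h3 : exp (((σ : ℂ) + 2) * τ) = exp ((σ + 1) * τ) * exp τ := by
    rw [← exp_add]; congr 1; ring
  rw [h3] at h2
  apply mul_left_cancel₀ hs2
  linear_combination h2

/-- area preservation -/
lemma plaw (hs2 : (σ : ℂ) + 2 ≠ 0) (hs1 : (σ : ℂ) + 1 ≠ 0) : ∀ᶠ τ in 𝓝 (0:ℂ),
    (aB σ τ - 1) * deriv (aB σ) τ =
      -(exp ((σ + 3) * τ) * ((aB σ (-τ) - 1) * deriv (aB σ) (-τ))) := by
  have hq : ∀ᶠ τ in 𝓝 (0:ℂ), ‖((σ : ℂ) + 1) * τ‖ < 1 := by
    have : Tendsto (fun τ : ℂ => ‖((σ : ℂ) + 1) * τ‖) (𝓝 0) (𝓝 0) := by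
      have hc : Continuous (fun τ : ℂ => ‖((σ : ℂ) + 1) * τ‖) := by fun_prop
      simpa using hc.tendsto 0
    exact this.eventually (gt_mem_nhds one_pos)
  filter_upwards [aB_rel2 hs2, deriv_aB_neg (σ := σ), ev_Ex_ne ((σ : ℂ) + 1), hq]
    with τ h2 h3 h4 h5
  rcases eq_or_ne τ 0 with rfl | hτ
  · simp [aB_zero]
  have h1 := aB_rel1 τ h4
  have h6 : exp (((σ : ℂ) + 1) * τ) - 1 ≠ 0 := by
    rw [← mul_Ex]
    exact mul_ne_zero (mul_ne_zero hs1 hτ) h4
  rw [h3, aB_neg]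
  have k1 : exp (((σ : ℂ) + 3) * τ) = exp ((σ + 1) * τ) * exp τ * exp τ := by
    rw [← exp_add, ← exp_add]; congr 1; ring
  have k2 : exp (((σ : ℂ) + 2) * τ) = exp ((σ + 1) * τ) * exp τ := by
    rw [← exp_add]; congr 1; ring
  have k3 : exp τ * exp (-τ) = 1 := by rw [← exp_add]; simp
  rw [k1]
  rw [k2] at h1
  set q := exp (((σ : ℂ) + 1) * τ)
  set p := exp τ
  set r := exp (-τ)
  set A := aB σ τ
  set A' := deriv (aB σ) τ
  have goal' : (A - 1) * A' + q * (A - p) * (A - A') = 0 := by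
    apply mul_left_cancel₀ h6
    linear_combination (A - 1 - q * (A - p)) * h2 - q * (p - A) * h1
  have e1 : q * p * p * ((r * A - 1) * (r * (A - A'))) = q * (A - p) * (A - A') := by
    linear_combination (q * (A - A') * (A * (p * r + 1) - p)) * k3
  rw [e1]
  linear_combination goal'

/-- `aB σ τ - 1 = τ b(τ)` -/
lemma exists_b (hs2 : (σ : ℂ) + 2 ≠ 0) (hs1 : (σ : ℂ) + 1 ≠ 0) :
    ∃ b : ℂ → ℂ, AnalyticAt ℂ b 0 ∧ b 0 = 1 / 2 ∧ deriv b 0 = (σ + 3) / 12 ∧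
      ∀ τ, aB σ τ - 1 = τ * b τ := by
  obtain ⟨p, hp⟩ := aB_an (σ := σ)
  have hb : AnalyticAt ℂ (dslope (aB σ) 0) 0 := ⟨_, hp.has_fpower_series_dslope_fslope⟩
  set b := dslope (aB σ) 0 with hbd
  have hb0 : b 0 = 1 / 2 := by rw [hbd, dslope_same, deriv_aB_zero]
  have e : ∀ τ, aB σ τ - 1 = τ * b τ := by
    intro τ
    have := sub_smul_dslope (aB σ) 0 τ
    rw [sub_zero, smul_eq_mul, aB_zero] at this
    exact this.symm
  refine ⟨b, hb, hb0, ?_, e⟩
  -- derivative of `aB`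
  have hd : ∀ᶠ τ in 𝓝 (0:ℂ), deriv (aB σ) τ = b τ + τ * deriv b τ := by
    filter_upwards [hb.eventually_analyticAt] with τ h1
    have e2 : aB σ = fun τ => 1 + τ * b τ := by
      funext τ; linear_combination e τ
    rw [e2]
    have := ((hasDerivAt_id τ).mul h1.differentiableAt.hasDerivAt).const_add 1
    refine (this.congr_deriv ?_).deriv
    simp
  have hd2 : HasDerivAt (fun τ => deriv (aB σ) τ) (2 * deriv b 0) 0 := by
    have e1 : HasDerivAt (fun τ => b τ + τ * deriv b τ)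
        (deriv b 0 + (1 * deriv b 0 + 0 * deriv (deriv b) 0)) 0 :=
      hb.differentiableAt.hasDerivAt.add
        ((hasDerivAt_id (0:ℂ)).mul hb.deriv.differentiableAt.hasDerivAt)
    refine (e1.congr_of_eventuallyEq hd).congr_deriv ?_
    ring
  set u : ℂ → ℂ := fun τ => b τ * deriv (aB σ) τ with hu
  have hu0 : u 0 = 1 / 4 := by simp only [hu]; rw [hb0, deriv_aB_zero]; norm_num
  have hud : HasDerivAt u (3 / 2 * deriv b 0) 0 := by
    have := hb.differentiableAt.hasDerivAt.mul hd2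
    refine this.congr_deriv ?_
    rw [hb0, deriv_aB_zero]; ring
  have hul : ∀ᶠ τ in 𝓝 (0:ℂ), u τ = exp (((σ : ℂ) + 3) * τ) * u (-τ) := by
    filter_upwards [plaw hs2 hs1] with τ h1
    rcases eq_or_ne τ 0 with rfl | hτ
    · simp
    apply mul_left_cancel₀ hτ
    rw [e, e] at h1
    simp only [hu]
    linear_combination h1
  have := half hud.differentiableAt hul
  rw [hud.deriv, hu0] at this
  linear_combination this / 3

/-- a non trivial solution of the law vanishes exactly to order three -/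
theorem order3 (hs3 : (σ : ℂ) + 3 ≠ 0) (hs2 : (σ : ℂ) + 2 ≠ 0) (hs1 : (σ : ℂ) + 1 ≠ 0)
    {f : ℂ → ℂ} (h : LawB σ f) :
    ∃ g : ℂ → ℂ, AnalyticAt ℂ g 0 ∧ g 0 ≠ 0 ∧ (∀ᶠ B in 𝓝 (0:ℂ), g (-B) = g B) ∧
      ∀ᶠ B in 𝓝 (0:ℂ), f (1 + B) = B ^ 3 * g B := by
  obtain ⟨b, hb, hb0, hb1, e⟩ := exists_b hs2 hs1
  have t1 : Tendsto (fun B : ℂ => 1 + B) (𝓝 0) (𝓝 1) := by
    have hc : Continuous (fun B : ℂ => 1 + B) := by fun_prop
    simpa using hc.tendsto 0
  have t1' : Tendsto (fun A : ℂ => A - 1) (𝓝 1) (𝓝 0) := by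
    have hc : Continuous (fun B : ℂ => B - 1) := by fun_prop
    simpa using hc.tendsto 1
  have hF : AnalyticAt ℂ (fun B : ℂ => f (1 + B)) 0 := by
    have h1 : AnalyticAt ℂ f ((fun B : ℂ => 1 + B) 0) := by simpa using h.an
    exact h1.comp' (f := fun B : ℂ => 1 + B) (by fun_prop)
  have hne : ¬ ∀ᶠ B in 𝓝 (0:ℂ), f (1 + B) = 0 := by
    intro hz
    apply h.ne
    filter_upwards [t1'.eventually hz] with A hA
    rwa [add_sub_cancel] at hA
  obtain ⟨n, g, hg, hg0, hgF⟩ := hF.exists_eventuallyEq_pow_smul_nonzero_iff.mpr hne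
  simp only [sub_zero, smul_eq_mul] at hgF
  have hodd : ∀ᶠ B in 𝓝 (0:ℂ), f (1 + -B) = -f (1 + B) := by
    filter_upwards [t1.eventually h.refl] with B hB
    rw [← hB]; congr 1; ring
  -- parity
  have hpar : ∀ᶠ B in 𝓝[≠] (0:ℂ), (-1) ^ n * g (-B) = -g B := by
    filter_upwards [nhdsWithin_le_nhds hgF, nhdsWithin_le_nhds (tneg.eventually hgF),
      nhdsWithin_le_nhds hodd, self_mem_nhdsWithin] with B h1 h2 h3 h4
    have h4' : B ≠ 0 := h4
    rw [h1, h2, neg_pow] at h3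
    apply mul_left_cancel₀ (pow_ne_zero n h4')
    linear_combination h3
  have hgn : Tendsto (fun B : ℂ => g (-B)) (𝓝[≠] 0) (𝓝 (g 0)) :=
    (hg.continuousAt.tendsto.comp tneg).mono_left nhdsWithin_le_nhds
  have hn1 : ((-1 : ℂ)) ^ n = -1 := by
    have l1 : Tendsto (fun B : ℂ => (-1) ^ n * g (-B)) (𝓝[≠] 0) (𝓝 ((-1) ^ n * g 0)) :=
      hgn.const_mul _
    have l2 : Tendsto (fun B : ℂ => -g B) (𝓝[≠] 0) (𝓝 (-g 0)) :=
      (hg.continuousAt.tendsto.mono_left nhdsWithin_le_nhds).neg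
    have := tendsto_nhds_unique (l1.congr' hpar) l2
    apply mul_right_cancel₀ hg0
    rw [this]; ring
  have heven : ∀ᶠ B in 𝓝 (0:ℂ), g (-B) = g B := by
    have h1 := eventually_nhdsWithin_iff.mp hpar
    filter_upwards [h1] with B hB
    rcases eq_or_ne B 0 with rfl | hB0
    · simp
    have := hB hB0
    rw [hn1] at this
    linear_combination -this
  -- the order
  have hgd : deriv g 0 = 0 := by
    have h1 : HasDerivAt (fun B : ℂ => g (-B)) (-deriv g 0) 0 := by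
      have h3 : HasDerivAt g (deriv g 0) (-(0:ℂ)) := by simpa using hg.differentiableAt.hasDerivAt
      have := h3.comp (0:ℂ) (hasDerivAt_neg (0:ℂ))
      rw [mul_neg_one] at this
      exact this
    have h2 : HasDerivAt g (-deriv g 0) 0 :=
      h1.congr_of_eventuallyEq (heven.mono fun x hx => hx.symm)
    have := h2.unique hg.differentiableAt.hasDerivAt
    linear_combination -this / 2
  have tB : Tendsto (fun τ : ℂ => τ * b τ) (𝓝 0) (𝓝 0) := by
    have := (continuousAt_id (x := (0:ℂ))).tendsto.mul hb.continuousAt.tendsto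
    simpa using this
  set v : ℂ → ℂ := fun τ => b τ ^ n * g (τ * b τ) with hv
  have hBd : HasDerivAt (fun τ : ℂ => τ * b τ) (b 0) 0 := by
    have := (hasDerivAt_id (0:ℂ)).mul hb.differentiableAt.hasDerivAt
    refine this.congr_deriv ?_
    simp
  have hvd : HasDerivAt v (n * b 0 ^ (n - 1) * deriv b 0 * g 0) 0 := by
    have h1 : HasDerivAt (fun τ : ℂ => g (τ * b τ)) (deriv g 0 * b 0) 0 := by
      have h3 : HasDerivAt g (deriv g 0) ((0:ℂ) * b 0) := by
        simpa using hg.differentiableAt.hasDerivAt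
      exact h3.comp (0:ℂ) hBd
    have h2 := (hb.differentiableAt.hasDerivAt.fun_pow n).mul h1
    refine h2.congr_deriv ?_
    rw [hgd]; simp
  have hvl : ∀ᶠ τ in 𝓝 (0:ℂ), v τ = exp (((σ : ℂ) + 3) * τ) * v (-τ) := by
    have tBn : Tendsto (fun τ : ℂ => (-τ) * b (-τ)) (𝓝 0) (𝓝 0) := tB.comp tneg
    filter_upwards [h.chord, tB.eventually hgF, tBn.eventually hgF, tBn.eventually heven,
      tBn.eventually hodd] with τ h1 h2 h3 h4 h5
    rcases eq_or_ne τ 0 with rfl | hτ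
    · simp
    have a1 : aB σ τ = 1 + τ * b τ := by linear_combination e τ
    have a2 : aB σ (-τ) = 1 + (-τ) * b (-τ) := by linear_combination e (-τ)
    rw [a1, a2, h2, h3] at h1
    apply mul_left_cancel₀ (pow_ne_zero n hτ)
    simp only [hv]
    rw [mul_pow, mul_pow, neg_pow, hn1] at h1
    linear_combination h1
  have h1 := half hvd.differentiableAt hvl
  rw [hvd.deriv] at h1
  simp only [hv] at h1
  rw [hb1] at h1
  have hn0 : n ≠ 0 := by
    rintro rfl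
    norm_num at hn1
  obtain ⟨k, rfl⟩ := Nat.exists_eq_succ_of_ne_zero hn0
  have hn3 : k.succ = 3 := by
    have h2 : (σ + 3 : ℂ) * g 0 * b 0 ^ k * (2 * (k.succ : ℂ) / 12) =
        (σ + 3 : ℂ) * g 0 * b 0 ^ k * (1 / 2) := by
      simp only [Nat.succ_eq_add_one, Nat.add_sub_cancel, zero_mul, pow_succ] at h1 ⊢
      rw [hb0] at h1 ⊢
      linear_combination h1
    have h3 : (σ + 3 : ℂ) * g 0 * b 0 ^ k ≠ 0 :=
      mul_ne_zero (mul_ne_zero hs3 hg0) (pow_ne_zero _ (by rw [hb0]; norm_num))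
    have h4 := mul_left_cancel₀ h3 h2
    have h5 : (k.succ : ℂ) = 3 := by linear_combination 6 * h4
    exact_mod_cast h5
  rw [hn3] at hgF
  exact ⟨g, hg, hg0, heven, hgF⟩

end

end Vale.Agent.P097.H849
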