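import Vale.Agent.P097.H849.HRG3
import Vale.Agent.P097.H849.LawA
import Vale.Agent.P097.H402.Alg.Defs

/-! # P097 / ALG-K2: no pencil law `LawB σ` for `-3 < σ < -2`

From a solution of the law one gets an odd real analytic Fatou coordinate, i.e. the hypothesis
`Hyp (-(σ + 2))` of `hrg3`. -/

set_option linter.all false

namespace Vale.Agent.P097.H849

open Complex Filter Topology Set Metric
open Vale.Agent.P097.H402.Rat (Ex aB LawB)
open Vale.Agent.P097.H24 (mul_Ex Ex_neg Ex_ne Ex_zero ev_Ex_ne)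

noncomputable section

variable {σ : ℝ}

/-- analyticity of `conj ∘ f ∘ conj` -/
lemma an_conj {f : ℂ → ℂ} {x : ℂ} (hx : (starRingEnd ℂ) x = x) (hf : AnalyticAt ℂ f x) :
    AnalyticAt ℂ (fun z => (starRingEnd ℂ) (f ((starRingEnd ℂ) z))) x := by
  rw [analyticAt_iff_eventually_differentiableAt]
  have tc : Tendsto (fun τ : ℂ => (starRingEnd ℂ) τ) (𝓝 x) (𝓝 x) := by
    have := (continuous_conj).tendsto x; rwa [hx] at this
  filter_upwards [tc.eventually hf.eventually_analyticAt] with z hz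
  have := hz.differentiableAt.conj_conj
  rw [conj_conj] at this
  exact this

/-- a function with vanishing derivative on a ball -/
lemma const_ball {f : ℂ → ℂ} {r : ℝ} (hd : ∀ z ∈ ball (0:ℂ) r, HasDerivAt f 0 z) :
    ∀ z ∈ ball (0:ℂ) r, f z = f 0 := by
  intro z hz
  have h0 : (0:ℂ) ∈ ball (0:ℂ) r := mem_ball_self (pos_of_mem_ball hz)
  exact isOpen_ball.is_const_of_deriv_eq_zero (convex_ball 0 r).isPreconnected
    (fun x hx => (hd x hx).differentiableAt.differentiableWithinAt)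
    (fun x hx => (hd x hx).deriv) hz h0

/-- local inverse of an analytic germ -/
lemma loc_inv {S : ℂ → ℂ} {d : ℂ} (hS : AnalyticAt ℂ S 0) (hd : HasDerivAt S d 0) (hd0 : d ≠ 0)
    (S0 : S 0 = 0) : ∃ Y : ℂ → ℂ, AnalyticAt ℂ Y 0 ∧ Y 0 = 0 ∧ HasDerivAt Y d⁻¹ 0 ∧
      (∀ᶠ u in 𝓝 (0:ℂ), S (Y u) = u) ∧ ∀ᶠ x in 𝓝 (0:ℂ), Y (S x) = x := by
  have h1 : ContDiffAt ℂ ⊤ S 0 := hS.contDiffAt
  have h2 : HasStrictDerivAt S d 0 := by
    have := hS.hasStrictDerivAt
    rwa [hd.deriv] at this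
  have h3 := h2.hasStrictFDerivAt_equiv hd0
  have hl := h3.eventually_left_inverse
  have hr := h3.eventually_right_inverse
  rw [S0] at hr
  have han : AnalyticAt ℂ (h3.localInverse S _ 0) 0 := by
    have h4 := h1.to_localInverse h3.hasFDerivAt (by simp)
    rw [S0] at h4
    exact h4.analyticAt
  have hY0 : h3.localInverse S _ 0 0 = 0 := by
    have := h3.localInverse_apply_image
    rwa [S0] at this
  refine ⟨h3.localInverse S _ 0, han, hY0, ?_, hr, hl⟩
  have := h2.to_localInverse hd0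
  rw [S0] at this
  exact this.hasDerivAt

lemma log_exp_mul {z τ : ℂ} (hz : 0 < z.re) (hτ : ‖τ‖ < 1) :
    log (exp (-τ) * z) = log z - τ := by
  have hz0 : z ≠ 0 := by rintro rfl; simp at hz
  have h1 : |arg z| < Real.pi / 2 := abs_arg_lt_pi_div_two_iff.mpr (Or.inl hz)
  have h2 : |τ.im| < 1 := (abs_im_le_norm τ).trans_lt hτ
  have h3 : (1 : ℝ) < Real.pi / 2 := by linarith [Real.pi_gt_three]
  rw [abs_lt] at h1 h2
  have h4 : exp (-τ) * z = exp (log z - τ) := by
    rw [sub_eq_add_neg, exp_add, exp_log hz0, mul_comm]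
  rw [h4, log_exp]
  · rw [sub_im, log_im]; linarith [h1.1, h2.2]
  · rw [sub_im, log_im]; linarith [h1.2, h2.1]

/-- the normalised real solution -/
lemma exists_real (hs3 : (σ : ℂ) + 3 ≠ 0) (hs2 : (σ : ℂ) + 2 ≠ 0) (hs1 : (σ : ℂ) + 1 ≠ 0)
    {f : ℂ → ℂ} (h : LawB σ f) :
    ∃ g : ℂ → ℂ, AnalyticAt ℂ g 0 ∧ g 0 = 1 ∧ (∀ᶠ B in 𝓝 (0:ℂ), g (-B) = g B) ∧
      (∀ᶠ B in 𝓝 (0:ℂ), g ((starRingEnd ℂ) B) = (starRingEnd ℂ) (g B)) ∧
      ∀ᶠ τ in 𝓝 (0:ℂ), (aB σ τ - 1) ^ 3 * g (aB σ τ - 1) =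
        -(exp ((σ + 3) * τ) * ((aB σ (-τ) - 1) ^ 3 * g (aB σ (-τ) - 1))) := by
  obtain ⟨g₀, hg, hg0, heven, hfg⟩ := order3 hs3 hs2 hs1 h
  set c := g₀ 0 with hc
  have ta : Tendsto (fun τ : ℂ => aB σ τ - 1) (𝓝 0) (𝓝 0) := by
    have := (aB_an (σ := σ)).continuousAt.tendsto.sub_const 1
    rwa [aB_zero, sub_self] at this
  have ta1 : Tendsto (fun τ : ℂ => aB σ τ) (𝓝 0) (𝓝 1) := by
    have := (aB_an (σ := σ)).continuousAt.tendsto
    rwa [aB_zero] at this
  have t1' : Tendsto (fun A : ℂ => A - 1) (𝓝 1) (𝓝 0) := by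
    have hc : Continuous (fun B : ℂ => B - 1) := by fun_prop
    simpa using hc.tendsto 1
  have t1 : Tendsto (fun B : ℂ => 1 + B) (𝓝 0) (𝓝 1) := by
    have hc : Continuous (fun B : ℂ => 1 + B) := by fun_prop
    simpa using hc.tendsto 0
  have tc1 : Tendsto (fun τ : ℂ => (starRingEnd ℂ) τ) (𝓝 1) (𝓝 1) := by
    have := (continuous_conj).tendsto (1:ℂ); simpa using this
  have hone : (starRingEnd ℂ) (1:ℂ) = 1 := map_one _
  have htwo : (starRingEnd ℂ) (2:ℂ) = 2 := map_ofNat _ 2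
  -- the difference of the normalised solution and of its conjugate
  set d : ℂ → ℂ := fun A => f A / c - (starRingEnd ℂ) (f ((starRingEnd ℂ) A) / c) with hd
  have hdz : ∀ᶠ A in 𝓝 (1:ℂ), d A = 0 := by
    by_contra hne
    have hlaw : LawB σ d := by
      refine ⟨?_, hne, ?_, ?_⟩
      · have h1 : AnalyticAt ℂ (fun A => f A / c) 1 := h.an.div analyticAt_const hg0
        exact h1.sub (an_conj hone h1)
      · filter_upwards [h.refl, tc1.eventually h.refl] with A h1 h2
        simp only [hd]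
        rw [h1, map_sub, htwo, h2, map_div₀, map_div₀, map_neg]
        ring
      · filter_upwards [h.chord, tconj.eventually h.chord] with τ h1 h2
        simp only [hd]
        rw [← aB_conj, ← aB_conj, map_neg, h1, h2]
        have e1 : (starRingEnd ℂ) (exp (((σ : ℂ) + 3) * (starRingEnd ℂ) τ)) =
            exp ((σ + 3) * τ) := by
          rw [← exp_conj]
          have h3 : (starRingEnd ℂ) (3:ℂ) = 3 := map_ofNat _ 3
          simp [h3]
        rw [map_div₀, map_div₀, map_neg, map_mul, e1]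
        ring
    obtain ⟨g₁, hg1, hg10, -, hdg⟩ := order3 hs3 hs2 hs1 hlaw
    apply hg10
    have hlim : Tendsto (fun B : ℂ => g₀ B / c - (starRingEnd ℂ) (g₀ ((starRingEnd ℂ) B) / c))
        (𝓝[≠] 0) (𝓝 0) := by
      have c1 : AnalyticAt ℂ (fun B => g₀ B / c) 0 := hg.div analyticAt_const hg0
      have c2 := c1.sub (an_conj (map_zero _) c1)
      have := c2.continuousAt.tendsto.mono_left (nhdsWithin_le_nhds (s := {0}ᶜ))
      have e : ((fun B => g₀ B / c) - fun z => (starRingEnd ℂ) (g₀ ((starRingEnd ℂ) z) / c)) 0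
          = 0 := by
        show g₀ 0 / c - (starRingEnd ℂ) (g₀ ((starRingEnd ℂ) 0) / c) = 0
        rw [map_zero, ← hc, div_self hg0, map_one, sub_self]
      rw [e] at this
      exact this
    have hlim2 : Tendsto g₁ (𝓝[≠] 0) (𝓝 (g₁ 0)) :=
      hg1.continuousAt.tendsto.mono_left nhdsWithin_le_nhds
    refine tendsto_nhds_unique hlim2 (hlim.congr' ?_)
    filter_upwards [nhdsWithin_le_nhds hdg, nhdsWithin_le_nhds hfg,
      nhdsWithin_le_nhds (tconj.eventually hfg), self_mem_nhdsWithin] with B h1 h2 h3 h4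
    have h4' : B ≠ 0 := h4
    apply mul_left_cancel₀ (pow_ne_zero 3 h4')
    rw [← h1]
    simp only [hd]
    rw [h2, map_add, hone, h3, map_div₀, map_div₀, map_mul, map_pow, conj_conj]
    ring
  refine ⟨fun B => g₀ B / c, hg.div analyticAt_const hg0, div_self hg0, ?_, ?_, ?_⟩
  · filter_upwards [heven] with B hB
    rw [hB]
  · filter_upwards [t1.eventually hdz, tconj.eventually hfg, hfg] with B h1 h2 h3
    rcases eq_or_ne B 0 with rfl | hB
    · rw [map_zero, ← hc, div_self hg0, map_one]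
    simp only [hd] at h1
    rw [map_add, hone, h2, h3, map_div₀, map_mul, map_pow, conj_conj] at h1
    have h4 : (starRingEnd ℂ) (g₀ ((starRingEnd ℂ) B) / c) = g₀ B / c := by
      rw [map_div₀]
      apply mul_left_cancel₀ (pow_ne_zero 3 hB)
      linear_combination -h1
    rw [← h4, conj_conj]
  · have tn : Tendsto (fun τ : ℂ => aB σ (-τ) - 1) (𝓝 0) (𝓝 0) := ta.comp tneg
    filter_upwards [h.chord, ta.eventually hfg, tn.eventually hfg] with τ h1 h2 h3
    rw [add_sub_cancel] at h2 h3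
    rw [h2, h3] at h1
    linear_combination h1 / c

/-- from the law to the hypothesis of `hrg3` -/
theorem exists_hyp (h3 : -3 < σ) (h2 : σ < -2) {f : ℂ → ℂ} (h : LawB σ f) :
    ∃ (Y : ℂ → ℂ) (c : ℝ), Hyp (-(σ + 2)) Y c := by
  have hs3 : (σ : ℂ) + 3 ≠ 0 := by
    have : σ + 3 ≠ 0 := by linarith
    exact_mod_cast this
  have hs2 : (σ : ℂ) + 2 ≠ 0 := by
    have : σ + 2 ≠ 0 := by linarith
    exact_mod_cast this
  have hs1 : (σ : ℂ) + 1 ≠ 0 := by
    have : σ + 1 ≠ 0 := by linarith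
    exact_mod_cast this
  obtain ⟨g, hg, hg0, heven, hreal, hlaw⟩ := exists_real hs3 hs2 hs1 h
  obtain ⟨b, hb, hb0, hb1, e⟩ := exists_b hs2 hs1
  have hbd : ∀ τ, aB σ τ = 1 + τ * b τ := fun τ => by linear_combination e τ
  set κ : ℝ := 3 / (2 * (σ + 3)) with hκ
  have hκ0 : 0 < κ := by
    rw [hκ]; apply div_pos <;> linarith
  have hκ' : (κ : ℂ) ≠ 0 := by exact_mod_cast hκ0.ne'
  -- the regular part of `1 / g`
  have hgi : AnalyticAt ℂ (fun B => 1 / g B) 0 :=
    analyticAt_const.div hg (by rw [hg0]; exact one_ne_zero)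
  have hgne : ∀ᶠ B in 𝓝 (0:ℂ), g B ≠ 0 :=
    hg.continuousAt.eventually_ne (by rw [hg0]; exact one_ne_zero)
  obtain ⟨h₂, hh2, hgh⟩ : ∃ h₂ : ℂ → ℂ, AnalyticAt ℂ h₂ 0 ∧ ∀ B, 1 / g B = 1 + B ^ 2 * h₂ B := by
    have hgi' := hgi
    obtain ⟨p, hp⟩ := hgi'
    have a1 : AnalyticAt ℂ (dslope (fun B => 1 / g B) 0) 0 :=
      ⟨_, hp.has_fpower_series_dslope_fslope⟩
    have hder : deriv (fun B => 1 / g B) 0 = 0 := by
      have d0 := hgi.differentiableAt.hasDerivAt
      have d1 : HasDerivAt (fun B : ℂ => 1 / g (-B)) (-deriv (fun B => 1 / g B) 0) 0 := by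
        have h3 : HasDerivAt (fun B => 1 / g B) (deriv (fun B => 1 / g B) 0) (-(0:ℂ)) := by
          simpa using d0
        have := h3.comp (0:ℂ) (hasDerivAt_neg (0:ℂ))
        rw [mul_neg_one] at this
        exact this
      have d2 : HasDerivAt (fun B => 1 / g B) (-deriv (fun B => 1 / g B) 0) 0 :=
        d1.congr_of_eventuallyEq (heven.mono fun x hx => by simp only [hx])
      have := d2.unique d0
      linear_combination -this / 2
    have a1v : dslope (fun B => 1 / g B) 0 0 = 0 := by rw [dslope_same, hder]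
    obtain ⟨q, hq⟩ := a1
    refine ⟨dslope (dslope (fun B => 1 / g B) 0) 0, ⟨_, hq.has_fpower_series_dslope_fslope⟩, ?_⟩
    intro B
    have k1 := sub_smul_dslope (fun B => 1 / g B) 0 B
    have k2 := sub_smul_dslope (dslope (fun B => 1 / g B) 0) 0 B
    rw [a1v, sub_zero, sub_zero, smul_eq_mul] at k2
    rw [sub_zero, smul_eq_mul, ← k2, hg0, div_one] at k1
    linear_combination -k1
  have h2even : ∀ᶠ B in 𝓝 (0:ℂ), h₂ (-B) = h₂ B := by
    filter_upwards [heven] with B hB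
    rcases eq_or_ne B 0 with rfl | hB0
    · simp
    have k1 := hgh B
    have k2 := hgh (-B)
    rw [hB, k1] at k2
    apply mul_left_cancel₀ (pow_ne_zero 2 hB0)
    linear_combination -k2
  have h2real : ∀ᶠ B in 𝓝 (0:ℂ), (starRingEnd ℂ) (h₂ ((starRingEnd ℂ) B)) = h₂ B := by
    filter_upwards [hreal] with B hB
    rcases eq_or_ne B 0 with rfl | hB0
    · -- value at `0` : by continuity this is not needed, treat it separately
      have k : (starRingEnd ℂ) (h₂ ((starRingEnd ℂ) 0)) = h₂ 0 := by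
        have c1 : ContinuousAt (fun z => (starRingEnd ℂ) (h₂ ((starRingEnd ℂ) z))) 0 :=
          (an_conj (map_zero _) hh2).continuousAt
        have l1 := c1.tendsto.mono_left (nhdsWithin_le_nhds (s := {(0:ℂ)}ᶜ))
        have l2 := hh2.continuousAt.tendsto.mono_left (nhdsWithin_le_nhds (s := {(0:ℂ)}ᶜ))
        refine tendsto_nhds_unique l1 (l2.congr' ?_)
        filter_upwards [nhdsWithin_le_nhds hreal, self_mem_nhdsWithin] with B hB hB0
        have hB0' : B ≠ 0 := hB0
        have k1 := hgh B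
        have k2 := congrArg (starRingEnd ℂ) (hgh ((starRingEnd ℂ) B))
        rw [map_div₀, map_one, hB, conj_conj, k1, map_add, map_one, map_mul, map_pow,
          conj_conj] at k2
        apply mul_left_cancel₀ (pow_ne_zero 2 hB0')
        linear_combination k2
      exact k
    have k1 := hgh B
    have k2 := congrArg (starRingEnd ℂ) (hgh ((starRingEnd ℂ) B))
    rw [map_div₀, map_one, hB, conj_conj, k1, map_add, map_one, map_mul, map_pow,
      conj_conj] at k2
    apply mul_left_cancel₀ (pow_ne_zero 2 hB0)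
    linear_combination -k2
  -- a ball
  obtain ⟨r, hr0, hr⟩ := Metric.eventually_nhds_iff_ball.mp
    (hh2.eventually_analyticAt.and (h2even.and (h2real.and hgne)))
  have hdiff : DifferentiableOn ℂ h₂ (ball 0 r) := fun z hz =>
    (hr z hz).1.differentiableAt.differentiableWithinAt
  obtain ⟨H, H0, hH⟩ := hdiff.isExactOn_ball.with_val_at 0 0
  have hnegm : ∀ z : ℂ, z ∈ ball (0:ℂ) r → -z ∈ ball (0:ℂ) r := fun z hz => by
    rw [mem_ball_zero_iff] at hz ⊢; rwa [norm_neg]
  have hcm : ∀ z : ℂ, z ∈ ball (0:ℂ) r → (starRingEnd ℂ) z ∈ ball (0:ℂ) r := fun z hz => by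
    rw [mem_ball_zero_iff] at hz ⊢; rwa [norm_conj]
  have Hodd : ∀ z ∈ ball (0:ℂ) r, H (-z) = -H z := by
    intro z hz
    have := const_ball (f := fun z => H z + H (-z)) (r := r) (fun z hz => by
      have d1 := hH z hz
      have d2 := (hH (-z) (hnegm z hz)).comp z (hasDerivAt_neg z)
      rw [mul_neg_one, (hr z hz).2.1] at d2
      have := d1.add d2
      rw [add_neg_cancel] at this
      exact this) z hz
    simp only [neg_zero, H0, add_zero] at this
    linear_combination this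
  have Hreal : ∀ z ∈ ball (0:ℂ) r, H ((starRingEnd ℂ) z) = (starRingEnd ℂ) (H z) := by
    have key : ∀ z ∈ ball (0:ℂ) r, (starRingEnd ℂ) (H ((starRingEnd ℂ) z)) = H z := by
      intro z hz
      have := const_ball (f := fun z => (starRingEnd ℂ) (H ((starRingEnd ℂ) z)) - H z) (r := r)
        (fun z hz => by
          have d1 := (hH _ (hcm z hz)).conj_conj
          rw [conj_conj, (hr z hz).2.2.1] at d1
          have := d1.sub (hH z hz)
          rw [sub_self] at this
          exact this) z hz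
      simp only [map_zero, H0, sub_zero] at this
      linear_combination this
    intro z hz
    rw [← key z hz, conj_conj]
  have Han : AnalyticAt ℂ H 0 := by
    have : DifferentiableOn ℂ H (ball 0 r) := fun z hz =>
      (hH z hz).differentiableAt.differentiableWithinAt
    exact this.analyticAt (ball_mem_nhds 0 hr0)
  -- the Fatou coordinate and its inverse
  set T : ℂ → ℂ := fun B => κ / B - κ * H B with hT
  set S : ℂ → ℂ := fun B => B / (κ * (1 - B * H B)) with hS
  have hTd : ∀ B ∈ ball (0:ℂ) r, B ≠ 0 → HasDerivAt T (-κ / (B ^ 2 * g B)) B := by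
    intro B hB hB0
    have d1 : HasDerivAt (fun B : ℂ => (κ : ℂ) / B) (-κ / B ^ 2) B := by
      have := (hasDerivAt_inv hB0).const_mul (κ : ℂ)
      refine (this.congr_of_eventuallyEq ?_).congr_deriv ?_
      · exact Eventually.of_forall fun x => by simp [div_eq_mul_inv]
      · field_simp
    refine (d1.sub ((hH B hB).const_mul (κ : ℂ))).congr_deriv ?_
    have k1 := hgh B
    have k2 := (hr B hB).2.2.2
    have k3 : h₂ B = (1 / g B - 1) / B ^ 2 := by rw [k1]; field_simp; ring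
    rw [k3]; field_simp; ring
  have tB : Tendsto (fun τ : ℂ => τ * b τ) (𝓝 0) (𝓝 0) := by
    have := (continuousAt_id (x := (0:ℂ))).tendsto.mul hb.continuousAt.tendsto
    simpa using this
  have tBn : Tendsto (fun τ : ℂ => (-τ) * b (-τ)) (𝓝 0) (𝓝 0) := tB.comp tneg
  have hbn : AnalyticAt ℂ (fun τ => b (-τ)) 0 := by
    have h1 : AnalyticAt ℂ b ((fun τ : ℂ => -τ) 0) := by simpa using hb
    exact h1.comp' (f := fun τ : ℂ => -τ) (by fun_prop)
  have hbne : ∀ᶠ τ in 𝓝 (0:ℂ), b τ ≠ 0 :=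
    hb.continuousAt.eventually_ne (by rw [hb0]; norm_num)
  have hbne' : ∀ᶠ τ in 𝓝 (0:ℂ), b (-τ) ≠ 0 := tneg.eventually hbne
  -- `D`
  obtain ⟨β, hβ, hβ0, hβe⟩ : ∃ β : ℂ → ℂ, AnalyticAt ℂ β 0 ∧ β 0 = -(2 / 3) * (σ + 3) ∧
      ∀ τ, 1 / b τ - 1 / b (-τ) = τ * β τ := by
    have a0 : AnalyticAt ℂ (fun τ => 1 / b τ - 1 / b (-τ)) 0 := by
      apply AnalyticAt.sub
      · exact analyticAt_const.div hb (by rw [hb0]; norm_num)
      · exact analyticAt_const.div hbn (by simp [hb0])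
    have hder : HasDerivAt (fun τ => 1 / b τ - 1 / b (-τ)) (-(2 / 3) * (σ + 3)) 0 := by
      have db := hb.differentiableAt.hasDerivAt
      have dbn : HasDerivAt (fun τ => b (-τ)) (-deriv b 0) 0 := by
        have h3 : HasDerivAt b (deriv b 0) (-(0:ℂ)) := by simpa using db
        have := h3.comp (0:ℂ) (hasDerivAt_neg (0:ℂ))
        rw [mul_neg_one] at this
        exact this
      have d1 := (hasDerivAt_const (0:ℂ) (1:ℂ)).div db (by rw [hb0]; norm_num)
      have d2 := (hasDerivAt_const (0:ℂ) (1:ℂ)).div dbn (by simp [hb0])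
      refine (d1.sub d2).congr_deriv ?_
      simp only [neg_zero]
      rw [hb0, hb1]; ring
    obtain ⟨p, hp⟩ := a0
    refine ⟨dslope (fun τ => 1 / b τ - 1 / b (-τ)) 0, ⟨_, hp.has_fpower_series_dslope_fslope⟩, ?_,
      ?_⟩
    · rw [dslope_same, hder.deriv]
    · intro τ
      have := sub_smul_dslope (fun τ => 1 / b τ - 1 / b (-τ)) 0 τ
      rw [sub_zero, smul_eq_mul] at this
      simp only [neg_zero, sub_self, sub_zero] at this
      exact this.symm
  set D : ℂ → ℂ := fun τ => κ * β τ - κ * (H (τ * b τ) + H ((-τ) * b (-τ))) with hD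
  have HanB : AnalyticAt ℂ (fun τ => H (τ * b τ)) 0 := by
    have h1 : AnalyticAt ℂ H ((fun τ : ℂ => τ * b τ) 0) := by simpa using Han
    exact h1.comp' (f := fun τ : ℂ => τ * b τ) (analyticAt_id.mul hb)
  have HanBn : AnalyticAt ℂ (fun τ => H ((-τ) * b (-τ))) 0 := by
    have h1 : AnalyticAt ℂ H ((fun τ : ℂ => (-τ) * b (-τ)) 0) := by simpa using Han
    exact h1.comp' (f := fun τ : ℂ => (-τ) * b (-τ)) (analyticAt_id.neg.mul hbn)
  have hDan : AnalyticAt ℂ D 0 :=
    (analyticAt_const.mul hβ).sub (analyticAt_const.mul (HanB.add HanBn))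
  have hD0 : D 0 = -1 := by
    simp only [hD]
    rw [hβ0]
    simp only [neg_zero, zero_mul, H0, add_zero, mul_zero, sub_zero]
    rw [hκ]; push_cast
    field_simp
  have hDT : ∀ᶠ τ in 𝓝 (0:ℂ), τ ≠ 0 → D τ = T (τ * b τ) + T ((-τ) * b (-τ)) := by
    filter_upwards [hbne, hbne'] with τ h1 h2 hτ
    simp only [hD, hT]
    have := hβe τ
    have k : β τ = (1 / b τ - 1 / b (-τ)) / τ := by rw [this]; field_simp
    rw [k]
    field_simp
    ring
  have hDder : ∀ᶠ τ in 𝓝[≠] (0:ℂ), deriv D τ = 0 := by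
    have ev1 : ∀ᶠ τ in 𝓝 (0:ℂ), AnalyticAt ℂ b τ := hb.eventually_analyticAt
    have ev2 : ∀ᶠ τ in 𝓝 (0:ℂ), AnalyticAt ℂ b (-τ) := tneg.eventually ev1
    have ev3 : ∀ᶠ τ in 𝓝 (0:ℂ), τ * b τ ∈ ball (0:ℂ) r :=
      tB.eventually (ball_mem_nhds 0 hr0)
    have ev4 : ∀ᶠ τ in 𝓝 (0:ℂ), (-τ) * b (-τ) ∈ ball (0:ℂ) r :=
      tBn.eventually (ball_mem_nhds 0 hr0)
    have hda : ∀ᶠ τ in 𝓝 (0:ℂ), deriv (aB σ) τ = b τ + τ * deriv b τ := by
      filter_upwards [ev1] with τ h1
      have e2 : aB σ = fun τ => 1 + τ * b τ := funext hbd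
      rw [e2]
      have := ((hasDerivAt_id τ).mul h1.differentiableAt.hasDerivAt).const_add 1
      refine (this.congr_deriv ?_).deriv
      simp
    filter_upwards [nhdsWithin_le_nhds hDT.eventually_nhds, nhdsWithin_le_nhds ev1,
      nhdsWithin_le_nhds ev2, nhdsWithin_le_nhds ev3, nhdsWithin_le_nhds ev4,
      nhdsWithin_le_nhds hda, nhdsWithin_le_nhds (tneg.eventually hda),
      nhdsWithin_le_nhds (plaw hs2 hs1), nhdsWithin_le_nhds hlaw, nhdsWithin_le_nhds hbne,
      nhdsWithin_le_nhds hbne', self_mem_nhdsWithin]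
      with τ k1 k2 k3 k4 k5 k6 k7 k8 k9 k10 k11 k12
    have hτ : τ ≠ 0 := k12
    have hev : D =ᶠ[𝓝 τ] fun τ => T (τ * b τ) + T ((-τ) * b (-τ)) := by
      filter_upwards [k1, isOpen_ne.mem_nhds hτ] with x hx hx0 using hx hx0
    rw [hev.deriv_eq]
    have x1 : τ * b τ ≠ 0 := mul_ne_zero hτ k10
    have x2 : (-τ) * b (-τ) ≠ 0 := mul_ne_zero (neg_ne_zero.mpr hτ) k11
    have d1 : HasDerivAt (fun τ : ℂ => τ * b τ) (deriv (aB σ) τ) τ := by
      have := (hasDerivAt_id τ).mul k2.differentiableAt.hasDerivAt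
      refine this.congr_deriv ?_
      rw [k6]; simp
    have d2 : HasDerivAt (fun τ : ℂ => (-τ) * b (-τ)) (-deriv (aB σ) (-τ)) τ := by
      have h3 : HasDerivAt b (deriv b (-τ)) (-τ) := k3.differentiableAt.hasDerivAt
      have h4 := h3.comp τ (hasDerivAt_neg τ)
      have := (hasDerivAt_neg τ).mul h4
      refine this.congr_deriv ?_
      rw [k7]; simp; ring
    have d3 := (hTd _ k4 x1).comp τ d1
    have d4 := (hTd _ k5 x2).comp τ d2
    have d5 := d3.add d4
    have d6 : deriv (fun τ => T (τ * b τ) + T ((-τ) * b (-τ))) τ = _ := d5.deriv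
    rw [d6]
    rw [e, e] at k8 k9
    have n1 : g (τ * b τ) ≠ 0 := (hr _ k4).2.2.2
    have n2 : g ((-τ) * b (-τ)) ≠ 0 := (hr _ k5).2.2.2
    set B := τ * b τ
    set B' := (-τ) * b (-τ)
    set E := exp (((σ : ℂ) + 3) * τ)
    set A1 := deriv (aB σ) τ
    set A2 := deriv (aB σ) (-τ)
    -- B A1 = - E B' A2 , B^3 g = - E B'^3 g'
    have m1 : A1 = -(E * (B' * A2)) / B := by field_simp; linear_combination k8
    have m2 : g B = -(E * (B' ^ 3 * g B')) / B ^ 3 := by field_simp; linear_combination k9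
    have hE : E ≠ 0 := exp_ne_zero _
    rw [m1, m2]
    field_simp
    ring
  have hDconst : ∀ᶠ τ in 𝓝 (0:ℂ), D τ = -1 := by
    have h1 : ∀ᶠ τ in 𝓝 (0:ℂ), deriv D τ = 0 := by
      rcases hDan.deriv.eventually_eq_zero_or_eventually_ne_zero with h1 | h1
      · exact h1
      · exfalso
        obtain ⟨x, hx1, hx2⟩ := (hDder.and h1).exists
        exact hx2 hx1
    obtain ⟨ρ, hρ0, hρ⟩ := Metric.eventually_nhds_iff_ball.mp (h1.and hDan.eventually_analyticAt)
    filter_upwards [ball_mem_nhds (0:ℂ) hρ0] with z hz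
    rw [← hD0]
    refine const_ball (r := ρ) (fun w hw => ?_) z hz
    have := (hρ w hw).2.differentiableAt.hasDerivAt
    rwa [(hρ w hw).1] at this
  have hshift : ∀ᶠ τ in 𝓝 (0:ℂ), τ ≠ 0 → T (τ * b τ) + T ((-τ) * b (-τ)) = -1 := by
    filter_upwards [hDconst, hDT] with τ k1 k2 hτ
    rw [← k2 hτ, k1]
  -- properties of `S`
  have hSan : AnalyticAt ℂ S 0 := by
    apply analyticAt_id.div
    · exact analyticAt_const.mul (analyticAt_const.sub (analyticAt_id.mul Han))
    · simpa using hκ0.ne'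
  have hS0 : S 0 = 0 := by simp [hS]
  have hSd : HasDerivAt S (κ : ℂ)⁻¹ 0 := by
    have d1 : HasDerivAt (fun B : ℂ => (κ : ℂ) * (1 - B * H B)) (κ * (-(1 * H 0 + 0 * deriv H 0))) 0 := by
      have := (((hasDerivAt_id (0:ℂ)).mul Han.differentiableAt.hasDerivAt).const_sub 1).const_mul
        (κ : ℂ)
      exact this
    have := (hasDerivAt_id (0:ℂ)).div d1 (by simpa using hκ0.ne')
    refine this.congr_deriv ?_
    simp [H0]
    field_simp
  have hden : ∀ᶠ B in 𝓝 (0:ℂ), (1 - B * H B) ≠ 0 := by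
    have : ContinuousAt (fun B : ℂ => 1 - B * H B) 0 :=
      continuousAt_const.sub (continuousAt_id.mul Han.continuousAt)
    exact this.eventually_ne (by simp)
  have hST : ∀ᶠ B in 𝓝 (0:ℂ), B ≠ 0 → S B = 1 / T B := by
    filter_upwards [hden] with B hB hB0
    have : T B = κ * (1 - B * H B) / B := by simp only [hT]; field_simp
    rw [this]
    simp only [hS]
    rw [one_div_div]
  have hSodd : ∀ᶠ B in 𝓝 (0:ℂ), S (-B) = -S B := by
    filter_upwards [ball_mem_nhds (0:ℂ) hr0] with B hB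
    simp only [hS]
    rw [Hodd B hB]
    rw [neg_mul_neg, neg_div]
  have hSreal : ∀ᶠ B in 𝓝 (0:ℂ), S ((starRingEnd ℂ) B) = (starRingEnd ℂ) (S B) := by
    filter_upwards [ball_mem_nhds (0:ℂ) hr0] with B hB
    simp only [hS]
    rw [Hreal B hB]
    simp
  obtain ⟨Y, hY, hY0, hYd, hSY, hYS⟩ := loc_inv hSan hSd (inv_ne_zero hκ') hS0
  rw [inv_inv] at hYd
  have tY : Tendsto Y (𝓝 0) (𝓝 0) := by
    have := hY.continuousAt.tendsto; rwa [hY0] at this
  refine ⟨Y, κ, hY, hY0, hYd, hκ0, ?_, ?_, ?_⟩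
  · have tYn : Tendsto (fun u => -Y u) (𝓝 0) (𝓝 0) := by simpa using tY.neg
    filter_upwards [tYn.eventually hYS, tY.eventually hSodd, hSY] with u h1 h2 h3
    rw [h2, h3] at h1
    exact h1
  · have tYc : Tendsto (fun u => (starRingEnd ℂ) (Y u)) (𝓝 0) (𝓝 0) := tconj.comp tY
    filter_upwards [tYc.eventually hYS, tY.eventually hSreal, hSY] with u h1 h2 h3
    rw [h2, h3] at h1
    exact h1
  · -- local inverse of the chord function
    have hBan : AnalyticAt ℂ (fun τ : ℂ => τ * b τ) 0 := analyticAt_id.mul hb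
    have hBd : HasDerivAt (fun τ : ℂ => τ * b τ) (1 / 2) 0 := by
      have := (hasDerivAt_id (0:ℂ)).mul hb.differentiableAt.hasDerivAt
      refine this.congr_deriv ?_
      simp [hb0]
    obtain ⟨θ, hθ, hθ0, -, hθr, -⟩ := loc_inv hBan hBd (by norm_num) (by simp)
    have tθ : Tendsto θ (𝓝 0) (𝓝 0) := by
      have := hθ.continuousAt.tendsto; rwa [hθ0] at this
    have tτ : Tendsto (fun u => θ (Y u)) (𝓝 0) (𝓝 0) := tθ.comp tY
    have tnorm : ∀ᶠ z in 𝓝 (0:ℂ), ‖z‖ < 1 / 2 := by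
      filter_upwards [ball_mem_nhds (0:ℂ) (by norm_num : (0:ℝ) < 1 / 2)] with z hz
      simpa using hz
    have tB1 : Tendsto (fun τ : ℂ => -((-τ) * b (-τ))) (𝓝 0) (𝓝 0) := by simpa using tBn.neg
    filter_upwards [tY.eventually hθr, tτ.eventually hshift, hSY, (tB1.comp tτ).eventually hYS,
      (tB1.comp tτ).eventually hST, tY.eventually hST, (tBn.comp tτ).eventually
        (ball_mem_nhds (0:ℂ) hr0), tτ.eventually (ev_Ex_ne ((σ : ℂ) + 1)),
      (tneg.comp tτ).eventually (ev_Ex_ne ((σ : ℂ) + 1)), tτ.eventually tnorm,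
      tY.eventually tnorm, tτ.eventually hbne'] with u k1 k2 k3 k4 k5 k6 k7 k8 k9 k10 k11 k12
    rcases eq_or_ne (Y u) 0 with hYu | hYu
    · have hu : u = 0 := by rw [← k3, hYu, hS0]
      subst hu
      simp [hY0, G0, Vale.Agent.P097.H849.H0]
    set τ := θ (Y u) with hτd
    have hτ : τ ≠ 0 := by
      intro h0
      rw [h0] at k1
      simp at k1
      exact hYu k1.symm
    have hshift' := k2 hτ
    rw [k1] at hshift'
    set B' := (-τ) * b (-τ) with hB'
    have hB'0 : B' ≠ 0 := mul_ne_zero (neg_ne_zero.mpr hτ) k12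
    have e5 : S (-B') = 1 / T (-B') := k5 (neg_ne_zero.mpr hB'0)
    have hTodd : T (-B') = -T B' := by
      simp only [hT]
      rw [Hodd B' k7]
      rw [div_neg]; ring
    have e6 : S (Y u) = 1 / T (Y u) := k6 hYu
    rw [k3] at e6
    have hu0 : u ≠ 0 := by
      intro h0
      apply hYu
      rw [h0]; exact hY0
    have hTY : T (Y u) = 1 / u := by
      have := congrArg (fun z : ℂ => 1 / z) e6
      simp only [one_div_one_div] at this
      exact this.symm
    have hT1 : T (-B') = 1 + 1 / u := by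
      rw [hTodd]; linear_combination -hshift' + hTY
    have hSB : S (-B') = u / (1 + u) := by
      rw [e5, hT1]
      rw [show (1 : ℂ) + 1 / u = (1 + u) / u by rw [add_div, div_self hu0, add_comm]]
      rw [one_div_div]
    have hYB : Y (u / (1 + u)) = -B' := by
      rw [← hSB]; exact k4
    rw [hYB]
    -- the algebraic relation
    have a1 : aB σ τ = 1 + Y u := by rw [hbd, k1]
    have a2 : aB σ (-τ) = 1 + B' := hbd (-τ)
    have r1 : 1 - -B' = exp (-τ) * (1 + Y u) := by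
      rw [sub_neg_eq_add, ← a2, aB_neg, a1]
    have r2 : 1 + ((-(σ + 2) : ℝ) : ℂ) * -B' =
        exp (-(((σ : ℂ) + 2) * τ)) * (1 - ((-(σ + 2) : ℝ) : ℂ) * Y u) := by
      have q1 := H24.aB_dual (σ := σ) τ hs2 k8
      have q2 := H24.aB_dual (σ := σ) (-τ) hs2 k9
      rw [a2, mul_neg, aB_neg ((σ + 2) * τ), ← q1, a1] at q2
      push_cast
      linear_combination q2
    unfold G0 Vale.Agent.P097.H849.H0
    rw [r1, r2]
    have hm2 : |σ + 2| < 1 := by rw [abs_lt]; constructor <;> linarith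
    have n1 : 0 < (1 + Y u).re := by
      have := abs_re_le_norm (Y u)
      have := neg_abs_le (Y u).re
      rw [add_re, one_re]; linarith
    have n2 : 0 < (1 - ((-(σ + 2) : ℝ) : ℂ) * Y u).re := by
      have h1 := abs_re_le_norm (Y u)
      have h2 : |(-(σ + 2)) * (Y u).re| ≤ 1 * ‖Y u‖ := by
        rw [abs_mul, abs_neg]
        exact mul_le_mul hm2.le h1 (abs_nonneg _) zero_le_one
      have := le_abs_self ((-(σ + 2)) * (Y u).re)
      rw [sub_re, one_re, re_ofReal_mul]; linarith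
    have n3 : ‖((σ : ℂ) + 2) * τ‖ < 1 := by
      rw [norm_mul]
      have : ‖(σ : ℂ) + 2‖ < 1 := by
        rw [show (σ : ℂ) + 2 = ((σ + 2 : ℝ) : ℂ) by push_cast; ring, Complex.norm_real]
        exact hm2
      nlinarith [norm_nonneg τ, norm_nonneg ((σ : ℂ) + 2)]
    rw [log_exp_mul n1 (by linarith), log_exp_mul n2 n3]
    have hm : ((-(σ + 2) : ℝ) : ℂ) ≠ 0 := by
      push_cast; exact neg_ne_zero.mpr hs2
    field_simp
    push_cast
    ring

/-- **no pencil law for `-3 < σ < -2`** -/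
theorem kb3' (h3 : -3 < σ) (h2 : σ < -2) (f : ℂ → ℂ) : ¬ LawB σ f := by
  intro h
  obtain ⟨Y, c, hY⟩ := exists_hyp h3 h2 h
  exact hrg3 (m := -(σ + 2)) (by linarith) (by linarith) hY

/-- ALG-K2 -/
theorem kb3 : Vale.Agent.P097.Alg.KB3 := fun σ f h3 h2 => kb3' h3 h2 f

end

end Vale.Agent.P097.H849
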