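import Vale.Agent.P097.H849.FF

namespace Vale.Agent.P097.H849

open Complex Filter Topology Set

noncomputable section

variable {m : ℝ}

/-- all positions left of the centre have positive imaginary part -/
def Good (m : ℝ) (K : ℕ) (w : ℂ) : Prop := ∀ j : ℕ, 2 * j < K → 0 < ((F m)^[j] w).im

/-- centre function -/
def cen (m : ℝ) (K : ℕ) (w : ℂ) : ℝ :=
  if Even K then ((F m)^[K / 2] w).im else (g m ((F m)^[K / 2] w)).re

lemma iter_deriv (hm : 0 < m) (hm1 : m < 1) (j : ℕ) {w : ℂ}
    (h : ∀ i < j, (F m)^[i] w ∈ V m) : ∃ d : ℂ, d ≠ 0 ∧ HasDerivAt ((F m)^[j]) d w := by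
  induction j with
  | zero => exact ⟨1, one_ne_zero, by simpa using hasDerivAt_id w⟩
  | succ j ih =>
    obtain ⟨d, hd, hd'⟩ := ih (fun i hi => h i (Nat.lt_succ_of_lt hi))
    obtain ⟨e, he, he'⟩ := hasDerivAt_F hm hm1 (h j (Nat.lt_succ_self j))
    refine ⟨e * d, mul_ne_zero he hd, ?_⟩
    rw [Function.iterate_succ']
    exact he'.comp w hd'

lemma iter_analytic (hm : 0 < m) (hm1 : m < 1) (j : ℕ) {w : ℂ}
    (h : ∀ i < j, (F m)^[i] w ∈ V m) : AnalyticAt ℂ ((F m)^[j]) w := by
  induction j with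
  | zero => simpa using analyticAt_id
  | succ j ih =>
    rw [Function.iterate_succ']
    exact (analyticAt_F hm hm1 (h j (Nat.lt_succ_self j))).comp
      (ih (fun i hi => h i (Nat.lt_succ_of_lt hi)))

lemma iter_le (hm : 0 < m) (hm1 : m < 1) (j : ℕ) {w : ℂ} (hw : w.im ≤ 2 * Real.pi)
    (h : ∀ i < j, 0 < ((F m)^[i] w).im) : ((F m)^[j] w).im ≤ 2 * Real.pi := by
  have hpi := Real.pi_pos
  induction j with
  | zero => simpa using hw
  | succ j ih =>
    have h1 := ih (fun i hi => h i (Nat.lt_succ_of_lt hi))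
    have h2 := im_F_le hm hm1 (mem_V hm hm1 (h j (Nat.lt_succ_self j)) h1)
    rw [Function.iterate_succ_apply']
    exact h2.trans (max_le (by linarith) h1)

lemma iter_mem (hm : 0 < m) (hm1 : m < 1) (j : ℕ) {w : ℂ} (hw : w.im ≤ 2 * Real.pi)
    (h : ∀ i ≤ j, 0 < ((F m)^[i] w).im) : (F m)^[j] w ∈ V m :=
  mem_V hm hm1 (h j le_rfl) (iter_le hm hm1 j hw (fun i hi => h i hi.le))

lemma Good.mem (hm : 0 < m) (hm1 : m < 1) {K : ℕ} {w : ℂ} (hw : w.im ≤ 2 * Real.pi)
    (h : Good m K w) {j : ℕ} (hj : 2 * j < K) : (F m)^[j] w ∈ V m :=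
  iter_mem hm hm1 j hw (fun i hi => h i (by omega))

/-- the key limit lemma -/
lemma good_of_limit (hm : 0 < m) (hm1 : m < 1) {K : ℕ} {w : ℂ} {u : Filter ℂ} [NeBot u]
    (hu : u ≤ 𝓝 w) (h : ∀ᶠ v in u, Good m K v ∧ cen m K v = 0) (h0 : 0 < w.im)
    (h1 : w.im ≤ 2 * Real.pi) : Good m K w := by
  intro j
  induction j using Nat.strong_induction_on with
  | _ j ih =>
    intro hj
    rcases Nat.eq_zero_or_pos j with rfl | hjpos
    · simpa using h0
    have hpos : ∀ i < j, 0 < ((F m)^[i] w).im := fun i hi => ih i hi (by omega)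
    have hV : ∀ i < j, (F m)^[i] w ∈ V m := fun i hi =>
      iter_mem hm hm1 i h1 (fun i' hi' => hpos i' (lt_of_le_of_lt hi' hi))
    have hcont : Tendsto (fun v => ((F m)^[j] v).im) u (𝓝 ((F m)^[j] w).im) :=
      ((continuous_im.continuousAt.comp (iter_analytic hm hm1 j hV).continuousAt).tendsto).mono_left
        hu
    have hge : 0 ≤ ((F m)^[j] w).im := by
      refine ge_of_tendsto hcont ?_
      filter_upwards [h] with v hv using (hv.1 j hj).le
    rcases hge.lt_or_eq with hlt | heq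
    · exact hlt
    exfalso
    obtain ⟨i, rfl⟩ : ∃ i, j = i + 1 := ⟨j - 1, by omega⟩
    have hi : (F m)^[i] w ∈ V m := hV i (by omega)
    have hipos := hpos i (by omega)
    have hFi : (F m ((F m)^[i] w)).im = 0 := by
      rw [← Function.iterate_succ_apply' (F m) i w]; exact heq.symm
    obtain ⟨-, r2, r3, r4⟩ := reflect hm hm1 hi hFi
    rw [← Function.iterate_succ_apply' (F m) i w] at r2 r3 r4
    have hV' : ∀ i' < i + 1 + 1, (F m)^[i'] w ∈ V m := by
      intro i' hi'
      rcases Nat.lt_succ_iff_lt_or_eq.mp hi' with h2 | h2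
      · exact hV i' h2
      · rw [h2]; exact r2
    have hcont2 : Tendsto (fun v => ((F m)^[i + 1 + 1] v).im) u
        (𝓝 ((F m)^[i + 1 + 1] w).im) :=
      ((continuous_im.continuousAt.comp
        (iter_analytic hm hm1 _ hV').continuousAt).tendsto).mono_left hu
    have hval : ((F m)^[i + 1 + 1] w).im < 0 := by
      rw [Function.iterate_succ_apply', r4, conj_im]; linarith
    rcases lt_trichotomy (2 * (i + 1 + 1)) K with hK | hK | hK
    · have : 0 ≤ ((F m)^[i + 1 + 1] w).im := by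
        refine ge_of_tendsto hcont2 ?_
        filter_upwards [h] with v hv using (hv.1 _ hK).le
      linarith
    · have : 0 ≤ ((F m)^[i + 1 + 1] w).im := by
        refine ge_of_tendsto hcont2 ?_
        filter_upwards [h] with v hv
        have h2 := hv.2
        have hK2 : K / 2 = i + 1 + 1 := by omega
        have hev : Even K := ⟨i + 1 + 1, by omega⟩
        unfold cen at h2
        rw [if_pos hev, hK2] at h2
        exact h2.ge
      linarith
    · have hK2 : K / 2 = i + 1 := by omega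
      have hodd : ¬ Even K := by
        rw [Nat.not_even_iff_odd]; exact ⟨i + 1, by omega⟩
      have hcont3 : Tendsto (fun v => (g m ((F m)^[i + 1] v)).re) u
          (𝓝 (g m ((F m)^[i + 1] w)).re) := by
        have hc : ContinuousAt (fun v => g m ((F m)^[i + 1] v)) w :=
          (analyticAt_g hm hm1 r2).continuousAt.comp (iter_analytic hm hm1 _ hV).continuousAt
        exact ((continuous_re.continuousAt.comp hc).tendsto).mono_left hu
      have hz : (g m ((F m)^[i + 1] w)).re = 0 := by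
        refine tendsto_nhds_unique hcont3 (tendsto_const_nhds.congr' ?_)
        filter_upwards [h] with v hv
        have h2 := hv.2
        unfold cen at h2
        rw [if_neg hodd, hK2] at h2
        exact h2.symm
      have hz' : (g m ((F m)^[i] w)).re = 0 := by
        rw [r3] at hz; simpa using hz
      have heq2 : g m ((F m)^[i + 1] w) = g m ((F m)^[i] w) := by
        rw [r3]
        apply Complex.ext
        · simp [hz']
        · simp
      have := congrArg (G m) heq2
      rw [G_g hm hm1 r2, G_g hm hm1 hi] at this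
      rw [← this] at hipos
      linarith

/-- the centre function is (complex) analytic before taking real/imaginary parts -/
lemma cen_analytic (hm : 0 < m) (hm1 : m < 1) {K : ℕ} {w : ℂ}
    (hw : w.im ≤ 2 * Real.pi) (h : Good m K w) : AnalyticAt ℝ (cen m K) w := by
  have hV : ∀ i < K / 2, (F m)^[i] w ∈ V m := fun i hi => h.mem hm hm1 hw (by omega)
  have h1 := iter_analytic hm hm1 (K / 2) hV
  unfold cen
  by_cases hev : Even K
  · simp only [if_pos hev]
    exact Complex.imCLM.analyticAt _ |>.comp h1.restrictScalars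
  · simp only [if_neg hev]
    have hodd := Nat.not_even_iff_odd.mp hev
    have : 2 * (K / 2) < K := by
      obtain ⟨l, hl⟩ := hodd; omega
    have h2 := (analyticAt_g hm hm1 (h.mem hm hm1 hw this)).comp h1
    exact Complex.reCLM.analyticAt _ |>.comp h2.restrictScalars

lemma good_open (hm : 0 < m) (hm1 : m < 1) {K : ℕ} {w : ℂ}
    (hw : w.im ≤ 2 * Real.pi) (h : Good m K w) : ∀ᶠ v in 𝓝 w, Good m K v := by
  have : ∀ j : ℕ, 2 * j < K → ∀ᶠ v in 𝓝 w, 0 < ((F m)^[j] v).im := by
    intro j hj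
    have hV : ∀ i < j, (F m)^[i] w ∈ V m := fun i hi => h.mem hm hm1 hw (by omega)
    have hc := continuous_im.continuousAt.comp (iter_analytic hm hm1 j hV).continuousAt
    exact hc.eventually (lt_mem_nhds (h j hj))
  have h2 : ∀ᶠ v in 𝓝 w, ∀ j ∈ Finset.range K, 2 * j < K → 0 < ((F m)^[j] v).im := by
    rw [Filter.eventually_all_finset]
    intro j _
    by_cases hj : 2 * j < K
    · filter_upwards [this j hj] with v hv _ using hv
    · exact Eventually.of_forall (fun v hv => absurd hv hj)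
  filter_upwards [h2] with v hv j hj
  exact hv j (Finset.mem_range.mpr (by omega)) hj

/-- chain lemma along a real analytic path -/
lemma chain (hm : 0 < m) (hm1 : m < 1) {K : ℕ} {γ : ℝ → ℂ} {J : Set ℝ}
    (hJo : IsOpen J) (hJ : J.OrdConnected) (hγ : ∀ t ∈ J, AnalyticAt ℝ γ t)
    (him : ∀ t ∈ J, 0 < (γ t).im ∧ (γ t).im ≤ 2 * Real.pi) {t₀ : ℝ} (ht₀ : t₀ ∈ J)
    (hst : ∀ t ∈ J, t ≤ t₀ → Good m K (γ t) ∧ cen m K (γ t) = 0) :
    ∀ t ∈ J, Good m K (γ t) ∧ cen m K (γ t) = 0 := by
  by_contra hcon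
  push Not at hcon
  obtain ⟨t₁, ht₁, hbad₁⟩ := hcon
  set B : Set ℝ := {t | t ∈ J ∧ ¬ (Good m K (γ t) ∧ cen m K (γ t) = 0)} with hB
  have hB1 : t₁ ∈ B := ⟨ht₁, fun h => hbad₁ h.1 h.2⟩
  have hbdd : BddBelow B := ⟨t₀, fun t ht => by
    by_contra hlt
    exact ht.2 (hst t ht.1 (not_le.mp hlt).le)⟩
  set t := sInf B with ht
  have htle : t ≤ t₁ := csInf_le hbdd hB1
  have hlet : t₀ ≤ t := le_csInf ⟨t₁, hB1⟩ (fun s hs => by
    by_contra hlt
    exact hs.2 (hst s hs.1 (not_le.mp hlt).le))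
  have htJ : t ∈ J := hJ.out ht₀ ht₁ ⟨hlet, htle⟩
  have hleft : ∀ᶠ s in 𝓝[<] t, Good m K (γ s) ∧ cen m K (γ s) = 0 := by
    have h1 : ∀ᶠ s in 𝓝[<] t, s ∈ J := mem_nhdsWithin_of_mem_nhds (hJo.mem_nhds htJ)
    filter_upwards [h1, self_mem_nhdsWithin] with s hs hs'
    by_contra hbad
    exact absurd (csInf_le hbdd ⟨hs, hbad⟩) (not_le.mpr hs')
  have hcγ : ContinuousAt γ t := (hγ t htJ).continuousAt
  have hgood : Good m K (γ t) := by
    have hle : map γ (𝓝[<] t) ≤ 𝓝 (γ t) := hcγ.tendsto.mono_left nhdsWithin_le_nhds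
    exact good_of_limit hm hm1 (u := map γ (𝓝[<] t)) hle (eventually_map.mpr hleft)
      (him t htJ).1 (him t htJ).2
  have h1 : ∀ᶠ s in 𝓝 t, Good m K (γ s) :=
    hcγ.eventually (good_open hm hm1 (him t htJ).2 hgood)
  have hA : AnalyticAt ℝ (fun s => cen m K (γ s)) t :=
    (cen_analytic hm hm1 (him t htJ).2 hgood).comp (hγ t htJ)
  have h2 : ∀ᶠ s in 𝓝 t, cen m K (γ s) = 0 := by
    rcases hA.eventually_eq_zero_or_eventually_ne_zero with h | h
    · exact h
    · exfalso
      have h3 : ∀ᶠ s in 𝓝[<] t, cen m K (γ s) ≠ 0 :=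
        h.filter_mono (nhdsWithin_mono t (fun s hs => ne_of_lt hs))
      obtain ⟨s, hs, hs'⟩ := (h3.and hleft).exists
      exact hs hs'.2
  -- contradiction with the infimum
  obtain ⟨ε, hε, hball⟩ := Metric.eventually_nhds_iff.mp (h1.and h2)
  obtain ⟨s, hs, hs'⟩ := exists_lt_of_csInf_lt ⟨t₁, hB1⟩ (show sInf B < t + ε by linarith)
  have hts : t ≤ s := csInf_le hbdd hs
  have := hball (y := s) (by rw [Real.dist_eq, abs_of_nonneg (by linarith)]; linarith)
  exact hs.2 this

end

end Vale.Agent.P097.H849
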