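import Mathlib

namespace Vale.Agent.P097.H849

open Filter Topology Set

noncomputable section

variable {m : ℝ}

def Gr (m b : ℝ) : ℝ := Real.log (1 - b) + Real.log (1 + m * b) / m

def Hr (m a : ℝ) : ℝ := Real.log (1 + a) + Real.log (1 - m * a) / m

lemma hasDerivAt_Gr (hm : 0 < m) {b : ℝ} (h1 : b < 1) (h2 : -1 < m * b) :
    HasDerivAt (Gr m) (-(1 + m) * b / ((1 - b) * (1 + m * b))) b := by
  have e1 : (1 - b) ≠ 0 := by linarith
  have e2 : (1 + m * b) ≠ 0 := by linarith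
  have d1 : HasDerivAt (fun b : ℝ => 1 - b) (-1) b := by
    simpa using (hasDerivAt_id b).const_sub 1
  have d2 : HasDerivAt (fun b : ℝ => 1 + m * b) m b := by
    simpa using ((hasDerivAt_id b).const_mul m).const_add 1
  refine ((d1.log e1).add ((d2.log e2).div_const m)).congr_deriv ?_
  obtain ⟨A, hA⟩ : ∃ A : ℝ, A = 1 - b := ⟨_, rfl⟩
  obtain ⟨B, hB⟩ : ∃ B : ℝ, B = 1 + m * b := ⟨_, rfl⟩
  rw [← hA] at e1 ⊢
  rw [← hB] at e2 ⊢
  field_simp
  rw [hA, hB]; ring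

lemma Hr_eq (a : ℝ) : Hr m a = Gr m (-a) := by
  unfold Hr Gr
  simp [sub_eq_add_neg]

lemma hasDerivAt_Hr (hm : 0 < m) {a : ℝ} (h1 : -1 < a) (h2 : m * a < 1) :
    HasDerivAt (Hr m) (-(1 + m) * a / ((1 + a) * (1 - m * a))) a := by
  have := (hasDerivAt_Gr (b := -a) hm (by linarith) (by linarith)).comp a (hasDerivAt_neg a)
  have h3 : Hr m = Gr m ∘ (fun x => -x) := by funext x; exact Hr_eq x
  rw [h3]
  refine this.congr_deriv ?_
  have e1 : (1 + a) ≠ 0 := by linarith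
  have e2 : (1 - m * a) ≠ 0 := by linarith
  simp only [sub_neg_eq_add, mul_neg, ← sub_eq_add_neg]
  ring

lemma Gr_zero : Gr m 0 = 0 := by simp [Gr]
lemma Hr_zero : Hr m 0 = 0 := by simp [Hr]

lemma Gr_strictMono (hm : 0 < m) : StrictMonoOn (Gr m) (Ioc (-1 / m) 0) := by
  have key : ∀ b : ℝ, -1 / m < b → -1 < m * b := fun b hb => by
    have := mul_lt_mul_of_pos_left hb hm
    rwa [mul_div_cancel₀ _ hm.ne'] at this
  apply strictMonoOn_of_deriv_pos (convex_Ioc _ _)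
  · intro b hb
    exact (hasDerivAt_Gr hm (by linarith [hb.2]) (key b hb.1)).continuousAt.continuousWithinAt
  · intro b hb
    rw [interior_Ioc] at hb
    rw [(hasDerivAt_Gr hm (by linarith [hb.2]) (key b hb.1)).deriv]
    have h1 : 0 < 1 - b := by linarith [hb.2]
    have h2 : 0 < 1 + m * b := by linarith [key b hb.1]
    apply div_pos
    · have := hb.2; nlinarith
    · positivity

lemma Hr_strictMono (hm : 0 < m) : StrictMonoOn (Hr m) (Ioc (-1) 0) := by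
  apply strictMonoOn_of_deriv_pos (convex_Ioc _ _)
  · intro b hb
    exact (hasDerivAt_Hr hm hb.1 (by nlinarith [hb.2])).continuousAt.continuousWithinAt
  · intro b hb
    rw [interior_Ioc] at hb
    rw [(hasDerivAt_Hr hm hb.1 (by nlinarith [hb.2])).deriv]
    have h1 : 0 < 1 + b := by linarith [hb.1]
    have h2 : 0 < 1 - m * b := by nlinarith [hb.2]
    apply div_pos
    · have := hb.2; nlinarith
    · positivity

lemma Hr_neg (hm : 0 < m) {a : ℝ} (ha : a ∈ Ioo (-1 : ℝ) 0) : Hr m a < 0 := by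
  have := Hr_strictMono hm ⟨ha.1, ha.2.le⟩ ⟨by norm_num, le_rfl⟩ ha.2
  rwa [Hr_zero] at this

lemma exists_rho (hm : 0 < m) {r : ℝ} (hr : r < 0) : ∃ b ∈ Ioo (-1 / m) 0, Gr m b = r := by
  -- choose b₀ close to -1/m with Gr b₀ ≤ r
  have key : ∀ b : ℝ, -1 / m < b → -1 < m * b := fun b hb => by
    have := mul_lt_mul_of_pos_left hb hm
    rwa [mul_div_cancel₀ _ hm.ne'] at this
  set e := Real.exp (m * (r - Real.log (1 + 1 / m))) with he
  have he0 : 0 < e := Real.exp_pos _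
  have hlog : 0 ≤ Real.log (1 + 1 / m) := Real.log_nonneg (by
    have : 0 < 1 / m := by positivity
    linarith)
  have he1 : e < 1 := by
    rw [he, Real.exp_lt_one_iff]
    exact mul_neg_of_pos_of_neg hm (by linarith)
  set b₀ := (e - 1) / m with hb₀
  have hb1 : -1 / m < b₀ := by rw [hb₀]; gcongr; linarith
  have hb2 : b₀ < 0 := div_neg_of_neg_of_pos (by linarith) hm
  have hmb : 1 + m * b₀ = e := by rw [hb₀]; field_simp; ring
  have hle : Gr m b₀ ≤ r := by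
    unfold Gr
    rw [hmb, he, Real.log_exp]
    have : Real.log (1 - b₀) ≤ Real.log (1 + 1 / m) := by
      apply Real.log_le_log (by linarith)
      have : -1 / m = -(1 / m) := by ring
      linarith
    have h2 : m * (r - Real.log (1 + 1 / m)) / m = r - Real.log (1 + 1 / m) := by field_simp
    rw [h2]; linarith
  have hcont : ContinuousOn (Gr m) (Icc b₀ 0) := by
    intro b hb
    exact (hasDerivAt_Gr hm (by linarith [hb.2])
      (key b (lt_of_lt_of_le hb1 hb.1))).continuousAt.continuousWithinAt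
  obtain ⟨b, hb, hbr⟩ : r ∈ Gr m '' Icc b₀ 0 := by
    apply intermediate_value_Icc hb2.le hcont
    exact ⟨hle, by rw [Gr_zero]; exact hr.le⟩
  refine ⟨b, ⟨lt_of_lt_of_le hb1 hb.1, ?_⟩, hbr⟩
  rcases hb.2.lt_or_eq with h | h
  · exact h
  · rw [h, Gr_zero] at hbr; linarith

open Classical in
def rho (m a : ℝ) : ℝ := if h : ∃ b ∈ Ioo (-1 / m) 0, Gr m b = Hr m a then h.choose else 0

lemma rho_spec (hm : 0 < m) {a : ℝ} (ha : a ∈ Ioo (-1 : ℝ) 0) :
    rho m a ∈ Ioo (-1 / m) 0 ∧ Gr m (rho m a) = Hr m a := by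
  have h := exists_rho hm (Hr_neg hm ha)
  unfold rho
  rw [dif_pos h]
  exact ⟨h.choose_spec.1, h.choose_spec.2⟩

lemma rho_unique (hm : 0 < m) {a b : ℝ} (ha : a ∈ Ioo (-1 : ℝ) 0) (hb : b ∈ Ioo (-1 / m) 0)
    (h : Gr m b = Hr m a) : rho m a = b := by
  obtain ⟨h1, h2⟩ := rho_spec hm ha
  exact (Gr_strictMono hm).injOn ⟨h1.1, h1.2.le⟩ ⟨hb.1, hb.2.le⟩ (h2.trans h.symm)

lemma rho_mono (hm : 0 < m) {a a' : ℝ} (ha : a ∈ Ioo (-1 : ℝ) 0) (ha' : a' ∈ Ioo (-1 : ℝ) 0)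
    (h : a < a') : rho m a < rho m a' := by
  obtain ⟨h1, h2⟩ := rho_spec hm ha
  obtain ⟨h3, h4⟩ := rho_spec hm ha'
  rw [← (Gr_strictMono hm).lt_iff_lt ⟨h1.1, h1.2.le⟩ ⟨h3.1, h3.2.le⟩, h2, h4]
  exact Hr_strictMono hm ⟨ha.1, ha.2.le⟩ ⟨ha'.1, ha'.2.le⟩ h

/-- the gap function `E = Gr - Hr` is strictly decreasing on `(-1,0]` -/
lemma E_anti (hm : 0 < m) (hm1 : m < 1) :
    StrictAntiOn (fun a => Gr m a - Hr m a) (Ioc (-1 : ℝ) 0) := by
  have hd : ∀ a ∈ Ioc (-1 : ℝ) 0, HasDerivAt (fun a => Gr m a - Hr m a)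
      (-(1 + m) * a / ((1 - a) * (1 + m * a)) - -(1 + m) * a / ((1 + a) * (1 - m * a))) a := by
    intro a ha
    exact (hasDerivAt_Gr hm (by linarith [ha.2]) (by nlinarith [ha.1, ha.2])).sub
      (hasDerivAt_Hr hm ha.1 (by nlinarith [ha.2]))
  apply strictAntiOn_of_deriv_neg (convex_Ioc _ _)
  · intro a ha
    exact (hd a ha).continuousAt.continuousWithinAt
  · intro a ha
    rw [interior_Ioc] at ha
    rw [(hd a ⟨ha.1, ha.2.le⟩).deriv]
    have h1 : 0 < 1 + a := by linarith [ha.1]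
    have h2 : 0 < 1 - a := by linarith [ha.2]
    have h3 : 0 < 1 + m * a := by nlinarith [ha.1, ha.2]
    have h4 : 0 < 1 - m * a := by nlinarith [ha.2]
    rw [sub_neg, div_lt_div_iff₀ (by positivity) (by positivity)]
    have ha2 := ha.2
    -- -(1+m) a [ (1+a)(1-ma) - (1-a)(1+ma) ] < 0, bracket = 2a(1-m) < 0
    have : (1 + a) * (1 - m * a) - (1 - a) * (1 + m * a) = 2 * a * (1 - m) := by ring
    have h5 : -(1 + m) * a * ((1 + a) * (1 - m * a) - (1 - a) * (1 + m * a)) < 0 := by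
      rw [this]
      have : -(1 + m) * a * (2 * a * (1 - m)) = -(2 * (1 + m) * (1 - m) * a ^ 2) := by ring
      rw [this]
      have : 0 < a ^ 2 := by
        have h := mul_pos_of_neg_of_neg ha2 ha2
        rwa [sq]
      have h6 : 0 < 1 - m := by linarith
      have : 0 < 2 * (1 + m) * (1 - m) * a ^ 2 := by positivity
      linarith
    nlinarith

lemma E_pos (hm : 0 < m) (hm1 : m < 1) {a : ℝ} (ha : a ∈ Ioo (-1 : ℝ) 0) :
    0 < Gr m a - Hr m a := by
  have := E_anti hm hm1 ⟨ha.1, ha.2.le⟩ ⟨by norm_num, le_rfl⟩ ha.2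
  simpa [Gr_zero, Hr_zero] using this

lemma rho_lt (hm : 0 < m) (hm1 : m < 1) {a : ℝ} (ha : a ∈ Ioo (-1 : ℝ) 0) : rho m a < a := by
  obtain ⟨h1, h2⟩ := rho_spec hm ha
  have hneg : -1 / m < -1 := by rw [div_lt_iff₀ hm]; linarith
  rw [← (Gr_strictMono hm).lt_iff_lt ⟨h1.1, h1.2.le⟩ ⟨hneg.trans ha.1, ha.2.le⟩, h2]
  linarith [E_pos hm hm1 ha]

/-- the orbit leaves `(-1,0)` -/
lemma leaves (hm : 0 < m) (hm1 : m < 1) {a : ℝ} (ha : a ∈ Ioo (-1 : ℝ) 0) :
    ∃ i : ℕ, ¬ ((rho m)^[i] a ∈ Ioo (-1 : ℝ) 0) := by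
  by_contra hcon
  push Not at hcon
  have hle : ∀ i : ℕ, (rho m)^[i] a ≤ a := by
    intro i
    induction i with
    | zero => simp
    | succ i ih =>
      rw [Function.iterate_succ_apply']
      exact (rho_lt hm hm1 (hcon i)).le.trans ih
  set δ := Gr m a - Hr m a with hδ
  have hδ0 : 0 < δ := E_pos hm hm1 ha
  have hstep : ∀ i : ℕ, Gr m ((rho m)^[i] a) ≤ Gr m a - i * δ := by
    intro i
    induction i with
    | zero => simp
    | succ i ih =>
      rw [Function.iterate_succ_apply', (rho_spec hm (hcon i)).2]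
      have h1 : δ ≤ Gr m ((rho m)^[i] a) - Hr m ((rho m)^[i] a) := by
        have := (E_anti hm hm1).antitoneOn ⟨(hcon i).1, (hcon i).2.le⟩ ⟨ha.1, ha.2.le⟩ (hle i)
        exact this
      push_cast
      linarith
  have hneg : -1 / m < -1 := by rw [div_lt_iff₀ hm]; linarith
  have hlow : ∀ i : ℕ, Gr m (-1) ≤ Gr m ((rho m)^[i] a) := by
    intro i
    exact (Gr_strictMono hm).monotoneOn ⟨hneg, by norm_num⟩
      ⟨hneg.trans (hcon i).1, (hcon i).2.le⟩ (hcon i).1.le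
  obtain ⟨i, hi⟩ := exists_nat_gt ((Gr m a - Gr m (-1)) / δ)
  rw [div_lt_iff₀ hδ0] at hi
  have := (hlow i).trans (hstep i)
  linarith

/-- the two grids: one of them hits `(-1/m, -1)` at its first exit from `(-1,0)` -/
lemma hit (hm : 0 < m) (hm1 : m < 1) {a b : ℝ} (ha : a ∈ Ioo (-1 : ℝ) 0)
    (hb : b ∈ Ioo (-1 : ℝ) 0) (hba : b < a) (hab : rho m a < b) :
    ∃ J : ℕ, 0 < J ∧ (((∀ i < J, (rho m)^[i] a ∈ Ioo (-1 : ℝ) 0) ∧
        (rho m)^[J] a ∈ Ioo (-1 / m) (-1)) ∨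
      ((∀ i < J, (rho m)^[i] b ∈ Ioo (-1 : ℝ) 0) ∧ (rho m)^[J] b ∈ Ioo (-1 / m) (-1))) := by
  classical
  obtain ⟨J, hJ, hmin⟩ : ∃ J : ℕ, ¬ ((rho m)^[J] a ∈ Ioo (-1 : ℝ) 0) ∧
      ∀ i < J, (rho m)^[i] a ∈ Ioo (-1 : ℝ) 0 := by
    refine ⟨Nat.find (leaves hm hm1 ha), Nat.find_spec (leaves hm hm1 ha), fun i hi => ?_⟩
    have := Nat.find_min (leaves hm hm1 ha) hi
    rwa [not_not] at this
  have hJ0 : 0 < J := by
    rcases Nat.eq_zero_or_pos J with h | h
    · exfalso; rw [h] at hJ; exact hJ (by simpa using ha)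
    · exact h
  obtain ⟨i₀, rfl⟩ : ∃ i, J = i + 1 := ⟨J - 1, by omega⟩
  have hsp := rho_spec hm (hmin i₀ (Nat.lt_succ_self _))
  rw [← Function.iterate_succ_apply' (rho m) i₀ a] at hsp
  have hle : (rho m)^[i₀ + 1] a ≤ -1 := by
    by_contra h
    rw [not_le] at h
    exact hJ ⟨h, hsp.1.2⟩
  refine ⟨i₀ + 1, hJ0, ?_⟩
  rcases hle.lt_or_eq with hlt | heq
  · left; exact ⟨hmin, hsp.1.1, hlt⟩
  · right
    -- interlacing
    have hint : ∀ i ≤ i₀, ((rho m)^[i] b ∈ Ioo (-1 : ℝ) 0) ∧ (rho m)^[i + 1] a < (rho m)^[i] b ∧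
        (rho m)^[i] b < (rho m)^[i] a := by
      intro i
      induction i with
      | zero => intro _; simpa using ⟨hb, hab, hba⟩
      | succ i ih =>
        intro hi
        obtain ⟨c1, c2, c3⟩ := ih (by omega)
        have d1 : (rho m)^[i + 1] a ∈ Ioo (-1 : ℝ) 0 := hmin (i + 1) (by omega)
        have d0 : (rho m)^[i] a ∈ Ioo (-1 : ℝ) 0 := hmin i (by omega)
        have e1 : (rho m)^[i + 1 + 1] a < (rho m)^[i + 1] b := by
          rw [Function.iterate_succ_apply' (rho m) (i + 1) a,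
            Function.iterate_succ_apply' (rho m) i b]
          exact rho_mono hm d1 c1 c2
        have e2 : (rho m)^[i + 1] b < (rho m)^[i + 1] a := by
          rw [Function.iterate_succ_apply' (rho m) i a, Function.iterate_succ_apply' (rho m) i b]
          exact rho_mono hm c1 d0 c3
        have e3 : -1 ≤ (rho m)^[i + 1 + 1] a := by
          rcases Nat.lt_or_ge (i + 1 + 1) (i₀ + 1) with h | h
          · exact (hmin _ h).1.le
          · have : i + 1 + 1 = i₀ + 1 := by omega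
            rw [this, heq]
        exact ⟨⟨lt_of_le_of_lt e3 e1, e2.trans d1.2⟩, e1, e2⟩
    have hlast := hint i₀ le_rfl
    refine ⟨fun i hi => (hint i (by omega)).1, ?_⟩
    rw [Function.iterate_succ_apply']
    refine ⟨(rho_spec hm hlast.1).1.1, ?_⟩
    have := rho_mono hm hlast.1 (hmin i₀ (Nat.lt_succ_self _)) hlast.2.2
    rw [← Function.iterate_succ_apply' (rho m) i₀ a, heq] at this
    exact this

end

end Vale.Agent.P097.H849
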