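import Vale.Agent.P097.H849.Inf
import Vale.Agent.P097.H849.RealSeq

namespace Vale.Agent.P097.H849

open Complex Filter Topology Set

noncomputable section

variable {m : ℝ}

/-- the data near infinity -/
structure Dat (m : ℝ) (X : ℂ → ℂ) (R : ℝ) (L : ℂ → ℂ) (a : ℝ) : Prop where
  hR : 1 ≤ R
  dX : ∀ z, R < ‖z‖ → AnalyticAt ℂ X z
  odd : ∀ z, R < ‖z‖ → X (-z) = -X z
  real : ∀ z, R < ‖z‖ → X ((starRingEnd ℂ) z) = (starRingEnd ℂ) (X z)
  up : ∀ z, R < ‖z‖ → z.im < 0 → 0 < (X z).im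
  inj : ∀ z w, R < ‖z‖ → R < ‖w‖ → X z = X w → z = w
  small : ∀ z, R < ‖z‖ → ‖X z‖ < 1 / 2
  eqn : ∀ z, R < ‖z‖ → R < ‖z + 1‖ → G0 m (X (z + 1)) = H0 m (X z)
  mono : ∀ x y : ℝ, x < y → y < -R → (X y).re < (X x).re
  neg : ∀ x : ℝ, x < -R → (X x).re < 0
  dneg : ∀ x : ℝ, x < -R → ∃ b : ℝ, b < 0 ∧ HasDerivAt X b x
  apos : 0 < a
  dL : HasDerivAt L 0 0
  L0 : L 0 = ((-a : ℝ) : ℂ)
  lam : ∀ᶠ u in 𝓝[≠] (0:ℂ), G0 m (X (u⁻¹ + 1 / 2)) = u ^ 2 * L u

lemma Hyp.dat (hm : 0 < m) (hm1 : m < 1) {Y : ℂ → ℂ} {c : ℝ} (h : Hyp m Y c) :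
    ∃ R L a, Dat m (fun z => Y z⁻¹) R L a := by
  -- a good ball
  have e1 : ∀ᶠ u in 𝓝 (0:ℂ), AnalyticAt ℂ Y u := h.an.eventually_analyticAt
  have e2 : ∀ᶠ u in 𝓝 (0:ℂ), 0 < (deriv Y u).re := by
    have hc : ContinuousAt (fun u => (deriv Y u).re) 0 :=
      continuous_re.continuousAt.comp h.an.deriv.continuousAt
    apply hc.eventually (lt_mem_nhds _)
    simp only [h.der.deriv, ofReal_re]; exact h.cpos
  have e3 : ∀ᶠ u in 𝓝 (0:ℂ), ‖Y u‖ < 1 / 2 := by
    have hc : ContinuousAt (fun u => ‖Y u‖) 0 := h.an.continuousAt.norm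
    apply hc.eventually (gt_mem_nhds _)
    simp [h.zero]
  obtain ⟨ε, hε, hball⟩ := Metric.eventually_nhds_iff_ball.mp
    ((((e1.and e2).and e3).and (h.odd.and h.real)).and h.eqn)
  set ε' := min ε 1 with hε'
  have hε'0 : 0 < ε' := lt_min hε one_pos
  set R := ε'⁻¹ with hRdef
  have hR1 : 1 ≤ R := by
    rw [hRdef]; exact (one_le_inv₀ hε'0).mpr (min_le_right _ _)
  have hR0 : 0 < R := by linarith
  have hin : ∀ z : ℂ, R < ‖z‖ → z⁻¹ ∈ Metric.ball (0:ℂ) ε' := by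
    intro z hz
    rw [mem_ball_zero_iff, norm_inv]
    rw [hRdef] at hz
    exact inv_lt_of_inv_lt₀ hε'0 hz
  have hin' : ∀ z : ℂ, R < ‖z‖ → z⁻¹ ∈ Metric.ball (0:ℂ) ε := fun z hz =>
    Metric.ball_subset_ball (min_le_left _ _) (hin z hz)
  have hne : ∀ z : ℂ, R < ‖z‖ → z ≠ 0 := by
    rintro z hz rfl; rw [norm_zero] at hz; linarith
  have hconv : Convex ℝ (Metric.ball (0:ℂ) ε) := convex_ball _ _
  have hsl := fun u₀ u₁ (h0 : u₀ ∈ Metric.ball (0:ℂ) ε) (h1 : u₁ ∈ Metric.ball (0:ℂ) ε)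
    (hn : u₀ ≠ u₁) => slope_pos hconv (Y := Y)
    (fun u hu => ⟨(hball u hu).1.1.1.1.differentiableAt, (hball u hu).1.1.1.2⟩) h0 h1 hn
  have hrealval : ∀ x : ℝ, (x : ℂ) ∈ Metric.ball (0:ℂ) ε → (Y x).im = 0 := by
    intro x hx
    have := (hball _ hx).1.2.2
    rw [conj_ofReal] at this
    have := congrArg Complex.im this
    rw [conj_im] at this; linarith
  -- real monotonicity
  have hYmono : ∀ x y : ℝ, (x : ℂ) ∈ Metric.ball (0:ℂ) ε → (y : ℂ) ∈ Metric.ball (0:ℂ) ε →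
      x < y → (Y x).re < (Y y).re := by
    intro x y hx hy hxy
    have hs := hsl x y hx hy (by exact_mod_cast hxy.ne)
    have : ((Y y - Y x) / ((y : ℂ) - x)).re = ((Y y).re - (Y x).re) / (y - x) := by
      rw [← ofReal_sub, div_ofReal_re, sub_re]
    rw [this, lt_div_iff₀ (by linarith)] at hs
    linarith
  have h0mem : (0:ℂ) ∈ Metric.ball (0:ℂ) ε := by simpa using hε
  -- the function L
  obtain ⟨G2, hG2a, hG2v, hG2⟩ := exists_G2 hm hm1
  obtain ⟨p, hp⟩ := h.an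
  have hY1 : AnalyticAt ℂ (dslope Y 0) 0 := ⟨_, hp.has_fpower_series_dslope_fslope⟩
  have hY1v : dslope Y 0 0 = c := by rw [dslope_same, h.der.deriv]
  set Y1 := dslope Y 0 with hY1d
  have hYY : ∀ v, Y v = v * Y1 v := by
    intro v
    have := sub_smul_dslope Y 0 v
    rw [h.zero, sub_zero, sub_zero, smul_eq_mul] at this
    exact this.symm
  let vv : ℂ → ℂ := fun u => u / (1 + u / 2)
  have hvv : AnalyticAt ℂ vv 0 := by
    apply AnalyticAt.div analyticAt_id _ (by simp)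
    exact analyticAt_const.add (analyticAt_id.div analyticAt_const (by norm_num))
  have hvv0 : vv 0 = 0 := by simp [vv]
  let L : ℂ → ℂ := fun u => (Y1 (vv u)) ^ 2 / (1 + u / 2) ^ 2 * G2 (Y (vv u))
  set a := c ^ 2 * ((1 + m) / 2) with ha
  have hLan : AnalyticAt ℂ L 0 := by
    apply AnalyticAt.mul
    · apply AnalyticAt.div
      · exact (AnalyticAt.fun_comp (by rw [hvv0]; exact hY1) hvv).pow 2
      · exact (analyticAt_const.add (analyticAt_id.div analyticAt_const (by norm_num))).pow 2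
      · simp
    · apply AnalyticAt.fun_comp (f := fun u => Y (vv u))
      · show AnalyticAt ℂ G2 (Y (vv 0))
        rw [hvv0, h.zero]; exact hG2a
      · exact AnalyticAt.fun_comp (by rw [hvv0]; exact h.an) hvv
  have hL0 : L 0 = ((-a : ℝ) : ℂ) := by
    simp only [L, hvv0, h.zero, hY1v, hG2v]
    rw [ha]; push_cast; ring
  have hlam : ∀ᶠ u in 𝓝[≠] (0:ℂ), G0 m (Y (u⁻¹ + 1 / 2)⁻¹) = u ^ 2 * L u := by
    have h2 : ∀ᶠ u in 𝓝 (0:ℂ), 1 + u / 2 ≠ 0 := by
      have hc : ContinuousAt (fun u : ℂ => 1 + u / 2) 0 := by fun_prop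
      apply hc.eventually_ne (by simp)
    filter_upwards [nhdsWithin_le_nhds h2, self_mem_nhdsWithin] with u hu1 hu2
    have hu2' : u ≠ 0 := hu2
    have : (u⁻¹ + 1 / 2)⁻¹ = vv u := by
      simp only [vv]
      rw [inv_eq_one_div, div_eq_div_iff _ hu1]
      · field_simp
      · intro h0
        apply hu1
        field_simp at h0 ⊢
        linear_combination h0
    rw [this, hG2]
    simp only [L]
    have hv : vv u = u / (1 + u / 2) := rfl
    rw [show Y (vv u) ^ 2 = (vv u) ^ 2 * (Y1 (vv u)) ^ 2 by rw [hYY (vv u)]; ring]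
    rw [hv]
    field_simp
  have hDodd : ∀ z, R < ‖z‖ → Y (-z)⁻¹ = -Y z⁻¹ := by
    intro z hz
    have := (hball _ (hin' z hz)).1.2.1
    rw [inv_neg, this]
  have hDeqn : ∀ z, R < ‖z‖ → R < ‖z + 1‖ → G0 m (Y (z + 1)⁻¹) = H0 m (Y z⁻¹) := by
    intro z hz hz1
    have := (hball _ (hin' z hz)).2
    have e : (z : ℂ)⁻¹ / (1 + z⁻¹) = (z + 1)⁻¹ := by
      have h1 := hne z hz
      have h2 := hne _ hz1
      have h3 : 1 + z⁻¹ ≠ 0 := by
        intro h0; apply h2; field_simp at h0; linear_combination h0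
      rw [div_eq_iff h3]; field_simp
    rwa [e] at this
  -- L is even
  have hLeven : ∀ᶠ u in 𝓝 (0:ℂ), L (-u) = L u := by
    have hneg : Tendsto (fun u : ℂ => -u) (𝓝[≠] 0) (𝓝[≠] 0) := by
      rw [tendsto_nhdsWithin_iff]
      constructor
      · have : Tendsto (fun u : ℂ => -u) (𝓝 0) (𝓝 (-0)) := (continuous_neg.tendsto 0)
        rw [neg_zero] at this
        exact this.mono_left nhdsWithin_le_nhds
      · filter_upwards [self_mem_nhdsWithin] with u hu
        simpa using hu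
    have hbig : ∀ᶠ u in 𝓝[≠] (0:ℂ), R + 1 < ‖u⁻¹‖ := by
      have h1 : ∀ᶠ u in 𝓝 (0:ℂ), ‖u‖ < (R + 1)⁻¹ := by
        have : 0 < (R + 1)⁻¹ := by positivity
        filter_upwards [Metric.ball_mem_nhds (0:ℂ) this] with u hu using mem_ball_zero_iff.mp hu
      filter_upwards [nhdsWithin_le_nhds h1, self_mem_nhdsWithin] with u hu hu2
      have hu2' : 0 < ‖u‖ := norm_pos_iff.mpr hu2
      rw [norm_inv]
      exact lt_inv_of_lt_inv₀ hu2' hu
    have h1 : ∀ᶠ u in 𝓝[≠] (0:ℂ), L (-u) = L u := by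
      filter_upwards [hlam, hneg.eventually hlam, hbig, self_mem_nhdsWithin] with u hu1 hu2 hu3 hu4
      have hu4' : u ≠ 0 := hu4
      have n1 : R < ‖u⁻¹ - 1 / 2‖ := by
        have := norm_sub_norm_le u⁻¹ (1/2)
        have h5 : ‖(1/2 : ℂ)‖ = 1/2 := by norm_num
        rw [h5] at this; linarith
      have n2 : R < ‖u⁻¹ - 1 / 2 + 1‖ := by
        have := norm_sub_norm_le u⁻¹ (-(1/2))
        have h5 : ‖(-(1/2) : ℂ)‖ = 1/2 := by norm_num
        rw [h5] at this
        rw [show u⁻¹ - 1 / 2 + 1 = u⁻¹ - -(1/2) by ring]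
        linarith
      have k1 := hDeqn _ n1 n2
      rw [show u⁻¹ - 1 / 2 + 1 = u⁻¹ + 1 / 2 by ring, hu1, H0_eq, ← hDodd _ n1] at k1
      rw [show -(u⁻¹ - 1 / 2) = (-u)⁻¹ + 1 / 2 by rw [inv_neg]; ring, hu2] at k1
      have : u ^ 2 ≠ 0 := pow_ne_zero _ hu4'
      have k2 : u ^ 2 * L u = u ^ 2 * L (-u) := by rw [k1]; ring
      exact (mul_left_cancel₀ this k2).symm
    have h2 := eventually_nhdsWithin_iff.mp h1
    filter_upwards [h2] with u hu
    by_cases hu0 : u = 0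
    · rw [hu0, neg_zero]
    · exact hu hu0
  have hdL : HasDerivAt L 0 0 := by
    have h1 := hLan.differentiableAt.hasDerivAt
    have h2 : HasDerivAt (fun u => L (-u)) (-deriv L 0) 0 := by
      have h1' : HasDerivAt L (deriv L 0) (-(0:ℂ)) := by rw [neg_zero]; exact h1
      have := h1'.comp (0:ℂ) (hasDerivAt_neg (0:ℂ))
      rw [mul_neg_one] at this
      exact this
    have h3 := h2.congr_of_eventuallyEq (hLeven.mono (fun u hu => hu.symm))
    have h4 := h1.unique h3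
    have : deriv L 0 = 0 := by
      linear_combination h4 / 2
    rw [this] at h1; exact h1
  refine ⟨R, L, a, ⟨hR1, ?_, hDodd, ?_, ?_, ?_, ?_, hDeqn, ?_, ?_, ?_, ?_, hdL, hL0, hlam⟩⟩
  · intro z hz
    exact AnalyticAt.fun_comp (hball _ (hin' z hz)).1.1.1.1 (analyticAt_inv (hne z hz))
  · intro z hz
    have := (hball _ (hin' z hz)).1.2.2
    rw [← this, map_inv₀]
  · intro z hz hzim
    have hz0 := hne z hz
    have him : 0 < (z⁻¹).im := by
      rw [inv_im]; apply div_pos (by linarith) (normSq_pos.mpr hz0)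
    have hcm : (starRingEnd ℂ) z⁻¹ ∈ Metric.ball (0:ℂ) ε := by
      rw [mem_ball_zero_iff, RCLike.norm_conj]
      exact mem_ball_zero_iff.mp (hin' z hz)
    have hs := hsl _ _ hcm (hin' z hz) (by
      intro h0
      have := congrArg Complex.im h0
      rw [conj_im] at this; linarith)
    rw [(hball _ (hin' z hz)).1.2.2] at hs
    have e : (Y z⁻¹ - (starRingEnd ℂ) (Y z⁻¹)) / (z⁻¹ - (starRingEnd ℂ) z⁻¹)
        = (((Y z⁻¹).im / (z⁻¹).im : ℝ) : ℂ) := by
      rw [sub_conj, sub_conj]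
      push_cast
      have : ((z⁻¹).im : ℂ) ≠ 0 := by exact_mod_cast him.ne'
      field_simp
    rw [e, ofReal_re] at hs
    exact (div_pos_iff_of_pos_right him).mp hs
  · intro z w hz hw hzw
    by_contra hne'
    have hs := hsl _ _ (hin' z hz) (hin' w hw) (fun h0 => hne' (inv_injective h0))
    rw [← hzw, sub_self, zero_div] at hs
    simp at hs
  · intro z hz
    exact (hball _ (hin' z hz)).1.1.2
  · intro x y hxy hy
    have nx : R < ‖(x:ℂ)‖ := by
      rw [Complex.norm_real, Real.norm_eq_abs, abs_of_neg (by linarith)]; linarith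
    have ny : R < ‖(y:ℂ)‖ := by
      rw [Complex.norm_real, Real.norm_eq_abs, abs_of_neg (by linarith)]; linarith
    have hx' := hin' _ nx
    have hy' := hin' _ ny
    rw [← ofReal_inv] at hx' hy'
    show (Y (y:ℂ)⁻¹).re < (Y (x:ℂ)⁻¹).re
    rw [← ofReal_inv, ← ofReal_inv]
    apply hYmono _ _ hy' hx'
    have : y⁻¹ < x⁻¹ := (inv_lt_inv_of_neg (by linarith) (by linarith)).mpr hxy
    exact this
  · intro x hx
    have nx : R < ‖(x:ℂ)‖ := by
      rw [Complex.norm_real, Real.norm_eq_abs, abs_of_neg (by linarith)]; linarith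
    have hx' := hin' _ nx
    rw [← ofReal_inv] at hx'
    show (Y (x:ℂ)⁻¹).re < 0
    rw [← ofReal_inv]
    have := hYmono x⁻¹ 0 hx' (by simpa using hε) (inv_lt_zero.mpr (by linarith))
    simpa [h.zero] using this
  · intro x hx
    have nx : R < ‖(x:ℂ)‖ := by
      rw [Complex.norm_real, Real.norm_eq_abs, abs_of_neg (by linarith)]; linarith
    have hx' := hin' _ nx
    have hd := (hball _ hx').1.1.1.1.differentiableAt.hasDerivAt
    have hre := (hball _ hx').1.1.1.2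
    have hx0 : (x:ℂ) ≠ 0 := hne _ nx
    have hcomp := hd.comp (x:ℂ) (hasDerivAt_inv hx0)
    -- the derivative is real
    have hreal : (deriv Y (x:ℂ)⁻¹).im = 0 := by
      -- difference quotients along the real axis are real
      have h1 : HasDerivAt (fun t : ℝ => (Y t).im) ((deriv Y (x:ℂ)⁻¹).im) x⁻¹ := by
        have h2 : HasDerivAt (fun t : ℝ => Y t) (deriv Y (x:ℂ)⁻¹) x⁻¹ := by
          rw [← ofReal_inv] at hd ⊢
          exact hd.comp_ofReal
        exact Complex.imCLM.hasFDerivAt.comp_hasDerivAt _ h2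
      have h3 : ∀ᶠ t : ℝ in 𝓝 x⁻¹, (Y t).im = 0 := by
        have hc : ContinuousAt (fun t : ℝ => (t : ℂ)) x⁻¹ := continuous_ofReal.continuousAt
        have hm' : ∀ᶠ t : ℝ in 𝓝 x⁻¹, (t : ℂ) ∈ Metric.ball (0:ℂ) ε := by
          apply hc.eventually
          rw [← ofReal_inv] at hx'
          exact Metric.isOpen_ball.mem_nhds hx'
        filter_upwards [hm'] with t ht using hrealval t ht
      have h4 : HasDerivAt (fun t : ℝ => (Y t).im) 0 x⁻¹ :=
        (hasDerivAt_const x⁻¹ (0:ℝ)).congr_of_eventuallyEq h3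
      exact h1.unique h4
    have hxne : x ≠ 0 := by linarith
    refine ⟨-((deriv Y (x:ℂ)⁻¹).re / x ^ 2), ?_, ?_⟩
    · have : 0 < x ^ 2 := by positivity
      have := div_pos hre this
      linarith
    · refine hcomp.congr_deriv ?_
      have : deriv Y (x:ℂ)⁻¹ = ((deriv Y (x:ℂ)⁻¹).re : ℂ) := by
        apply Complex.ext <;> simp [hreal]
      rw [this]
      push_cast
      simp
      ring
  · rw [ha]; have := h.cpos; positivity

end

end Vale.Agent.P097.H849
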