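import Vale.Agent.P097.H849.Sur

namespace Vale.Agent.P097.H849

open Complex Filter Topology Set

noncomputable section

variable {m : ℝ}

/-- the inverse of `G` on `V` -/
def g (m : ℝ) (w : ℂ) : ℂ := Function.invFunOn (G m) (D m) w

/-- the transfer map -/
def F (m : ℝ) (w : ℂ) : ℂ := H m (g m w)

lemma g_mem (hm : 0 < m) (hm1 : m < 1) {w : ℂ} (hw : w ∈ V m) : g m w ∈ D m :=
  Function.invFunOn_mem (V_subset hm hm1 hw)

lemma G_g (hm : 0 < m) (hm1 : m < 1) {w : ℂ} (hw : w ∈ V m) : G m (g m w) = w :=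
  Function.invFunOn_eq (V_subset hm hm1 hw)

lemma g_G (hm : 0 < m) {x : ℂ} (hx : x ∈ D m) : g m (G m x) = x := by
  have h : G m x ∈ G m '' D m := ⟨x, hx, rfl⟩
  exact G_injOn hm (Function.invFunOn_mem h) hx (Function.invFunOn_eq h)

lemma continuousAt_g (hm : 0 < m) (hm1 : m < 1) {w : ℂ} (hw : w ∈ V m) :
    ContinuousAt (g m) w := by
  have hx := g_mem hm hm1 hw
  have hGx := G_g hm hm1 hw
  have hdiff : DifferentiableOn ℂ (G m) (D m) := fun x hx =>
    (hasDerivAt_G hm hx).differentiableAt.differentiableWithinAt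
  have hD : D m ∈ 𝓝 (g m w) := (isOpen_D m).mem_nhds hx
  have hs := (hdiff.analyticAt hD).hasStrictDerivAt
  rw [(hasDerivAt_G hm hx).deriv] at hs
  have hmap := hs.map_nhds_eq (deriv_G_ne hm hx)
  rw [hGx] at hmap
  rw [ContinuousAt, tendsto_def]
  intro s hs'
  have : G m '' (s ∩ D m) ∈ 𝓝 w := by
    rw [← hmap]; exact image_mem_map (inter_mem hs' hD)
  filter_upwards [this]
  rintro _ ⟨x, hx, rfl⟩
  show g m (G m x) ∈ s
  rw [g_G hm hx.2]; exact hx.1

lemma hasDerivAt_g (hm : 0 < m) (hm1 : m < 1) {w : ℂ} (hw : w ∈ V m) :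
    ∃ d : ℂ, d ≠ 0 ∧ HasDerivAt (g m) d w := by
  have hx := g_mem hm hm1 hw
  refine ⟨_, inv_ne_zero (deriv_G_ne hm hx),
    (hasDerivAt_G hm hx).of_local_left_inverse (continuousAt_g hm hm1 hw) (deriv_G_ne hm hx) ?_⟩
  filter_upwards [(isOpen_V m).mem_nhds hw] with y hy using G_g hm hm1 hy

lemma hasDerivAt_F (hm : 0 < m) (hm1 : m < 1) {w : ℂ} (hw : w ∈ V m) :
    ∃ d : ℂ, d ≠ 0 ∧ HasDerivAt (F m) d w := by
  have hx := g_mem hm hm1 hw
  obtain ⟨d, hd, hd'⟩ := hasDerivAt_g hm hm1 hw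
  exact ⟨_, mul_ne_zero (deriv_H_ne hm hm1 hx) hd, (hasDerivAt_H hm hm1 hx).comp w hd'⟩

lemma analyticAt_g (hm : 0 < m) (hm1 : m < 1) {w : ℂ} (hw : w ∈ V m) : AnalyticAt ℂ (g m) w := by
  have : DifferentiableOn ℂ (g m) (V m) := fun y hy => by
    obtain ⟨d, -, hd⟩ := hasDerivAt_g hm hm1 hy
    exact hd.differentiableAt.differentiableWithinAt
  exact this.analyticAt ((isOpen_V m).mem_nhds hw)

lemma analyticAt_F (hm : 0 < m) (hm1 : m < 1) {w : ℂ} (hw : w ∈ V m) : AnalyticAt ℂ (F m) w := by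
  have : DifferentiableOn ℂ (F m) (V m) := fun y hy => by
    obtain ⟨d, -, hd⟩ := hasDerivAt_F hm hm1 hy
    exact hd.differentiableAt.differentiableWithinAt
  exact this.analyticAt ((isOpen_V m).mem_nhds hw)

/-- values with imaginary part in `(0, 2π]` lie in `V` -/
lemma mem_V (hm : 0 < m) (hm1 : m < 1) {w : ℂ} (h0 : 0 < w.im) (h1 : w.im ≤ 2 * Real.pi) :
    w ∈ V m := by
  have hpi := Real.pi_pos
  refine ⟨by linarith, ?_, Or.inr h0.ne'⟩
  have : 2 * Real.pi < 2 * Real.pi / m := by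
    rw [lt_div_iff₀ hm]; nlinarith
  linarith

lemma mem_V_real (hm : 0 < m) {w : ℂ} (h0 : w.im = 0) (h1 : 0 < w.re) : w ∈ V m := by
  have hpi := Real.pi_pos
  refine ⟨by linarith, ?_, Or.inl h1⟩
  rw [h0]; positivity

lemma im_F_le (hm : 0 < m) (hm1 : m < 1) {w : ℂ} (hw : w ∈ V m) :
    (F m w).im ≤ max Real.pi w.im := by
  have hx := g_mem hm hm1 hw
  have hG := G_g hm hm1 hw
  unfold F
  rcases lt_trichotomy (g m w).im 0 with h | h | h
  · have := im_H_lt_im_G hm hm1 h
    rw [hG] at this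
    exact le_max_of_le_right this.le
  · have hre : (g m w).re < -1 / m := by
      rcases hx with h2 | h2
      · exact h2
      · exact absurd h h2
    rw [im_H_real hm hm1 hre h]
    exact le_max_left _ _
  · exact le_max_of_le_left (im_H_lt hm h).le

lemma g_upper (hm : 0 < m) (hm1 : m < 1) {w : ℂ} (hw : w ∈ V m) (h : w.im < Real.pi / m) :
    0 < (g m w).im := by
  have hx := g_mem hm hm1 hw
  have hG := G_g hm hm1 hw
  by_contra hneg
  rw [not_lt] at hneg
  rcases hneg.lt_or_eq with h1 | h1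
  · have := lt_im_G' hm h1
    rw [hG] at this; linarith
  · have hre : (g m w).re < -1 / m := by
      rcases hx with h2 | h2
      · exact h2
      · exact absurd h1 h2
    have := im_G_real hm hre h1
    rw [hG] at this; linarith

lemma im_F_lt (hm : 0 < m) (hm1 : m < 1) {w : ℂ} (hw : w ∈ V m) (h : w.im < Real.pi / m) :
    (F m w).im < Real.pi := im_H_lt hm (g_upper hm hm1 hw h)

/-- the reflection principle -/
lemma reflect (hm : 0 < m) (hm1 : m < 1) {w : ℂ} (hw : w ∈ V m) (h : (F m w).im = 0) :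
    0 < (F m w).re ∧ F m w ∈ V m ∧ g m (F m w) = -(starRingEnd ℂ) (g m w) ∧
      F m (F m w) = (starRingEnd ℂ) w := by
  have hpi := Real.pi_pos
  have hx := g_mem hm hm1 hw
  have hG := G_g hm hm1 hw
  have hup : 0 < (g m w).im := by
    by_contra hneg
    rw [not_lt] at hneg
    unfold F at h
    rcases hneg.lt_or_eq with h1 | h1
    · have := lt_im_H' hm h1; linarith
    · have hre : (g m w).re < -1 / m := by
        rcases hx with h2 | h2
        · exact h2
        · exact absurd h1 h2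
      have := im_H_real hm hm1 hre h1; linarith
  have hy : 0 < (-(starRingEnd ℂ) (g m w)).im := by simpa using hup
  have e1 : G m (-(starRingEnd ℂ) (g m w)) = F m w := by
    rw [G_neg_conj hm hup]
    apply Complex.ext
    · simp [F]
    · rw [conj_im]
      show -(F m w).im = (F m w).im
      rw [h]; simp
  have h1 : 0 < (F m w).re := by
    rw [← e1]; apply G_re_pos hm hy; rw [e1]; exact h
  have e2 : g m (F m w) = -(starRingEnd ℂ) (g m w) := by
    rw [← e1, g_G hm (Or.inr hy.ne')]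
  refine ⟨h1, mem_V_real hm h h1, e2, ?_⟩
  show H m (g m (F m w)) = _
  rw [e2, H_neg_conj hm hup, hG]

end

end Vale.Agent.P097.H849
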