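import Mathlib

/-!
P097, HR-G for `a > 3` (helper849).  The functions
`G x = log (1-x) + (1/m) (log (-1-m x) + π i)` and `H x = log (-1-x) + π i + (1/m) log (1-m x)`
on `D = ℂ \ [-1/m, ∞)`, `0 < m < 1`.
-/

namespace Vale.Agent.P097.H849

open Complex Filter Topology Set

noncomputable section

/-- the slit plane `ℂ \ [-1/m, ∞)` -/
def D (m : ℝ) : Set ℂ := {x | x.re < -1 / m ∨ x.im ≠ 0}

def G (m : ℝ) (x : ℂ) : ℂ :=
  log (1 - x) + (log (-1 - m * x) + Real.pi * I) / m

def H (m : ℝ) (x : ℂ) : ℂ :=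
  log (-1 - x) + Real.pi * I + log (1 - m * x) / m

/-- the versions near the origin -/
def G0 (m : ℝ) (x : ℂ) : ℂ := log (1 - x) + log (1 + m * x) / m

def H0 (m : ℝ) (x : ℂ) : ℂ := log (1 + x) + log (1 - m * x) / m

variable {m : ℝ}

lemma H0_eq (x : ℂ) : H0 m x = G0 m (-x) := by
  simp [H0, G0, sub_eq_add_neg]

lemma G0_eq (x : ℂ) : G0 m x = H0 m (-x) := by
  simp [H0, G0, sub_eq_add_neg]

lemma isOpen_D (m : ℝ) : IsOpen (D m) := by
  have : D m = {x | x.re < -1 / m} ∪ {x | x.im ≠ 0} := rfl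
  rw [this]
  apply IsOpen.union
  · exact isOpen_lt continuous_re continuous_const
  · exact isOpen_ne_fun continuous_im continuous_const

/-! ### slit plane facts -/

lemma slit1 (hm : 0 < m) {x : ℂ} (hx : x ∈ D m) : 1 - x ∈ slitPlane := by
  rw [mem_slitPlane_iff]
  rcases hx with h | h
  · left
    have : -1 / m < 0 := by
      rw [neg_div]; simpa using hm
    simp; linarith
  · right; simpa using h

lemma slit2 (hm : 0 < m) {x : ℂ} (hx : x ∈ D m) : -1 - m * x ∈ slitPlane := by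
  rw [mem_slitPlane_iff]
  rcases hx with h | h
  · left
    have : m * x.re < -1 := by
      have := mul_lt_mul_of_pos_left h hm
      rwa [mul_div_cancel₀ _ hm.ne'] at this
    simp; linarith
  · right; simp [hm.ne']; simpa using h

lemma slit3 (hm : 0 < m) (hm1 : m < 1) {x : ℂ} (hx : x ∈ D m) : -1 - x ∈ slitPlane := by
  rw [mem_slitPlane_iff]
  rcases hx with h | h
  · left
    have : -1 / m < -1 := by
      rw [div_lt_iff₀ hm]; linarith
    simp; linarith
  · right; simpa using h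

lemma slit4 (hm : 0 < m) {x : ℂ} (hx : x ∈ D m) : 1 - m * x ∈ slitPlane := by
  rw [mem_slitPlane_iff]
  rcases hx with h | h
  · left
    have : m * x.re < -1 := by
      have := mul_lt_mul_of_pos_left h hm
      rwa [mul_div_cancel₀ _ hm.ne'] at this
    simp; linarith
  · right; simp [hm.ne']; simpa using h

lemma ne_zero_of_D (hm : 0 < m) {x : ℂ} (hx : x ∈ D m) : x ≠ 0 := by
  rintro rfl
  rcases hx with h | h
  · have : 0 < 1 / m := by positivity
    have h2 : (0:ℂ).re < -1 / m := h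
    rw [neg_div] at h2
    simp at h2; linarith [inv_pos.mpr hm]
  · simp at h

lemma hasDerivAt_G (hm : 0 < m) {x : ℂ} (hx : x ∈ D m) :
    HasDerivAt (G m) (-(1 + m) * x / ((1 - x) * (1 + m * x))) x := by
  have h1 := slit1 hm hx
  have h2 := slit2 hm hx
  have hm' : (m : ℂ) ≠ 0 := by exact_mod_cast hm.ne'
  have e1 : (1 - x) ≠ 0 := slitPlane_ne_zero h1
  have e2 : (-1 - m * x) ≠ 0 := slitPlane_ne_zero h2
  have e3 : (1 + m * x) ≠ 0 := by
    intro h; apply e2; linear_combination -h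
  have d1 : HasDerivAt (fun x : ℂ => log (1 - x)) (-1 / (1 - x)) x := by
    have : HasDerivAt (fun x : ℂ => 1 - x) (-1) x := by
      simpa using (hasDerivAt_id x).const_sub 1
    exact this.clog h1
  have d2 : HasDerivAt (fun x : ℂ => log (-1 - m * x)) (-m / (-1 - m * x)) x := by
    have : HasDerivAt (fun x : ℂ => -1 - m * x) (-m) x := by
      simpa using ((hasDerivAt_id x).const_mul (m : ℂ)).const_sub (-1)
    exact this.clog h2
  have := d1.add ((d2.add_const (Real.pi * I)).div_const (m : ℂ))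
  refine this.congr_deriv ?_
  rw [show (-1 - m * x : ℂ) = -(1 + m * x) by ring]
  obtain ⟨A, hA⟩ : ∃ A : ℂ, A = 1 + m * x := ⟨_, rfl⟩
  obtain ⟨B, hB⟩ : ∃ B : ℂ, B = 1 - x := ⟨_, rfl⟩
  rw [← hA] at e3 ⊢
  rw [← hB] at e1 ⊢
  field_simp
  rw [hA, hB]
  ring

lemma hasDerivAt_H (hm : 0 < m) (hm1 : m < 1) {x : ℂ} (hx : x ∈ D m) :
    HasDerivAt (H m) (-(1 + m) * x / ((1 + x) * (1 - m * x))) x := by
  have h1 := slit3 hm hm1 hx
  have h2 := slit4 hm hx
  have hm' : (m : ℂ) ≠ 0 := by exact_mod_cast hm.ne'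
  have e1 : (-1 - x) ≠ 0 := slitPlane_ne_zero h1
  have e2 : (1 - m * x) ≠ 0 := slitPlane_ne_zero h2
  have e3 : (1 + x) ≠ 0 := by
    intro h; apply e1; linear_combination -h
  have d1 : HasDerivAt (fun x : ℂ => log (-1 - x)) (-1 / (-1 - x)) x := by
    have : HasDerivAt (fun x : ℂ => -1 - x) (-1) x := by
      simpa using (hasDerivAt_id x).const_sub (-1)
    exact this.clog h1
  have d2 : HasDerivAt (fun x : ℂ => log (1 - m * x)) (-m / (1 - m * x)) x := by
    have : HasDerivAt (fun x : ℂ => 1 - m * x) (-m) x := by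
      simpa using ((hasDerivAt_id x).const_mul (m : ℂ)).const_sub 1
    exact this.clog h2
  have := (d1.add_const (Real.pi * I)).add (d2.div_const (m : ℂ))
  refine this.congr_deriv ?_
  rw [show (-1 - x : ℂ) = -(1 + x) by ring]
  obtain ⟨A, hA⟩ : ∃ A : ℂ, A = 1 - m * x := ⟨_, rfl⟩
  obtain ⟨B, hB⟩ : ∃ B : ℂ, B = 1 + x := ⟨_, rfl⟩
  rw [← hA] at e2 ⊢
  rw [← hB] at e3 ⊢
  field_simp
  rw [hA, hB]
  ring

lemma deriv_G_ne (hm : 0 < m) {x : ℂ} (hx : x ∈ D m) :
    -(1 + m) * x / ((1 - x) * (1 + m * x)) ≠ 0 := by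
  have h2 := slit2 hm hx
  have e1 : (1 - x) ≠ 0 := slitPlane_ne_zero (slit1 hm hx)
  have e2 : (-1 - m * x) ≠ 0 := slitPlane_ne_zero h2
  have e3 : (1 + m * x) ≠ 0 := by
    intro h; apply e2; linear_combination -h
  have e4 : -(1 + (m:ℂ)) ≠ 0 := by
    rw [neg_ne_zero]; exact_mod_cast (by linarith : (1 + m) ≠ 0)
  exact div_ne_zero (mul_ne_zero e4 (ne_zero_of_D hm hx)) (mul_ne_zero e1 e3)

lemma deriv_H_ne (hm : 0 < m) (hm1 : m < 1) {x : ℂ} (hx : x ∈ D m) :
    -(1 + m) * x / ((1 + x) * (1 - m * x)) ≠ 0 := by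
  have e1 : (-1 - x) ≠ 0 := slitPlane_ne_zero (slit3 hm hm1 hx)
  have e2 : (1 - m * x) ≠ 0 := slitPlane_ne_zero (slit4 hm hx)
  have e3 : (1 + x) ≠ 0 := by
    intro h; apply e1; linear_combination -h
  have e4 : -(1 + (m:ℂ)) ≠ 0 := by
    rw [neg_ne_zero]; exact_mod_cast (by linarith : (1 + m) ≠ 0)
  exact div_ne_zero (mul_ne_zero e4 (ne_zero_of_D hm hx)) (mul_ne_zero e3 e2)

/-! ### imaginary parts -/

lemma im_G (x : ℂ) : (G m x).im = arg (1 - x) + (arg (-1 - m * x) + Real.pi) / m := by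
  simp [G, div_ofReal_im, log_im]

lemma re_G (x : ℂ) : (G m x).re = Real.log ‖1 - x‖ + Real.log ‖-1 - m * x‖ / m := by
  simp [G, div_ofReal_re, log_re]

lemma im_H (x : ℂ) : (H m x).im = arg (-1 - x) + Real.pi + arg (1 - m * x) / m := by
  simp [H, div_ofReal_im, log_im]

lemma re_H (x : ℂ) : (H m x).re = Real.log ‖-1 - x‖ + Real.log ‖1 - m * x‖ / m := by
  simp [H, div_ofReal_re, log_re]

lemma arg_pos {z : ℂ} (h : 0 < z.im) : 0 < arg z := by
  rcases (arg_nonneg_iff.mpr h.le).lt_or_eq with h1 | h1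
  · exact h1
  · exfalso
    have := (arg_eq_zero_iff.mp h1.symm).2
    linarith

lemma arg_lt_pi' {z : ℂ} (h : z.im ≠ 0) : arg z < Real.pi :=
  arg_lt_pi_iff.mpr (Or.inr h)

lemma arg_neg' {z : ℂ} (h : z.im < 0) : arg z < 0 := arg_neg_iff.mpr h

lemma arg_eq_arctan {z : ℂ} (h : 0 < z.im) :
    arg z = Real.pi / 2 - Real.arctan (z.re / z.im) := by
  have h1 : Real.tan (Real.pi / 2 - arg z) = z.re / z.im := by
    rw [Real.tan_pi_div_two_sub, tan_arg, inv_div]
  have h2 := arg_pos h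
  have h3 := arg_lt_pi' h.ne'
  have := Real.arctan_eq_of_tan_eq h1 ⟨by linarith, by linarith⟩
  linarith

section upper

variable {x : ℂ}

lemma D_of_im_ne {x : ℂ} (hx : x.im ≠ 0) : x ∈ D m := Or.inr hx

lemma im_G_lt (hm : 0 < m) (hx : 0 < x.im) : (G m x).im < Real.pi / m := by
  rw [im_G]
  have h1 : arg (1 - x) < 0 := arg_neg' (by simpa using hx)
  have h2 : arg (-1 - m * x) < 0 := arg_neg' (by simp; positivity)
  have h3 : (arg (-1 - m * x) + Real.pi) / m < Real.pi / m := by gcongr; linarith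
  linarith

lemma lt_im_G (hm : 0 < m) : -Real.pi < (G m x).im := by
  rw [im_G]
  have h1 := neg_pi_lt_arg (1 - x)
  have h2 := neg_pi_lt_arg (-1 - m * x)
  have h3 : 0 < (arg (-1 - m * x) + Real.pi) / m := by
    apply div_pos _ hm; linarith
  linarith

lemma im_H_lt (hm : 0 < m) (hx : 0 < x.im) : (H m x).im < Real.pi := by
  rw [im_H]
  have h1 : arg (-1 - x) < 0 := arg_neg' (by simpa using hx)
  have h2 : arg (1 - m * x) / m < 0 := by
    apply div_neg_of_neg_of_pos _ hm
    exact arg_neg' (by simp; positivity)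
  linarith

end upper

section lower

variable {x : ℂ}

lemma lt_im_G' (hm : 0 < m) (hx : x.im < 0) : Real.pi / m < (G m x).im := by
  rw [im_G]
  have h1 : 0 < arg (1 - x) := arg_pos (by simpa using hx)
  have h2 : 0 < arg (-1 - m * x) := arg_pos (by simp; nlinarith)
  have h3 : Real.pi / m < (arg (-1 - m * x) + Real.pi) / m := by gcongr; linarith
  linarith

lemma im_G_lt' (hm : 0 < m) (hx : x.im < 0) : (G m x).im < Real.pi + 2 * Real.pi / m := by
  rw [im_G]
  have h1 := arg_lt_pi' (z := 1 - x) (by simpa using hx.ne)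
  have h2 := arg_lt_pi' (z := -1 - m * x) (by simp; exact ⟨hm.ne', hx.ne⟩)
  have h3 : (arg (-1 - m * x) + Real.pi) / m < 2 * Real.pi / m := by gcongr; linarith
  linarith

lemma lt_im_H' (hm : 0 < m) (hx : x.im < 0) : Real.pi < (H m x).im := by
  rw [im_H]
  have h1 : 0 < arg (-1 - x) := arg_pos (by simpa using hx)
  have h2 : 0 < arg (1 - m * x) / m := by
    apply div_pos _ hm
    exact arg_pos (by simp; nlinarith)
  linarith

/-- the imaginary part drops on the lower copy -/
lemma im_H_lt_im_G (hm : 0 < m) (hm1 : m < 1) (hx : x.im < 0) : (H m x).im < (G m x).im := by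
  rw [im_G, im_H]
  set b := -x.im with hb
  have hb0 : 0 < b := by rw [hb]; linarith
  set u := x.re with hu
  have a1 : arg (-1 - x) = Real.pi / 2 - Real.arctan ((-1 - u) / b) := by
    rw [arg_eq_arctan (by simpa using hx)]; simp [hb, hu]
  have a2 : arg (1 - x) = Real.pi / 2 - Real.arctan ((1 - u) / b) := by
    rw [arg_eq_arctan (by simpa using hx)]; simp [hb, hu]
  have a3 : arg (-1 - m * x) = Real.pi / 2 - Real.arctan ((-1 - m * u) / (m * b)) := by
    rw [arg_eq_arctan (by simp; nlinarith)]; simp [hb, hu]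
  have a4 : arg (1 - m * x) = Real.pi / 2 - Real.arctan ((1 - m * u) / (m * b)) := by
    rw [arg_eq_arctan (by simp; nlinarith)]; simp [hb, hu]
  rw [a1, a2, a3, a4]
  set A := Real.arctan ((1 - u) / b) with hA
  set B := Real.arctan ((-1 - u) / b) with hB
  set A' := Real.arctan ((1 - m * u) / (m * b)) with hA'
  set B' := Real.arctan ((-1 - m * u) / (m * b)) with hB'
  have m1 : A ≤ A' := by
    apply Real.arctan_strictMono.monotone
    rw [div_le_div_iff₀ hb0 (by positivity)]
    nlinarith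
  have m2 : B' ≤ B := by
    apply Real.arctan_strictMono.monotone
    rw [div_le_div_iff₀ (by positivity) hb0]
    nlinarith
  have m3 : B < A := by
    apply Real.arctan_strictMono
    rw [div_lt_div_iff₀ hb0 hb0]
    nlinarith
  have hpi := Real.pi_pos
  -- need: (π/2 - B) + π + (π/2 - A')/m < (π/2 - A) + (π/2 - B' + π)/m
  have key : (A - B + Real.pi) * m < A' - B' + Real.pi := by
    have : (A - B + Real.pi) * m < (A - B + Real.pi) * 1 := by
      apply mul_lt_mul_of_pos_left hm1; linarith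
    linarith
  have key2 : A - B + Real.pi < (A' - B' + Real.pi) / m := by
    rw [lt_div_iff₀ hm]; exact key
  have key3 : (Real.pi / 2 - B' + Real.pi) / m - (Real.pi / 2 - A') / m
      = (A' - B' + Real.pi) / m := by ring
  linarith

end lower

section negreal

variable {x : ℂ}

lemma im_G_real (hm : 0 < m) (hx : x.re < -1 / m) (hx0 : x.im = 0) :
    (G m x).im = Real.pi / m := by
  rw [im_G]
  have h0 : m * x.re < -1 := by
    have := mul_lt_mul_of_pos_left hx hm
    rwa [mul_div_cancel₀ _ hm.ne'] at this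
  have h00 : x.re < 0 := by nlinarith
  have h1 : arg (1 - x) = 0 := by
    rw [arg_eq_zero_iff]; constructor
    · simp; linarith
    · simp [hx0]
  have h2 : arg (-1 - m * x) = 0 := by
    rw [arg_eq_zero_iff]; constructor
    · simp; linarith
    · simp [hx0]
  rw [h1, h2]; ring

lemma im_H_real (hm : 0 < m) (hm1 : m < 1) (hx : x.re < -1 / m) (hx0 : x.im = 0) :
    (H m x).im = Real.pi := by
  rw [im_H]
  have h0 : m * x.re < -1 := by
    have := mul_lt_mul_of_pos_left hx hm
    rwa [mul_div_cancel₀ _ hm.ne'] at this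
  have h00 : x.re < -1 := by nlinarith
  have h1 : arg (-1 - x) = 0 := by
    rw [arg_eq_zero_iff]; constructor
    · simp; linarith
    · simp [hx0]
  have h2 : arg (1 - m * x) = 0 := by
    rw [arg_eq_zero_iff]; constructor
    · simp; linarith
    · simp [hx0]
  rw [h1, h2]; ring

end negreal

/-! ### reflection -/

lemma log_neg_of_im_pos {w : ℂ} (h : 0 < w.im) : log (-w) = log w - Real.pi * I := by
  apply Complex.ext
  · simp [log_re]
  · simp [log_im, arg_neg_eq_arg_sub_pi_of_im_pos h]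

lemma log_neg_of_im_neg {w : ℂ} (h : w.im < 0) : log (-w) = log w + Real.pi * I := by
  apply Complex.ext
  · simp [log_re]
  · simp [log_im, arg_neg_eq_arg_add_pi_of_im_neg h]

lemma conj_log' {w : ℂ} (h : w.im ≠ 0) :
    (starRingEnd ℂ) (log w) = log ((starRingEnd ℂ) w) := by
  rw [log_conj]
  intro h'
  rw [arg_eq_pi_iff] at h'
  exact h h'.2

/-- on the upper half plane the two versions agree -/
lemma G_eq_G0 {x : ℂ} (hm : 0 < m) (hx : 0 < x.im) : G m x = G0 m x := by
  unfold G G0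
  have : (-1 - m * x : ℂ) = -(1 + m * x) := by ring
  rw [this, log_neg_of_im_pos (by simp; positivity)]
  ring

lemma H_eq_H0 {x : ℂ} (hx : 0 < x.im) : H m x = H0 m x := by
  unfold H H0
  have : (-1 - x : ℂ) = -(1 + x) := by ring
  rw [this, log_neg_of_im_pos (by simpa using hx)]
  ring

lemma G_neg_conj {x : ℂ} (hm : 0 < m) (hx : 0 < x.im) :
    G m (-(starRingEnd ℂ) x) = (starRingEnd ℂ) (H m x) := by
  have hx' : 0 < (-(starRingEnd ℂ) x).im := by simpa using hx
  rw [G_eq_G0 hm hx', H_eq_H0 hx]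
  unfold G0 H0
  rw [map_add, map_div₀, conj_log' (by simpa using hx.ne'),
    conj_log' (by simp; exact ⟨hm.ne', hx.ne'⟩)]
  simp [sub_eq_add_neg]

lemma H_neg_conj {x : ℂ} (hm : 0 < m) (hx : 0 < x.im) :
    H m (-(starRingEnd ℂ) x) = (starRingEnd ℂ) (G m x) := by
  have hx' : 0 < (-(starRingEnd ℂ) x).im := by simpa using hx
  have := G_neg_conj (m := m) (x := -(starRingEnd ℂ) x) hm hx'
  simp only [map_neg, Complex.conj_conj, neg_neg] at this
  rw [this, Complex.conj_conj]

end

end Vale.Agent.P097.H849
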