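import Vale.Agent.P097.H849.Lam

namespace Vale.Agent.P097.H849

open Complex Filter Topology Set

noncomputable section

variable {m : ℝ}

/-- a real analytic germ at `η = 0` whose value is real -/
def Germ (ξ : ℝ → ℂ) (b : ℝ) : Prop :=
  ∃ f : ℂ → ℂ, AnalyticAt ℂ f 0 ∧ f 0 = b ∧
    (∀ᶠ t in 𝓝 (0:ℂ), f ((starRingEnd ℂ) t) = (starRingEnd ℂ) (f t)) ∧
    (∃ d : ℝ, d < 0 ∧ HasDerivAt f d 0) ∧ ∀ᶠ η : ℝ in 𝓝[<] (0:ℝ), ξ η = f (I * η)

lemma tendsto_Iη : Tendsto (fun η : ℝ => I * (η : ℂ)) (𝓝[<] (0:ℝ)) (𝓝 0) := by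
  have hc : ContinuousAt (fun η : ℝ => I * (η : ℂ)) 0 := by fun_prop
  have := hc.tendsto.mono_left (nhdsWithin_le_nhds (s := Iio 0))
  simpa using this

lemma Germ.tendsto {ξ : ℝ → ℂ} {b : ℝ} (h : Germ ξ b) : Tendsto ξ (𝓝[<] (0:ℝ)) (𝓝 (b:ℂ)) := by
  obtain ⟨f, fan, f0, -, -, fx⟩ := h
  rw [← f0]
  exact (fan.continuousAt.tendsto.comp tendsto_Iη).congr' (fx.mono fun η hη => hη.symm)

lemma germ_im {f : ℂ → ℂ} {b d : ℝ} (f0 : f 0 = b) (hd0 : d < 0) (hd : HasDerivAt f d 0) :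
    ∀ᶠ η : ℝ in 𝓝[<] (0:ℝ), 0 < (f (I * η)).im := by
  have h1 : HasDerivAt (fun η : ℝ => (f (I * (η : ℂ))).im) d 0 := by
    have e1 : HasDerivAt (fun η : ℝ => I * (η : ℂ)) I 0 := by
      have := (Complex.ofRealCLM.hasDerivAt (x := (0:ℝ))).const_mul I
      simpa using this
    have e2 : HasDerivAt f d (I * ((0:ℝ) : ℂ)) := by simpa using hd
    have e3 := e2.comp (0:ℝ) e1
    have := Complex.imCLM.hasFDerivAt.comp_hasDerivAt (0:ℝ) e3
    refine this.congr_deriv ?_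
    simp
  have h0 : (f (I * ((0:ℝ) : ℂ))).im = 0 := by simp [f0]
  have h2 := hasDerivAt_iff_tendsto_slope.mp h1
  have h3 : ∀ᶠ s : ℝ in 𝓝[≠] (0:ℝ), slope (fun η : ℝ => (f (I * (η : ℂ))).im) 0 s < 0 :=
    h2.eventually (gt_mem_nhds hd0)
  have hle : 𝓝[<] (0:ℝ) ≤ 𝓝[≠] 0 := nhdsWithin_mono 0 (fun s hs => ne_of_lt hs)
  filter_upwards [hle h3, self_mem_nhdsWithin] with s hs hs'
  have hs'' : s < 0 := hs'
  rw [slope_def_field, h0, sub_zero, sub_zero] at hs
  by_contra hneg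
  rw [not_lt] at hneg
  have := div_nonneg_of_nonpos hneg hs''.le
  linarith

lemma analyticAt_G0 (hm : 0 < m) {x : ℂ} (h1 : 1 - x ∈ slitPlane) (h2 : 1 + m * x ∈ slitPlane) :
    AnalyticAt ℂ (G0 m) x := by
  unfold G0
  apply AnalyticAt.add
  · exact (analyticAt_const.sub analyticAt_id).clog h1
  · apply AnalyticAt.div _ analyticAt_const (by exact_mod_cast hm.ne')
    exact (analyticAt_const.add (analyticAt_const.mul analyticAt_id)).clog h2

lemma analyticAt_H0 (hm : 0 < m) {x : ℂ} (h1 : 1 + x ∈ slitPlane) (h2 : 1 - m * x ∈ slitPlane) :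
    AnalyticAt ℂ (H0 m) x := by
  unfold H0
  apply AnalyticAt.add
  · exact (analyticAt_const.add analyticAt_id).clog h1
  · apply AnalyticAt.div _ analyticAt_const (by exact_mod_cast hm.ne')
    exact (analyticAt_const.sub (analyticAt_const.mul analyticAt_id)).clog h2

lemma hasDerivAt_H0 (hm : 0 < m) {x : ℂ} (h1 : 1 + x ∈ slitPlane) (h2 : 1 - m * x ∈ slitPlane) :
    HasDerivAt (H0 m) (-(1 + m) * x / ((1 + x) * (1 - m * x))) x := by
  have h3 : HasDerivAt (G0 m) (-(1 + m) * (-x) / ((1 - -x) * (1 + m * -x))) (-x) :=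
    hasDerivAt_G0 hm (by simpa using h1) (by simpa [sub_eq_add_neg] using h2)
  have h4 := h3.comp x (hasDerivAt_neg x)
  have h5 : H0 m = G0 m ∘ Neg.neg := by funext y; exact H0_eq y
  rw [h5]
  refine h4.congr_deriv ?_
  rw [sub_neg_eq_add, mul_neg (m:ℂ), ← sub_eq_add_neg]
  ring

lemma conj_H0 {x : ℂ} (h1 : 1 + x ∈ slitPlane) (h2 : 1 - m * x ∈ slitPlane) :
    H0 m ((starRingEnd ℂ) x) = (starRingEnd ℂ) (H0 m x) := by
  rw [H0_eq, H0_eq, ← map_neg, conj_G0 (by simpa using h1) (by simpa [sub_eq_add_neg] using h2)]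

lemma slit_real {r : ℝ} (h : 0 < r) : (r : ℂ) ∈ slitPlane := by
  rw [mem_slitPlane_iff]; left; simpa using h

lemma germ_step (hm : 0 < m) {ξ : ℝ → ℂ} {a : ℝ} (ha : a ∈ Ioo (-1 : ℝ) 0)
    (h : Germ ξ a) : Germ (fun η => g m (H m (ξ η))) (rho m a) := by
  obtain ⟨f, fan, f0, freal, ⟨d, hd0, hd⟩, fx⟩ := h
  obtain ⟨hb, hGH⟩ := rho_spec hm ha
  set b := rho m a with hbdef
  have hmb : 0 < 1 + m * b := by
    have := mul_lt_mul_of_pos_left hb.1 hm
    rw [mul_div_cancel₀ _ hm.ne'] at this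
    linarith
  have hb1 : 0 < 1 - b := by linarith [hb.2]
  have ha1 : 0 < 1 + a := by linarith [ha.1]
  have hma : 0 < 1 - m * a := by nlinarith [ha.2]
  have sb1 : 1 - (b:ℂ) ∈ slitPlane := by
    have := slit_real hb1; push_cast at this; exact this
  have sb2 : 1 + m * (b:ℂ) ∈ slitPlane := by
    have := slit_real hmb; push_cast at this; exact this
  have sa1 : 1 + (a:ℂ) ∈ slitPlane := by
    have := slit_real ha1; push_cast at this; exact this
  have sa2 : 1 - m * (a:ℂ) ∈ slitPlane := by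
    have := slit_real hma; push_cast at this; exact this
  have hG0b : G0 m b = (Gr m b : ℂ) := by
    unfold G0 Gr
    push_cast
    rw [ofReal_log hb1.le, ofReal_log hmb.le]; push_cast; rfl
  have hH0a : H0 m a = (Hr m a : ℂ) := by
    unfold H0 Hr
    push_cast
    rw [ofReal_log ha1.le, ofReal_log hma.le]; push_cast; rfl
  have hval : H0 m (f 0) = G0 m b := by rw [f0, hH0a, hG0b, hGH]
  have Gan := analyticAt_G0 hm sb1 sb2
  have Gd := hasDerivAt_G0 hm sb1 sb2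
  -- the derivative of G0 at b is real and positive
  set DG : ℝ := -(1 + m) * b / ((1 - b) * (1 + m * b)) with hDG
  have hDGpos : 0 < DG := by
    apply div_pos _ (by positivity)
    have := hb.2; nlinarith
  have Gd' : HasDerivAt (G0 m) DG b := by
    refine Gd.congr_deriv ?_
    rw [hDG]; push_cast; ring
  have hne : deriv (G0 m) b ≠ 0 := by
    rw [Gd'.deriv]; exact_mod_cast hDGpos.ne'
  have hs := Gan.hasStrictDerivAt
  set r := hs.localInverse _ _ _ hne with hr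
  have ran : AnalyticAt ℂ r (G0 m b) := Gan.analyticAt_localInverse hne
  have rb : r (G0 m b) = b := HasStrictFDerivAt.localInverse_apply_image ..
  have rleft : ∀ᶠ x in 𝓝 (b:ℂ), r (G0 m x) = x := hs.eventually_left_inverse hne
  have rright : ∀ᶠ w in 𝓝 (G0 m b), G0 m (r w) = w := hs.eventually_right_inverse hne
  have rd : HasDerivAt r (deriv (G0 m) b)⁻¹ (G0 m b) := (hs.to_localInverse hne).hasDerivAt
  rw [Gd'.deriv] at rd
  have Han : AnalyticAt ℂ (H0 m) (f 0) := by rw [f0]; exact analyticAt_H0 hm sa1 sa2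
  have Hd := hasDerivAt_H0 hm sa1 sa2
  set DH : ℝ := -(1 + m) * a / ((1 + a) * (1 - m * a)) with hDH
  have hDHpos : 0 < DH := by
    apply div_pos _ (by positivity)
    have := ha.2; nlinarith
  have Hd' : HasDerivAt (H0 m) DH (f 0) := by
    rw [f0]
    refine Hd.congr_deriv ?_
    rw [hDH]; push_cast; ring
  let f' : ℂ → ℂ := fun t => r (H0 m (f t))
  have hHf : AnalyticAt ℂ (fun t => H0 m (f t)) 0 := AnalyticAt.fun_comp Han fan
  have f'an : AnalyticAt ℂ f' 0 := by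
    apply AnalyticAt.fun_comp (f := fun t => H0 m (f t)) _ hHf
    show AnalyticAt ℂ r (H0 m (f 0))
    rw [hval]; exact ran
  have f'0 : f' 0 = b := by
    show r (H0 m (f 0)) = b
    rw [hval, rb]
  have tHf : Tendsto (fun t => H0 m (f t)) (𝓝 0) (𝓝 (G0 m b)) := by
    have := hHf.continuousAt.tendsto
    rwa [hval] at this
  have tf' : Tendsto f' (𝓝 0) (𝓝 (b:ℂ)) := by
    have := f'an.continuousAt.tendsto
    rwa [f'0] at this
  have tf : Tendsto f (𝓝 0) (𝓝 (a:ℂ)) := by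
    have := fan.continuousAt.tendsto
    rwa [f0] at this
  have hGf' : ∀ᶠ t in 𝓝 (0:ℂ), G0 m (f' t) = H0 m (f t) := tHf.eventually rright
  have tconj : Tendsto (fun t : ℂ => (starRingEnd ℂ) t) (𝓝 0) (𝓝 0) := by
    have := (continuous_conj.tendsto (0:ℂ))
    simpa using this
  -- slit conditions near b and a
  have nb : ∀ᶠ x : ℂ in 𝓝 (b:ℂ), 1 - x ∈ slitPlane ∧ 1 + m * x ∈ slitPlane := by
    have c1 : ContinuousAt (fun x : ℂ => 1 - x) b := by fun_prop
    have c2 : ContinuousAt (fun x : ℂ => 1 + m * x) b := by fun_prop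
    exact (c1.eventually (isOpen_slitPlane.mem_nhds sb1)).and
      (c2.eventually (isOpen_slitPlane.mem_nhds sb2))
  have na : ∀ᶠ x : ℂ in 𝓝 (a:ℂ), 1 + x ∈ slitPlane ∧ 1 - m * x ∈ slitPlane := by
    have c1 : ContinuousAt (fun x : ℂ => 1 + x) a := by fun_prop
    have c2 : ContinuousAt (fun x : ℂ => 1 - m * x) a := by fun_prop
    exact (c1.eventually (isOpen_slitPlane.mem_nhds sa1)).and
      (c2.eventually (isOpen_slitPlane.mem_nhds sa2))
  have f'real : ∀ᶠ t in 𝓝 (0:ℂ), f' ((starRingEnd ℂ) t) = (starRingEnd ℂ) (f' t) := by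
    have t1 : Tendsto (fun t => (starRingEnd ℂ) (f' t)) (𝓝 0) (𝓝 (b:ℂ)) := by
      have := (continuous_conj.tendsto (b:ℂ)).comp tf'
      rw [conj_ofReal] at this
      exact this
    filter_upwards [freal, hGf', t1.eventually rleft, tf'.eventually nb, tf.eventually na]
      with t h1 h2 h3 h4 h5
    show r (H0 m (f ((starRingEnd ℂ) t))) = _
    rw [h1, conj_H0 h5.1 h5.2, ← h2, ← conj_G0 h4.1 h4.2, h3]
  have f'd : HasDerivAt f' ((DG⁻¹ * (DH * d) : ℝ) : ℂ) 0 := by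
    have e1 : HasDerivAt (fun t => H0 m (f t)) ((DH : ℂ) * d) 0 := Hd'.comp (0:ℂ) hd
    have e2 : HasDerivAt r ((DG : ℂ)⁻¹) (H0 m (f 0)) := by rw [hval]; exact rd
    have := e2.comp (0:ℂ) e1
    refine this.congr_deriv ?_
    push_cast; rfl
  have hd'0 : DG⁻¹ * (DH * d) < 0 :=
    mul_neg_of_pos_of_neg (inv_pos.mpr hDGpos) (mul_neg_of_pos_of_neg hDHpos hd0)
  refine ⟨f', f'an, f'0, f'real, ⟨_, hd'0, f'd⟩, ?_⟩
  filter_upwards [fx, germ_im f0 hd0 hd, germ_im f'0 hd'0 f'd, tendsto_Iη.eventually hGf']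
    with η h1 h2 h3 h4
  rw [h1, H_eq_H0 h2, ← h4, ← G_eq_G0 hm h3, g_G hm (Or.inr h3.ne')]

end

end Vale.Agent.P097.H849
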