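import Vale.Agent.P097.H849.Stage

namespace Vale.Agent.P097.H849

open Complex Filter Topology Set

noncomputable section

variable {m : ℝ} {X L : ℂ → ℂ} {R a : ℝ}

/-- the end of the argument: comparison of Taylor coefficients at infinity -/
lemma fin {e : ℝ → ℂ} {A : ℝ} (ha : 0 < a) (hA : 0 < A) (he : HasDerivAt e (-(2 * a * A) * I) 0)
    (he0 : e 0 = a) {Ψ : ℂ → ℂ} {p c : ℂ} (hΨ : AnalyticAt ℂ Ψ p) (hc : HasDerivAt Ψ c p)
    (h : ∀ᶠ s : ℝ in 𝓝[>] (0:ℝ), (Ψ (p + s ^ 2 * e s)).im = 0) : c = 0 := by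
  obtain ⟨q, hq⟩ := hΨ
  have hDan : AnalyticAt ℂ (dslope Ψ p) p := ⟨_, hq.has_fpower_series_dslope_fslope⟩
  have hDp : dslope Ψ p p = c := by rw [dslope_same, hc.deriv]
  set Dd := dslope Ψ p with hDd
  have hΨD : ∀ w, Ψ w = Ψ p + (w - p) * Dd w := by
    intro w
    have := sub_smul_dslope Ψ p w
    rw [smul_eq_mul] at this
    rw [this]; ring
  let W : ℝ → ℂ := fun s => e s * Dd (p + s ^ 2 * e s)
  have hsq : HasDerivAt (fun s : ℝ => ((s : ℂ) ^ 2 * e s)) 0 0 := by
    have h1 : HasDerivAt (fun s : ℝ => ((s : ℂ) ^ 2)) 0 0 := by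
      have h0 : HasDerivAt (fun z : ℂ => z ^ 2) 0 ((0:ℝ) : ℂ) := by
        have := hasDerivAt_pow 2 (0 : ℂ)
        refine HasDerivAt.congr_deriv (by simpa using this) ?_
        simp
      exact h0.comp_ofReal
    refine (h1.mul he).congr_deriv ?_
    simp
  have hin : HasDerivAt (fun s : ℝ => p + (s : ℂ) ^ 2 * e s) 0 0 := by
    simpa using hsq.const_add p
  have hDc : HasDerivAt (fun s : ℝ => Dd (p + (s : ℂ) ^ 2 * e s)) 0 0 := by
    have h1 : HasDerivAt Dd (deriv Dd p) (p + ((0:ℝ) : ℂ) ^ 2 * e 0) := by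
      simpa using hDan.differentiableAt.hasDerivAt
    have := h1.comp (0:ℝ) hin
    rw [mul_zero] at this
    exact this
  have hW : HasDerivAt W (-(2 * a * A) * I * c) 0 := by
    have := he.mul hDc
    refine this.congr_deriv ?_
    simp [hDp]
  have hW0 : W 0 = a * c := by simp [W, he0, hDp]
  have hexp : ∀ s : ℝ, (Ψ (p + s ^ 2 * e s)).im = (Ψ p).im + s ^ 2 * (W s).im := by
    intro s
    rw [hΨD (p + s ^ 2 * e s), add_im]
    congr 1
    have : (p + (s : ℂ) ^ 2 * e s - p) * Dd (p + s ^ 2 * e s) = ((s ^ 2 : ℝ) : ℂ) * W s := by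
      simp only [W]; push_cast; ring
    rw [this, im_ofReal_mul]
  have hWim : Tendsto (fun s : ℝ => (W s).im) (𝓝[>] (0:ℝ)) (𝓝 ((W 0).im)) :=
    ((continuous_im.continuousAt.comp hW.continuousAt).tendsto).mono_left nhdsWithin_le_nhds
  have hΨp : (Ψ p).im = 0 := by
    have h1 : Tendsto (fun s : ℝ => (Ψ p).im + s ^ 2 * (W s).im) (𝓝[>] (0:ℝ))
        (𝓝 ((Ψ p).im + 0 ^ 2 * (W 0).im)) := by
      apply Tendsto.const_add
      apply Tendsto.mul _ hWim
      have : Tendsto (fun s : ℝ => s ^ 2) (𝓝 0) (𝓝 (0 ^ 2)) := (continuous_pow 2).tendsto 0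
      exact this.mono_left nhdsWithin_le_nhds
    have h2 : Tendsto (fun s : ℝ => (Ψ p).im + s ^ 2 * (W s).im) (𝓝[>] (0:ℝ)) (𝓝 0) := by
      refine tendsto_const_nhds.congr' ?_
      filter_upwards [h] with s hs
      rw [← hexp, hs]
    have := tendsto_nhds_unique h1 h2
    simpa using this
  have hWz : ∀ᶠ s : ℝ in 𝓝[>] (0:ℝ), (W s).im = 0 := by
    filter_upwards [h, self_mem_nhdsWithin] with s hs hs0
    have hs0' : 0 < s := hs0
    rw [hexp, hΨp, zero_add] at hs
    rcases mul_eq_zero.mp hs with h1 | h1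
    · exact absurd h1 (by positivity)
    · exact h1
  have hW0im : (W 0).im = 0 := by
    refine tendsto_nhds_unique hWim (tendsto_const_nhds.congr' ?_)
    filter_upwards [hWz] with s hs using hs.symm
  have hcim : c.im = 0 := by
    rw [hW0, im_ofReal_mul] at hW0im
    rcases mul_eq_zero.mp hW0im with h1 | h1
    · exact absurd h1 ha.ne'
    · exact h1
  have hd : HasDerivAt (fun s : ℝ => (W s).im) (-(2 * a * A) * c.re) 0 := by
    have := Complex.imCLM.hasFDerivAt.comp_hasDerivAt (0:ℝ) hW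
    refine this.congr_deriv ?_
    have e1 : (-(2 * a * A) * I * c : ℂ) = ((-(2 * a * A) : ℝ) : ℂ) * (I * c) := by
      push_cast; ring
    rw [e1, imCLM_apply, im_ofReal_mul]
    simp
  have hre : -(2 * a * A) * c.re = 0 := by
    have h1 := (hasDerivAt_iff_tendsto_slope.mp hd).mono_left
      (nhdsWithin_mono (0:ℝ) (fun s (hs : s ∈ Ioi (0:ℝ)) => ne_of_gt hs) : 𝓝[>] (0:ℝ) ≤ 𝓝[≠] 0)
    refine tendsto_nhds_unique h1 (tendsto_const_nhds.congr' ?_)
    filter_upwards [hWz] with s hs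
    rw [slope_def_field, hs, hW0im]; simp
  have : c.re = 0 := by
    rcases mul_eq_zero.mp hre with h1 | h1
    · exfalso
      have : 0 < 2 * a * A := by positivity
      linarith
    · exact h1
  exact Complex.ext this hcim

lemma analyticAt_H (hm : 0 < m) {x : ℂ} (h1 : -1 - x ∈ slitPlane) (h2 : 1 - m * x ∈ slitPlane) :
    AnalyticAt ℂ (H m) x := by
  unfold H
  apply AnalyticAt.add
  · exact ((analyticAt_const.sub analyticAt_id).clog h1).add analyticAt_const
  · apply AnalyticAt.div _ analyticAt_const (by exact_mod_cast hm.ne')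
    exact (analyticAt_const.sub (analyticAt_const.mul analyticAt_id)).clog h2

lemma conj_H {x : ℂ} (h1 : -1 - x ∈ slitPlane) (h2 : 1 - m * x ∈ slitPlane) :
    H m ((starRingEnd ℂ) x) = (starRingEnd ℂ) (H m x) + 2 * Real.pi * I := by
  unfold H
  rw [map_add, map_add, map_div₀, ← log_conj _ (slitPlane_arg_ne_pi h1),
    ← log_conj _ (slitPlane_arg_ne_pi h2)]
  simp
  ring

lemma G0_real {b : ℝ} (h1 : 0 < 1 - b) (h2 : 0 < 1 + m * b) : G0 m b = (Gr m b : ℂ) := by
  unfold G0 Gr
  push_cast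
  rw [ofReal_log h1.le, ofReal_log h2.le]; push_cast; rfl

lemma H0_real {b : ℝ} (h1 : 0 < 1 + b) (h2 : 0 < 1 - m * b) : H0 m b = (Hr m b : ℂ) := by
  unfold H0 Hr
  push_cast
  rw [ofReal_log h1.le, ofReal_log h2.le]; push_cast; rfl

/-- the value of `H` at a crossing point has imaginary part `π` -/
lemma cross_val (hm : 0 < m) {b : ℝ} (hb : b ∈ Ioo (-1 / m) (-1)) :
    (-1 - (b:ℂ)) ∈ slitPlane ∧ (1 - m * (b:ℂ)) ∈ slitPlane ∧ (H m b).im = Real.pi := by
  have h1 : 0 < -1 - b := by linarith [hb.2]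
  have h2 : 0 < 1 - m * b := by nlinarith [hb.2]
  refine ⟨?_, ?_, ?_⟩
  · have := slit_real h1; push_cast at this; exact this
  · have := slit_real h2; push_cast at this; exact this
  · rw [im_H]
    have e1 : arg (-1 - (b:ℂ)) = 0 := by
      have : (-1 - (b:ℂ)) = ((-1 - b : ℝ) : ℂ) := by push_cast; ring
      rw [this, arg_ofReal_of_nonneg h1.le]
    have e2 : arg (1 - m * (b:ℂ)) = 0 := by
      have : (1 - m * (b:ℂ)) = ((1 - m * b : ℝ) : ℂ) := by push_cast; ring
      rw [this, arg_ofReal_of_nonneg h2.le]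
    rw [e1, e2]; simp

lemma iter_lt_pi (hm : 0 < m) (hm1 : m < 1) {K : ℕ} {w : ℂ} (hw : w.im < Real.pi)
    (h : Good m K w) (j : ℕ) (hj : 2 * j < K) : ((F m)^[j] w).im < Real.pi := by
  have hpi := Real.pi_pos
  induction j with
  | zero => simpa using hw
  | succ j ih =>
    have h1 := ih (by omega)
    rw [Function.iterate_succ_apply']
    apply im_F_lt hm hm1 (h.mem hm hm1 (by linarith) (by omega))
    have : Real.pi < Real.pi / m := by rw [lt_div_iff₀ hm]; nlinarith
    linarith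

variable (hD : Dat m X R L a)

include hD

/-- the crossing happens strictly left of the centre -/
lemma cross (hm : 0 < m) (hm1 : m < 1) {K J : ℕ} (hK : R + 1 ≤ (K : ℝ) / 2)
    (h1 : ∀ i < J, (rho m)^[i] (X (-(K / 2 : ℝ) - 1 / 2 : ℝ)).re ∈ Ioo (-1 : ℝ) 0)
    (h2 : (rho m)^[J] (X (-(K / 2 : ℝ) - 1 / 2 : ℝ)).re ∈ Ioo (-1 / m) (-1)) : 2 * J < K := by
  have hR := hD.hR
  have hpi := Real.pi_pos
  by_contra hcon
  rw [not_lt] at hcon
  set y : ℝ := -(K / 2 : ℝ) - 1 / 2 with hy
  have hyR : y < -R := by rw [hy]; linarith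
  have hK4 : 4 ≤ K := by
    have : (4 : ℝ) ≤ K := by linarith
    exact_mod_cast this
  have hst := fun η (hη : η < 0) => stage1 hD hm hm1 hK (η := η) hη
  have hneg : ∀ᶠ η : ℝ in 𝓝[<] (0:ℝ), η < 0 := self_mem_nhdsWithin
  by_cases hev : Even K
  · obtain ⟨l, hl⟩ := hev
    have hl2 : K / 2 = l := by omega
    have hcen : ∀ η : ℝ, η < 0 → ((F m)^[l] (gam m X (K / 2) η)).im = 0 := by
      intro η hη
      have := (hst η hη).2
      unfold cen at this
      rwa [if_pos ⟨l, hl⟩, hl2] at this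
    have hlJ : l ≤ J := by omega
    rcases hlJ.lt_or_eq with hlt | heq
    · -- negative limit against positivity
      have hg := germs hD hm hyR l (fun i hi => h1 i (by omega))
      set al := (rho m)^[l] (X y).re with hal
      have hal' : al ∈ Ioo (-1 : ℝ) 0 := h1 l hlt
      have p1 : 0 < 1 + al := by linarith [hal'.1]
      have p2 : 0 < 1 - m * al := by nlinarith [hal'.2]
      have hHan : AnalyticAt ℂ (H0 m) al := by
        apply analyticAt_H0 hm
        · have := slit_real p1; push_cast at this; exact this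
        · have := slit_real p2; push_cast at this; exact this
      have t1 : Tendsto (fun η => (H0 m (xs m X y l η)).re) (𝓝[<] (0:ℝ)) (𝓝 (Hr m al)) := by
        have := (continuous_re.tendsto _).comp (hHan.continuousAt.tendsto.comp hg.tendsto)
        rw [H0_real p1 p2, ofReal_re] at this
        exact this
      obtain ⟨f, -, f0, -, ⟨d, hd0, hd⟩, fx⟩ := hg
      have him := germ_im f0 hd0 hd
      have t2 : ∀ᶠ η : ℝ in 𝓝[<] (0:ℝ), 0 ≤ (H0 m (xs m X y l η)).re := by
        filter_upwards [hneg, him, fx] with η hη hi hfx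
        have hi' : 0 < (xs m X y l η).im := by rw [hfx]; exact hi
        rw [← H_eq_H0 hi']
        have h3 := iter_eq_H hD hK hη l
        rw [← h3]
        have hw : (F m)^[l - 1] (gam m X (K / 2) η) ∈ V m :=
          (hst η hη).1.mem hm hm1 (by linarith [(gam_im hD hm hm1 hK hη).2]) (by omega)
        obtain ⟨l', rfl⟩ : ∃ l', l = l' + 1 := ⟨l - 1, by omega⟩
        rw [Nat.add_sub_cancel] at hw
        have h4 := hcen η hη
        rw [Function.iterate_succ_apply'] at h4 ⊢
        exact (reflect hm hm1 hw h4).1.le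
      have := ge_of_tendsto t1 t2
      have := Hr_neg hm hal'
      linarith
    · have hg := germs hD hm hyR J h1
      set aJ := (rho m)^[J] (X y).re with haJ
      obtain ⟨s1, s2, s3⟩ := cross_val hm h2
      have t1 : Tendsto (fun η => (H m (xs m X y J η)).im) (𝓝[<] (0:ℝ)) (𝓝 Real.pi) := by
        have := (continuous_im.tendsto _).comp ((analyticAt_H hm s1 s2).continuousAt.tendsto.comp
          hg.tendsto)
        rw [s3] at this
        exact this
      have t2 : Tendsto (fun η => (H m (xs m X y J η)).im) (𝓝[<] (0:ℝ)) (𝓝 0) := by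
        refine tendsto_const_nhds.congr' ?_
        filter_upwards [hneg] with η hη
        rw [← iter_eq_H hD hK hη J, ← heq, hcen η hη]
      have := tendsto_nhds_unique t1 t2
      linarith
  · obtain ⟨l, hl⟩ := Nat.not_even_iff_odd.mp hev
    have hl2 : K / 2 = l := by omega
    have hcen : ∀ η : ℝ, η < 0 → (xs m X y (l + 1) η).re = 0 := by
      intro η hη
      have := (hst η hη).2
      unfold cen at this
      rw [if_neg hev, hl2, iter_eq_H hD hK hη l] at this
      exact this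
    have hlJ : l + 1 ≤ J := by omega
    have hg := germs hD hm hyR (l + 1) (fun i hi => h1 i (by omega))
    have hneg1 : (rho m)^[l + 1] (X y).re < 0 := by
      rcases hlJ.lt_or_eq with h | h
      · exact (h1 _ h).2
      · rw [h]; linarith [h2.2]
    have t1 : Tendsto (fun η => (xs m X y (l + 1) η).re) (𝓝[<] (0:ℝ))
        (𝓝 ((rho m)^[l + 1] (X y).re)) := by
      have := (continuous_re.tendsto _).comp hg.tendsto
      rw [ofReal_re] at this
      exact this
    have t2 : Tendsto (fun η => (xs m X y (l + 1) η).re) (𝓝[<] (0:ℝ)) (𝓝 0) := by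
      refine tendsto_const_nhds.congr' ?_
      filter_upwards [hneg] with η hη
      rw [hcen η hη]
    have := tendsto_nhds_unique t1 t2
    linarith

open Classical in
/-- the line path through the crossing -/
def Gam (m : ℝ) (X : ℂ → ℂ) (K J : ℕ) (b : ℝ) (η : ℝ) : ℂ :=
  if η < 0 then (F m)^[J] (gam m X (K / 2) η)
  else if η = 0 then H m b
  else 2 * Real.pi * I + (starRingEnd ℂ) ((F m)^[J] (gam m X (K / 2) (-η)))

lemma contradiction_of_crossing (hm : 0 < m) (hm1 : m < 1) {K J : ℕ}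
    (hK : R + 1 ≤ (K : ℝ) / 2)
    (h1 : ∀ i < J, (rho m)^[i] (X (-(K / 2 : ℝ) - 1 / 2 : ℝ)).re ∈ Ioo (-1 : ℝ) 0)
    (h2 : (rho m)^[J] (X (-(K / 2 : ℝ) - 1 / 2 : ℝ)).re ∈ Ioo (-1 / m) (-1)) : False := by
  have hR := hD.hR
  have hpi := Real.pi_pos
  have hJK := cross hD hm hm1 hK h1 h2
  set y : ℝ := -(K / 2 : ℝ) - 1 / 2 with hy
  have hyR : y < -R := by rw [hy]; linarith
  set b := (rho m)^[J] (X y).re with hb
  set Γ := Gam m X K J b with hΓ
  have hst := fun η (hη : η < 0) => stage1 hD hm hm1 hK (η := η) hη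
  have hgi := fun η (hη : η < 0) => gam_im hD hm hm1 hK (η := η) hη
  obtain ⟨k, hk⟩ : ∃ k, K = k + 2 * J := ⟨K - 2 * J, by omega⟩
  have hk1 : 1 ≤ k := by omega
  have Γneg : ∀ η : ℝ, η < 0 → Γ η = (F m)^[J] (gam m X (K / 2) η) := by
    intro η hη; simp only [hΓ, Gam, if_pos hη]
  have Γzero : Γ 0 = H m b := by simp [hΓ, Gam]
  have Γpos : ∀ η : ℝ, 0 < η → Γ η = 2 * Real.pi * I +
      (starRingEnd ℂ) ((F m)^[J] (gam m X (K / 2) (-η))) := by
    intro η hη; simp only [hΓ, Gam, if_neg (not_lt.mpr hη.le), if_neg hη.ne']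
  obtain ⟨s1, s2, s3⟩ := cross_val hm h2
  have hg := germs hD hm hyR J h1
  -- analyticity
  have anneg : ∀ η : ℝ, η < 0 →
      AnalyticAt ℝ (fun η => (F m)^[J] (gam m X (K / 2) η)) η := by
    intro η hη
    have hV : ∀ i < J, (F m)^[i] (gam m X (K / 2) η) ∈ V m := fun i hi =>
      (hst η hη).1.mem hm hm1 (by linarith [(hgi η hη).2]) (by omega)
    exact AnalyticAt.fun_comp (iter_analytic hm hm1 J hV).restrictScalars
      (gam_analytic hD hm hm1 hK η)
  have hΓan : ∀ η : ℝ, AnalyticAt ℝ Γ η := by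
    intro η
    rcases lt_trichotomy η 0 with hη | hη | hη
    · refine (anneg η hη).congr ?_
      filter_upwards [gt_mem_nhds hη] with t ht using (Γneg t ht).symm
    · subst hη
      obtain ⟨f, fan, f0, freal, -, fx⟩ := hg
      have hHan : AnalyticAt ℂ (H m) (f 0) := by rw [f0]; exact analyticAt_H hm s1 s2
      have h3 : AnalyticAt ℂ (fun t => H m (f t)) 0 := AnalyticAt.fun_comp hHan fan
      have h4 : AnalyticAt ℝ (fun η : ℝ => I * (η : ℂ)) 0 :=
        analyticAt_const.mul (Complex.ofRealCLM.analyticAt 0)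
      have h5 : AnalyticAt ℝ (fun η : ℝ => H m (f (I * (η : ℂ)))) 0 := by
        refine AnalyticAt.fun_comp (f := fun η : ℝ => I * (η : ℂ)) (g := fun t => H m (f t)) ?_ h4
        simpa using h3.restrictScalars
      refine h5.congr ?_
      have e1 := eventually_nhdsWithin_iff.mp fx
      have tneg : Tendsto (fun η : ℝ => -η) (𝓝 0) (𝓝 0) := by
        have := (continuous_neg.tendsto (0:ℝ)); simpa using this
      have tI : Tendsto (fun η : ℝ => I * ((-η : ℝ) : ℂ)) (𝓝 0) (𝓝 0) := by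
        have hc : Continuous (fun η : ℝ => I * ((-η : ℝ) : ℂ)) := by fun_prop
        have := hc.tendsto 0; simpa using this
      have nb : ∀ᶠ x : ℂ in 𝓝 (b:ℂ), -1 - x ∈ slitPlane ∧ 1 - m * x ∈ slitPlane := by
        have c1 : ContinuousAt (fun x : ℂ => -1 - x) b := by fun_prop
        have c2 : ContinuousAt (fun x : ℂ => 1 - m * x) b := by fun_prop
        exact (c1.eventually (isOpen_slitPlane.mem_nhds s1)).and
          (c2.eventually (isOpen_slitPlane.mem_nhds s2))
      have tf : Tendsto (fun η : ℝ => f (I * ((-η : ℝ) : ℂ))) (𝓝 0) (𝓝 (b:ℂ)) := by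
        have := fan.continuousAt.tendsto
        rw [f0] at this
        exact this.comp tI
      filter_upwards [e1, tneg.eventually e1, tI.eventually freal, tf.eventually nb]
        with η g1 g2 g3 g4
      rcases lt_trichotomy η 0 with hη | hη | hη
      · rw [Γneg η hη, iter_eq_H hD hK hη J, g1 hη]
      · subst hη; rw [Γzero]; simp [f0, ← hb]
      · rw [Γpos η hη, iter_eq_H hD hK (by linarith : -η < 0) J, g2 (show -η < 0 by linarith)]
        rw [add_comm, ← conj_H g4.1 g4.2, ← g3]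
        congr 2
        simp
    · have h3 : AnalyticAt ℝ (fun t : ℝ => (F m)^[J] (gam m X (K / 2) (-t))) η :=
        AnalyticAt.fun_comp (f := fun t : ℝ => -t)
          (g := fun t => (F m)^[J] (gam m X (K / 2) t)) (anneg (-η) (by linarith))
          (analyticAt_id.neg)
      have h4 : AnalyticAt ℝ (fun t : ℝ => 2 * Real.pi * I +
          (starRingEnd ℂ) ((F m)^[J] (gam m X (K / 2) (-t)))) η := by
        apply AnalyticAt.add analyticAt_const
        exact AnalyticAt.fun_comp (g := fun z : ℂ => (starRingEnd ℂ) z)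
          (Complex.conjCLE.toContinuousLinearMap.analyticAt _) h3
      refine h4.congr ?_
      filter_upwards [lt_mem_nhds hη] with t ht using (Γpos t ht).symm
  -- imaginary parts
  have hneg_im : ∀ η : ℝ, η < 0 → 0 < ((F m)^[J] (gam m X (K / 2) η)).im ∧
      ((F m)^[J] (gam m X (K / 2) η)).im < Real.pi := fun η hη =>
    ⟨(hst η hη).1 J hJK, iter_lt_pi hm hm1 (hgi η hη).2 (hst η hη).1 J hJK⟩
  have hΓim : ∀ η : ℝ, 0 < (Γ η).im ∧ (Γ η).im ≤ 2 * Real.pi := by
    intro η
    rcases lt_trichotomy η 0 with hη | hη | hη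
    · rw [Γneg η hη]
      have := hneg_im η hη
      exact ⟨this.1, by linarith⟩
    · subst hη; rw [Γzero, s3]; exact ⟨hpi, by linarith⟩
    · rw [Γpos η hη]
      have h3 := hneg_im (-η) (by linarith)
      have h4 : (2 * Real.pi * I + (starRingEnd ℂ) ((F m)^[J] (gam m X (K / 2) (-η)))).im
          = 2 * Real.pi - ((F m)^[J] (gam m X (K / 2) (-η))).im := by
        simp; ring
      rw [h4]
      constructor <;> linarith
  -- the chain lemma on the whole line
  have hall : ∀ η : ℝ, Good m k (Γ η) ∧ cen m k (Γ η) = 0 := by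
    intro η
    refine chain hm hm1 (J := univ) isOpen_univ ordConnected_univ (fun t _ => hΓan t)
      (fun t _ => hΓim t) (t₀ := -1) (mem_univ _) (fun t _ ht => ?_) η (mem_univ _)
    have htn : t < 0 := by linarith
    obtain ⟨c1, c2⟩ := hst t htn
    rw [Γneg t htn]
    constructor
    · intro j hj
      rw [← Function.iterate_add_apply]
      exact c1 (j + J) (by omega)
    · unfold cen at c2 ⊢
      have hK2 : K / 2 = k / 2 + J := by omega
      have hpar : Even K ↔ Even k := by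
        rw [hk, Nat.even_add]
        simp
      rw [hK2] at c2
      by_cases hev : Even k
      · rw [if_pos hev, ← Function.iterate_add_apply]
        rwa [if_pos (hpar.mpr hev)] at c2
      · rw [if_neg hev, ← Function.iterate_add_apply]
        rwa [if_neg (fun h => hev (hpar.mp h))] at c2
  -- at infinity
  set A : ℝ := (k : ℝ) / 2 with hA
  have hA0 : 0 < A := by
    have : (1:ℝ) ≤ k := by exact_mod_cast hk1
    rw [hA]; linarith
  have hinf : ∀ᶠ s : ℝ in 𝓝[>] (0:ℝ), Γ s⁻¹ = 2 * Real.pi * I + (s : ℂ) ^ 2 * ex L A s := by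
    have hle : 𝓝[>] (0:ℝ) ≤ 𝓝[≠] 0 := nhdsWithin_mono 0 (fun s hs => ne_of_gt hs)
    have hlarge : ∀ᶠ s : ℝ in 𝓝[>] (0:ℝ), R < s⁻¹ :=
      tendsto_inv_nhdsGT_zero.eventually (eventually_gt_atTop R)
    filter_upwards [hle (Lam_ex hD A), hlarge, self_mem_nhdsWithin] with s g1 g2 g3
    have g3' : 0 < s := g3
    have hs0 : 0 < s⁻¹ := inv_pos.mpr g3'
    rw [Γpos _ hs0, iter_gam hD hm (by linarith : -s⁻¹ < -R), ← g1]
    congr 1
    have hAK : (K : ℝ) / 2 - J = A := by
      rw [hA, hk]; push_cast; ring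
    rw [hAK]
    unfold gam
    have hb2 : R < ‖(-A + I * ((-s⁻¹ : ℝ) : ℂ)) + 1 / 2‖ := by
      have h3 := abs_im_le_norm ((-A + I * ((-s⁻¹ : ℝ) : ℂ)) + 1 / 2)
      have h4 : ((-A + I * ((-s⁻¹ : ℝ) : ℂ)) + 1 / 2).im = -s⁻¹ := by simp
      rw [h4, abs_neg, abs_of_pos hs0] at h3
      linarith
    rw [← Lam_conj hD hm hm1 hb2]
    congr 1
    simp
    rw [div_eq_mul_inv]
  have hp : (2 * Real.pi * I : ℂ).im = 2 * Real.pi := by simp
  have htend : Tendsto (fun s : ℝ => Γ s⁻¹) (𝓝[>] (0:ℝ)) (𝓝 (2 * Real.pi * I)) := by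
    have h3 : Tendsto (fun s : ℝ => (2 * Real.pi * I : ℂ) + (s : ℂ) ^ 2 * ex L A s) (𝓝[>] (0:ℝ))
        (𝓝 (2 * Real.pi * I)) := by
      have hc : ContinuousAt (fun s : ℝ => (2 * Real.pi * I : ℂ) + (s : ℂ) ^ 2 * ex L A s) 0 := by
        have := (ex_der hD A).continuousAt
        exact continuousAt_const.add (ContinuousAt.mul (by fun_prop) this)
      have := hc.tendsto.mono_left (nhdsWithin_le_nhds (s := Ioi 0))
      simpa using this
    exact h3.congr' (hinf.mono (fun s hs => hs.symm))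
  have hgood : Good m k (2 * Real.pi * I) := by
    refine good_of_limit hm hm1 (u := map (fun s : ℝ => Γ s⁻¹) (𝓝[>] (0:ℝ))) htend
      (eventually_map.mpr (Eventually.of_forall (fun s => hall _))) (by rw [hp]; linarith)
      (by rw [hp])
  have hmem : ∀ i, 2 * i < k → (F m)^[i] (2 * Real.pi * I) ∈ V m := fun i hi =>
    hgood.mem hm hm1 (by rw [hp]) hi
  have hVk : ∀ i < k / 2, (F m)^[i] (2 * Real.pi * I) ∈ V m := fun i hi => hmem i (by omega)
  obtain ⟨d, hd0, hd⟩ := iter_deriv hm hm1 (k / 2) hVk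
  have han := iter_analytic hm hm1 (k / 2) hVk
  by_cases hev : Even k
  · refine hd0 (fin hD.apos hA0 (ex_der hD A) (ex_zero hD A) han hd ?_)
    filter_upwards [hinf] with s hs
    have := (hall s⁻¹).2
    unfold cen at this
    rwa [if_pos hev, hs] at this
  · obtain ⟨l, hl⟩ := Nat.not_even_iff_odd.mp hev
    have h3 := hmem (k / 2) (by omega)
    obtain ⟨d', hd0', hd'⟩ := hasDerivAt_g hm hm1 h3
    have hcomp : HasDerivAt (fun w => I * g m ((F m)^[k / 2] w)) (I * (d' * d))
        (2 * Real.pi * I) := (hd'.comp (2 * Real.pi * I) hd).const_mul I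
    have hcan : AnalyticAt ℂ (fun w => I * g m ((F m)^[k / 2] w)) (2 * Real.pi * I) :=
      analyticAt_const.mul (AnalyticAt.fun_comp (analyticAt_g hm hm1 h3) han)
    have hne : I * (d' * d) ≠ 0 := mul_ne_zero I_ne_zero (mul_ne_zero hd0' hd0)
    refine hne (fin hD.apos hA0 (ex_der hD A) (ex_zero hD A) hcan hcomp ?_)
    filter_upwards [hinf] with s hs
    have := (hall s⁻¹).2
    unfold cen at this
    rw [if_neg hev, hs] at this
    rw [I_mul_im]; exact this

theorem no_dat (hm : 0 < m) (hm1 : m < 1) : False := by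
  have hR := hD.hR
  obtain ⟨N, hN⟩ := exists_nat_gt (R + 3)
  have hN1 : 4 < (N : ℝ) := by linarith
  have hN4 : 4 < N := by exact_mod_cast hN1
  -- real values
  have hval : ∀ x : ℝ, x < -R → (X x).im = 0 ∧ (X x).re ∈ Ioo (-1 : ℝ) 0 ∧
      (-(1/2) : ℝ) < (X x).re := by
    intro x hx
    have nx : R < ‖(x : ℂ)‖ := by
      rw [Complex.norm_real, Real.norm_eq_abs, abs_of_neg (by linarith)]; linarith
    have h3 := hD.real x nx
    rw [conj_ofReal] at h3
    have h4 := congrArg Complex.im h3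
    rw [conj_im] at h4
    have h5 := hD.small x nx
    have h6 := abs_re_le_norm (X x)
    have h7 := neg_abs_le (X x).re
    exact ⟨by linarith, ⟨by linarith, hD.neg x hx⟩, by linarith⟩
  set a0 := (X (-(N : ℝ) : ℝ)).re with ha0
  set b0 := (X (-(N : ℝ) + 1 / 2 : ℝ)).re with hb0
  set c0 := (X (-(N : ℝ) + 1 : ℝ)).re with hc0
  have va := hval (-(N : ℝ)) (by linarith)
  have vb := hval (-(N : ℝ) + 1 / 2) (by linarith)
  have vc := hval (-(N : ℝ) + 1) (by linarith)
  have hba : b0 < a0 := hD.mono _ _ (by linarith) (by linarith)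
  have hcb : c0 < b0 := hD.mono _ _ (by linarith) (by linarith)
  have hneg1 : -1 / m < -1 := by rw [div_lt_iff₀ hm]; linarith
  have hrho : rho m a0 = c0 := by
    apply rho_unique hm va.2.1 ⟨hneg1.trans vc.2.1.1, vc.2.1.2⟩
    have e1 : X ((-(N : ℝ) : ℝ) : ℂ) = (a0 : ℂ) := by
      apply Complex.ext
      · rw [ofReal_re]
      · rw [va.1, ofReal_im]
    have e2 : X ((-(N : ℝ) + 1 : ℝ) : ℂ) = (c0 : ℂ) := by
      apply Complex.ext
      · rw [ofReal_re]
      · rw [vc.1, ofReal_im]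
    have n1 : R < ‖((-(N : ℝ) : ℝ) : ℂ)‖ := by
      rw [Complex.norm_real, Real.norm_eq_abs, abs_of_neg (by linarith)]; linarith
    have n2 : R < ‖((-(N : ℝ) + 1 : ℝ) : ℂ)‖ := by
      rw [Complex.norm_real, Real.norm_eq_abs, abs_of_neg (by linarith)]; linarith
    have h3 := hD.eqn ((-(N : ℝ) : ℝ) : ℂ) n1 (by
      rw [show ((-(N : ℝ) : ℝ) : ℂ) + 1 = ((-(N : ℝ) + 1 : ℝ) : ℂ) by push_cast; ring]; exact n2)
    rw [show ((-(N : ℝ) : ℝ) : ℂ) + 1 = ((-(N : ℝ) + 1 : ℝ) : ℂ) by push_cast; ring, e1, e2,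
      G0_real (by linarith [vc.2.1.2]) (by nlinarith [vc.2.1.1, vc.2.1.2]),
      H0_real (by linarith [va.2.1.1]) (by nlinarith [va.2.1.2])] at h3
    have h4 : Gr m c0 = Hr m a0 := by exact_mod_cast h3
    exact h4
  obtain ⟨J, hJ0, hJ⟩ := hit hm hm1 va.2.1 vb.2.1 hba (by rw [hrho]; exact hcb)
  rcases hJ with ⟨g1, g2⟩ | ⟨g1, g2⟩
  · have hKc : ((2 * N - 1 : ℕ) : ℝ) = 2 * N - 1 := by
      rw [Nat.cast_sub (by omega)]; push_cast; ring
    have hy : (-(((2 * N - 1 : ℕ) : ℝ) / 2) - 1 / 2 : ℝ) = -(N : ℝ) := by rw [hKc]; ring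
    refine contradiction_of_crossing hD hm hm1 (K := 2 * N - 1) (J := J) (by rw [hKc]; linarith)
      ?_ ?_
    · rw [hy]; exact g1
    · rw [hy]; exact g2
  · have hKc : ((2 * N - 2 : ℕ) : ℝ) = 2 * N - 2 := by
      rw [Nat.cast_sub (by omega)]; push_cast; ring
    have hy : (-(((2 * N - 2 : ℕ) : ℝ) / 2) - 1 / 2 : ℝ) = -(N : ℝ) + 1 / 2 := by rw [hKc]; ring
    refine contradiction_of_crossing hD hm hm1 (K := 2 * N - 2) (J := J) (by rw [hKc]; linarith)
      ?_ ?_
    · rw [hy]; exact g1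
    · rw [hy]; exact g2

omit hD in
/-- **HR-G for `a > 3`** (`m = (a-3)/(a+3)`): there is no odd real meromorphic Fatou coordinate. -/
theorem hrg3 (hm : 0 < m) (hm1 : m < 1) {Y : ℂ → ℂ} {c : ℝ} (h : Hyp m Y c) : False := by
  obtain ⟨R, L, a, hD⟩ := h.dat hm hm1
  exact no_dat hD hm hm1

end

end Vale.Agent.P097.H849
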