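import Vale.Agent.P097.H849.Chain

namespace Vale.Agent.P097.H849

open Complex Filter Topology Set

noncomputable section

variable {m : ℝ}

/-- the hypothesis (`X z = Y (1/z)`) -/
structure Hyp (m : ℝ) (Y : ℂ → ℂ) (c : ℝ) : Prop where
  an : AnalyticAt ℂ Y 0
  zero : Y 0 = 0
  der : HasDerivAt Y c 0
  cpos : 0 < c
  odd : ∀ᶠ u in 𝓝 (0:ℂ), Y (-u) = -Y u
  real : ∀ᶠ u in 𝓝 (0:ℂ), Y ((starRingEnd ℂ) u) = (starRingEnd ℂ) (Y u)
  eqn : ∀ᶠ u in 𝓝 (0:ℂ), G0 m (Y (u / (1 + u))) = H0 m (Y u)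

lemma slope_pos {s : Set ℂ} (hs : Convex ℝ s) {Y : ℂ → ℂ}
    (hd : ∀ u ∈ s, DifferentiableAt ℂ Y u ∧ 0 < (deriv Y u).re) {u₀ u₁ : ℂ} (h0 : u₀ ∈ s)
    (h1 : u₁ ∈ s) (hne : u₀ ≠ u₁) : 0 < ((Y u₁ - Y u₀) / (u₁ - u₀)).re := by
  set Δ := u₁ - u₀ with hΔ
  have hΔ0 : Δ ≠ 0 := sub_ne_zero.mpr hne.symm
  have hseg : ∀ t : ℝ, t ∈ Icc (0:ℝ) 1 → u₀ + t * Δ ∈ s := by
    intro t ht
    have := hs h0 h1 (sub_nonneg.mpr ht.2) ht.1 (by ring)
    convert this using 1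
    simp [hΔ]; ring
  let f : ℝ → ℝ := fun t => (Y (u₀ + t * Δ) / Δ).re
  have hdf : ∀ t : ℝ, t ∈ Icc (0:ℝ) 1 → HasDerivAt f (deriv Y (u₀ + t * Δ)).re t := by
    intro t ht
    have e1 : HasDerivAt (fun t : ℝ => u₀ + t * Δ) Δ t := by
      have := (Complex.ofRealCLM.hasDerivAt (x := t)).mul_const Δ
      simpa using this.const_add u₀
    have e2 := ((hd _ (hseg t ht)).1.hasDerivAt).comp_of_eq t e1 rfl
    have e3 := e2.div_const Δ
    have e4 : deriv Y (u₀ + t * Δ) * Δ / Δ = deriv Y (u₀ + t * Δ) := by field_simp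
    rw [e4] at e3
    exact Complex.reCLM.hasFDerivAt.comp_hasDerivAt t e3
  have hmono : StrictMonoOn f (Icc 0 1) := by
    apply strictMonoOn_of_deriv_pos (convex_Icc 0 1)
    · intro t ht
      exact (hdf t ht).continuousAt.continuousWithinAt
    · intro t ht
      rw [interior_Icc] at ht
      rw [(hdf t ⟨ht.1.le, ht.2.le⟩).deriv]
      exact (hd _ (hseg t ⟨ht.1.le, ht.2.le⟩)).2
  have := hmono (left_mem_Icc.mpr zero_le_one) (right_mem_Icc.mpr zero_le_one) zero_lt_one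
  have e1 : u₀ + (1:ℝ) * Δ = u₁ := by simp [hΔ]
  have e0 : u₀ + (0:ℝ) * Δ = u₀ := by simp
  simp only [f] at this
  rw [e1, e0] at this
  rw [sub_div, sub_re]; linarith

/-! ### `G0` near the origin -/

lemma slitG1 {x : ℂ} (hx : ‖x‖ < 1) : 1 - x ∈ slitPlane := by
  rw [mem_slitPlane_iff]; left
  have := abs_re_le_norm x
  have := le_abs_self x.re
  simp; linarith

lemma slitG2 (hm : 0 < m) (hm1 : m < 1) {x : ℂ} (hx : ‖x‖ < 1) : 1 + m * x ∈ slitPlane := by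
  rw [mem_slitPlane_iff]; left
  have h1 := abs_re_le_norm x
  have h2 := neg_abs_le x.re
  simp; nlinarith

lemma hasDerivAt_G0 (hm : 0 < m) {x : ℂ} (h1 : 1 - x ∈ slitPlane) (h2 : 1 + m * x ∈ slitPlane) :
    HasDerivAt (G0 m) (-(1 + m) * x / ((1 - x) * (1 + m * x))) x := by
  have hm' : (m : ℂ) ≠ 0 := by exact_mod_cast hm.ne'
  have e1 : (1 - x) ≠ 0 := slitPlane_ne_zero h1
  have e3 : (1 + m * x) ≠ 0 := slitPlane_ne_zero h2
  have d1 : HasDerivAt (fun x : ℂ => log (1 - x)) (-1 / (1 - x)) x := by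
    have : HasDerivAt (fun x : ℂ => 1 - x) (-1) x := by
      simpa using (hasDerivAt_id x).const_sub 1
    exact this.clog h1
  have d2 : HasDerivAt (fun x : ℂ => log (1 + m * x)) (m / (1 + m * x)) x := by
    have : HasDerivAt (fun x : ℂ => 1 + m * x) (m) x := by
      simpa using ((hasDerivAt_id x).const_mul (m : ℂ)).const_add 1
    exact this.clog h2
  refine (d1.add (d2.div_const (m : ℂ))).congr_deriv ?_
  obtain ⟨A, hA⟩ : ∃ A : ℂ, A = 1 + m * x := ⟨_, rfl⟩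
  obtain ⟨B, hB⟩ : ∃ B : ℂ, B = 1 - x := ⟨_, rfl⟩
  rw [← hA] at e3 ⊢
  rw [← hB] at e1 ⊢
  field_simp
  rw [hA, hB]
  ring

lemma G0_an (hm : 0 < m) (hm1 : m < 1) {x : ℂ} (hx : ‖x‖ < 1) : AnalyticAt ℂ (G0 m) x := by
  have : DifferentiableOn ℂ (G0 m) (Metric.ball 0 1) := fun y hy =>
    (hasDerivAt_G0 hm (slitG1 (mem_ball_zero_iff.mp hy))
      (slitG2 hm hm1 (mem_ball_zero_iff.mp hy))).differentiableAt.differentiableWithinAt
  exact this.analyticAt (Metric.isOpen_ball.mem_nhds (by simpa using hx))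

lemma G0_zero : G0 m 0 = 0 := by simp [G0]

/-- `G0 x = x^2 G2 x` -/
lemma exists_G2 (hm : 0 < m) (hm1 : m < 1) : ∃ G2 : ℂ → ℂ, AnalyticAt ℂ G2 0 ∧
    G2 0 = ((-(1 + m) / 2 : ℝ) : ℂ) ∧ ∀ x, G0 m x = x ^ 2 * G2 x := by
  have han : AnalyticAt ℂ (G0 m) 0 := G0_an hm hm1 (by simp)
  have hder0 : HasDerivAt (G0 m) 0 0 := by
    have := hasDerivAt_G0 (x := 0) hm (by simp) (by simp)
    simpa using this
  obtain ⟨p, hp⟩ := han
  have hG1 : AnalyticAt ℂ (dslope (G0 m) 0) 0 := ⟨_, hp.has_fpower_series_dslope_fslope⟩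
  have hG1v : dslope (G0 m) 0 0 = 0 := by rw [dslope_same, hder0.deriv]
  obtain ⟨q, hq⟩ := hG1
  have hG2 : AnalyticAt ℂ (dslope (dslope (G0 m) 0) 0) 0 := ⟨_, hq.has_fpower_series_dslope_fslope⟩
  set G2 := dslope (dslope (G0 m) 0) 0 with hG2d
  have e1 : ∀ x, G0 m x = x ^ 2 * G2 x := by
    intro x
    have h1 := sub_smul_dslope (G0 m) 0 x
    have h2 := sub_smul_dslope (dslope (G0 m) 0) 0 x
    rw [hG1v, sub_zero, sub_zero, smul_eq_mul] at h2
    rw [G0_zero, sub_zero, sub_zero, smul_eq_mul, ← h2] at h1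
    rw [← h1]; ring
  refine ⟨G2, hG2, ?_, e1⟩
  -- value at 0
  have hlim1 : Tendsto (fun x : ℂ => 2 * G2 x + x * deriv G2 x) (𝓝[≠] 0) (𝓝 (2 * G2 0)) := by
    have c1 : ContinuousAt (fun x : ℂ => 2 * G2 x + x * deriv G2 x) 0 :=
      (continuousAt_const.mul hG2.continuousAt).add (continuousAt_id.mul hG2.deriv.continuousAt)
    have := c1.tendsto.mono_left (nhdsWithin_le_nhds (s := {0}ᶜ))
    simpa using this
  have hlim2 : Tendsto (fun x : ℂ => -(1 + m) / ((1 - x) * (1 + m * x))) (𝓝[≠] 0)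
      (𝓝 (-(1 + m : ℂ))) := by
    have c1 : ContinuousAt (fun x : ℂ => -(1 + m : ℂ) / ((1 - x) * (1 + m * x))) 0 := by
      apply ContinuousAt.div continuousAt_const (by fun_prop) (by simp)
    have := c1.tendsto.mono_left (nhdsWithin_le_nhds (s := {0}ᶜ))
    simpa using this
  have heq : ∀ᶠ x in 𝓝[≠] (0:ℂ), 2 * G2 x + x * deriv G2 x = -(1 + m) / ((1 - x) * (1 + m * x)) := by
    have h1 : ∀ᶠ x in 𝓝 (0:ℂ), AnalyticAt ℂ G2 x := hG2.eventually_analyticAt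
    have h2 : ∀ᶠ x in 𝓝 (0:ℂ), ‖x‖ < 1 := by
      have := Metric.ball_mem_nhds (0:ℂ) one_pos
      filter_upwards [this] with x hx using mem_ball_zero_iff.mp hx
    filter_upwards [nhdsWithin_le_nhds h1, nhdsWithin_le_nhds h2, self_mem_nhdsWithin]
      with x hx1 hx2 hx3
    have hx3' : x ≠ 0 := hx3
    have d1 : HasDerivAt (G0 m) (2 * x * G2 x + x ^ 2 * deriv G2 x) x := by
      have := ((hasDerivAt_pow 2 x).mul hx1.differentiableAt.hasDerivAt)
      have h : G0 m = fun x => x ^ 2 * G2 x := funext e1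
      rw [h]
      refine this.congr_deriv ?_
      simp
    have d2 := hasDerivAt_G0 hm (slitG1 hx2) (slitG2 hm hm1 hx2)
    have := d1.unique d2
    have h3 : x * (2 * G2 x + x * deriv G2 x) = x * (-(1 + m) / ((1 - x) * (1 + m * x))) := by
      rw [show x * (2 * G2 x + x * deriv G2 x) = 2 * x * G2 x + x ^ 2 * deriv G2 x by ring, this]
      ring
    exact mul_left_cancel₀ hx3' h3
  have := tendsto_nhds_unique (hlim1.congr' heq) hlim2
  push_cast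
  linear_combination this / 2

end

end Vale.Agent.P097.H849
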