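import Vale.Agent.P097.H849.GH

namespace Vale.Agent.P097.H849

open Complex Filter Topology Set

noncomputable section

variable {m : ℝ}

/-- `G0` in the coordinate `ζ = log (1 - x)` -/
def ph (m : ℝ) (ζ : ℂ) : ℂ := ζ + log (1 + m - m * exp ζ) / m

def ph' (m : ℝ) (ζ : ℂ) : ℂ := 1 - exp ζ / (1 + m - m * exp ζ)

lemma im_arg_pos (hm : 0 < m) {ζ : ℂ} (h1 : -Real.pi < ζ.im) (h2 : ζ.im < 0) :
    0 < (1 + m - m * exp ζ : ℂ).im := by
  have hs : Real.sin ζ.im < 0 := Real.sin_neg_of_neg_of_neg_pi_lt h2 h1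
  have : (1 + m - m * exp ζ : ℂ).im = -(m * (Real.exp ζ.re * Real.sin ζ.im)) := by
    simp [exp_im]
  rw [this]
  have he := Real.exp_pos ζ.re
  have : Real.exp ζ.re * Real.sin ζ.im < 0 := mul_neg_of_pos_of_neg he hs
  nlinarith

lemma slit_of_im_pos {z : ℂ} (h : 0 < z.im) : z ∈ slitPlane :=
  mem_slitPlane_iff.mpr (Or.inr h.ne')

lemma hasDerivAt_ph (hm : 0 < m) {ζ : ℂ} (h : (1 + m - m * exp ζ : ℂ) ∈ slitPlane) :
    HasDerivAt (ph m) (ph' m ζ) ζ := by
  have hm' : (m : ℂ) ≠ 0 := by exact_mod_cast hm.ne'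
  have d : HasDerivAt (fun ζ : ℂ => (1 + m - m * exp ζ : ℂ)) (-(m * exp ζ)) ζ := by
    simpa using ((hasDerivAt_exp ζ).const_mul (m : ℂ)).const_sub (1 + m : ℂ)
  have := (hasDerivAt_id ζ).add ((d.clog h).div_const (m : ℂ))
  refine this.congr_deriv ?_
  unfold ph'
  have e := slitPlane_ne_zero h
  obtain ⟨A, hA⟩ : ∃ A : ℂ, A = 1 + m - m * exp ζ := ⟨_, rfl⟩
  rw [← hA] at e ⊢
  field_simp
  ring

lemma im_ph'_pos (hm : 0 < m) {ζ : ℂ} (h1 : -Real.pi < ζ.im) (h2 : ζ.im < 0) :
    0 < (ph' m ζ).im := by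
  have hp := im_arg_pos hm h1 h2
  have e := slitPlane_ne_zero (slit_of_im_pos hp)
  set A : ℂ := 1 + m - m * exp ζ with hA
  have hm' : (m : ℂ) ≠ 0 := by exact_mod_cast hm.ne'
  have : ph' m ζ = (1 + 1 / m : ℝ) - ((1 + m) / m : ℝ) * A⁻¹ := by
    unfold ph'
    rw [← hA]
    have : exp ζ = (1 + m - A) / m := by rw [hA]; field_simp; ring
    rw [this]; push_cast; field_simp; ring
  rw [this]
  have : ((1 + 1 / m : ℝ) - ((1 + m) / m : ℝ) * A⁻¹ : ℂ).im = ((1 + m) / m) * (A.im / normSq A) := by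
    rw [sub_im, ofReal_im, im_ofReal_mul, inv_im]; ring
  rw [this]
  have : 0 < normSq A := normSq_pos.mpr e
  positivity

/-- allowed points: the open strip and the real points with positive logarithm argument -/
def Al (m : ℝ) (ζ : ℂ) : Prop :=
  (-Real.pi < ζ.im ∧ ζ.im < 0) ∨ (ζ.im = 0 ∧ 0 < 1 + m - m * Real.exp ζ.re)

lemma slit_of_Al (hm : 0 < m) {ζ : ℂ} (h : Al m ζ) : (1 + m - m * exp ζ : ℂ) ∈ slitPlane := by
  rcases h with h | h
  · exact slit_of_im_pos (im_arg_pos hm h.1 h.2)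
  · rw [mem_slitPlane_iff]; left
    have : (1 + m - m * exp ζ : ℂ).re = 1 + m - m * Real.exp ζ.re := by
      simp [exp_re, h.1]
    rw [this]; exact h.2

lemma ph_ne (hm : 0 < m) {ζ₀ ζ₁ : ℂ} (h0 : Al m ζ₀) (h1 : -Real.pi < ζ₁.im) (h1' : ζ₁.im < 0)
    (hne : ζ₀ ≠ ζ₁) : ph m ζ₀ ≠ ph m ζ₁ := by
  intro heq
  set Δ := ζ₁ - ζ₀ with hΔ
  have hΔ0 : Δ ≠ 0 := sub_ne_zero.mpr hne.symm
  have him : ∀ t : ℝ, (ζ₀ + t * Δ).im = (1 - t) * ζ₀.im + t * ζ₁.im := by
    intro t; simp [hΔ]; ring
  have hz0 : -Real.pi < ζ₀.im ∧ ζ₀.im ≤ 0 := by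
    rcases h0 with h | h
    · exact ⟨h.1, h.2.le⟩
    · rw [h.1]; exact ⟨by linarith [Real.pi_pos], le_rfl⟩
  have hstrip : ∀ t : ℝ, 0 < t → t ≤ 1 →
      -Real.pi < (ζ₀ + t * Δ).im ∧ (ζ₀ + t * Δ).im < 0 := by
    intro t ht ht1
    rw [him]
    constructor
    · have : (1 - t) * (-Real.pi) + t * (-Real.pi) < (1 - t) * ζ₀.im + t * ζ₁.im := by
        have a := mul_le_mul_of_nonneg_left hz0.1.le (sub_nonneg.mpr ht1)
        have b := mul_lt_mul_of_pos_left h1 ht
        linarith
      linarith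
    · have a := mul_nonneg_of_nonpos_of_nonpos (neg_nonpos.mpr (sub_nonneg.mpr ht1)) hz0.2
      have b := mul_neg_of_pos_of_neg ht h1'
      linarith
  have hAl : ∀ t : ℝ, t ∈ Icc (0:ℝ) 1 → Al m (ζ₀ + t * Δ) := by
    intro t ht
    rcases ht.1.eq_or_lt with h | h
    · subst h; simpa using h0
    · exact Or.inl (hstrip t h ht.2)
  let f : ℝ → ℝ := fun t => (ph m (ζ₀ + t * Δ) / Δ).im
  have hd : ∀ t : ℝ, t ∈ Icc (0:ℝ) 1 → HasDerivAt f (ph' m (ζ₀ + t * Δ)).im t := by
    intro t ht
    have e1 : HasDerivAt (fun t : ℝ => ζ₀ + t * Δ) Δ t := by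
      have := (Complex.ofRealCLM.hasDerivAt (x := t)).mul_const Δ
      simpa using this.const_add ζ₀
    have e2 := (hasDerivAt_ph hm (slit_of_Al hm (hAl t ht))).comp_of_eq t e1 rfl
    have e3 := e2.div_const Δ
    have e4 : ph' m (ζ₀ + t * Δ) * Δ / Δ = ph' m (ζ₀ + t * Δ) := by field_simp
    rw [e4] at e3
    exact Complex.imCLM.hasFDerivAt.comp_hasDerivAt t e3
  have hmono : StrictMonoOn f (Icc 0 1) := by
    apply strictMonoOn_of_deriv_pos (convex_Icc 0 1)
    · intro t ht
      exact (hd t ht).continuousAt.continuousWithinAt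
    · intro t ht
      rw [interior_Icc] at ht
      rw [(hd t ⟨ht.1.le, ht.2.le⟩).deriv]
      have := hstrip t ht.1 ht.2.le
      exact im_ph'_pos hm this.1 this.2
  have := hmono (left_mem_Icc.mpr zero_le_one) (right_mem_Icc.mpr zero_le_one) zero_lt_one
  have e1 : ζ₀ + (1:ℝ) * Δ = ζ₁ := by simp [hΔ]
  have e0 : ζ₀ + (0:ℝ) * Δ = ζ₀ := by simp
  simp only [f] at this
  rw [e1, e0, heq] at this
  exact lt_irrefl _ this

lemma G0_eq_ph {x : ℂ} (h : 1 - x ≠ 0) : G0 m x = ph m (log (1 - x)) := by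
  unfold G0 ph
  rw [exp_log h]
  congr 3
  ring

lemma log_strip {x : ℂ} (hx : 0 < x.im) : -Real.pi < (log (1 - x)).im ∧ (log (1 - x)).im < 0 := by
  rw [log_im]
  exact ⟨neg_pi_lt_arg _, arg_neg' (by simpa using hx)⟩

lemma G_injOn_upper (hm : 0 < m) {x y : ℂ} (hx : 0 < x.im) (hy : 0 < y.im)
    (h : G m x = G m y) : x = y := by
  have e1 : 1 - x ≠ 0 := by
    intro h'; have := congrArg Complex.im h'; simp at this; linarith
  have e2 : 1 - y ≠ 0 := by
    intro h'; have := congrArg Complex.im h'; simp at this; linarith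
  rw [G_eq_G0 hm hx, G_eq_G0 hm hy, G0_eq_ph e1, G0_eq_ph e2] at h
  by_contra hne
  have hne' : log (1 - x) ≠ log (1 - y) := by
    intro h'
    have := congrArg exp h'
    rw [exp_log e1, exp_log e2] at this
    apply hne; linear_combination -this
  exact ph_ne hm (Or.inl (log_strip hx)) (log_strip hy).1 (log_strip hy).2 hne' h

/-- a real value of `G` in the upper half plane is positive -/
lemma G_re_pos (hm : 0 < m) {x : ℂ} (hx : 0 < x.im) (h : (G m x).im = 0) : 0 < (G m x).re := by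
  by_contra hneg
  rw [not_lt] at hneg
  have e1 : 1 - x ≠ 0 := by
    intro h'; have := congrArg Complex.im h'; simp at this; linarith
  -- real solution
  let f : ℝ → ℝ := fun s => s + Real.log (1 + m - m * Real.exp s) / m
  have hpos : ∀ s : ℝ, s ≤ 0 → 0 < 1 + m - m * Real.exp s := by
    intro s hs
    have : Real.exp s ≤ 1 := Real.exp_le_one_iff.mpr hs
    nlinarith
  set r := (G m x).re with hr
  obtain ⟨M, hM⟩ : ∃ M : ℝ, M = -r + Real.log (1 + m) / m := ⟨_, rfl⟩
  have hlog : 0 ≤ Real.log (1 + m) / m := div_nonneg (Real.log_nonneg (by linarith)) hm.le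
  have hM0 : 0 ≤ M := by rw [hM]; linarith
  have hfM : f (-M) ≤ r := by
    have : Real.log (1 + m - m * Real.exp (-M)) ≤ Real.log (1 + m) := by
      apply Real.log_le_log (hpos _ (by linarith))
      have := Real.exp_pos (-M); nlinarith
    have : Real.log (1 + m - m * Real.exp (-M)) / m ≤ Real.log (1 + m) / m := by gcongr
    simp only [f]; linarith
  have hf0 : f 0 = 0 := by simp [f]
  have hcont : ContinuousOn f (Icc (-M) 0) := by
    apply ContinuousOn.add continuousOn_id
    apply ContinuousOn.div_const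
    apply ContinuousOn.log
    · fun_prop
    · intro s hs; exact (hpos s hs.2).ne'
  obtain ⟨s, hs, hfs⟩ : r ∈ f '' Icc (-M) 0 := by
    apply intermediate_value_Icc (by linarith) hcont
    exact ⟨hfM, by rw [hf0]; exact hneg⟩
  have hph : ph m (s : ℂ) = G m x := by
    apply Complex.ext
    · rw [← hr, ← hfs]
      unfold ph
      have : (1 + m - m * exp s : ℂ) = ((1 + m - m * Real.exp s : ℝ) : ℂ) := by push_cast; ring
      rw [this, ← ofReal_log (hpos s hs.2).le]
      simp only [f]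
      rw [← ofReal_div, add_re, ofReal_re, ofReal_re]
    · rw [h]
      unfold ph
      have : (1 + m - m * exp s : ℂ) = ((1 + m - m * Real.exp s : ℝ) : ℂ) := by push_cast; ring
      rw [this, ← ofReal_log (hpos s hs.2).le, ← ofReal_div, ← ofReal_add, ofReal_im]
  rw [G_eq_G0 hm hx, G0_eq_ph e1] at hph
  have hA : Al m (s : ℂ) := by
    right; exact ⟨ofReal_im s, by rw [ofReal_re]; exact hpos s hs.2⟩
  refine ph_ne hm hA (log_strip hx).1 (log_strip hx).2 ?_ hph
  intro h'
  have := (log_strip hx).2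
  rw [← h', ofReal_im] at this
  exact lt_irrefl _ this

/-- `G` is injective on `D` -/
lemma G_injOn (hm : 0 < m) {x y : ℂ} (hx : x ∈ D m) (hy : y ∈ D m)
    (h : G m x = G m y) : x = y := by
  have him := congrArg Complex.im h
  -- classification
  have cl : ∀ z ∈ D m, (0 < z.im ∧ (G m z).im < Real.pi / m) ∨
      (z.im = 0 ∧ z.re < -1 / m ∧ (G m z).im = Real.pi / m) ∨
      (z.im < 0 ∧ Real.pi / m < (G m z).im) := by
    intro z hz
    rcases lt_trichotomy z.im 0 with h1 | h1 | h1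
    · right; right; exact ⟨h1, lt_im_G' hm h1⟩
    · right; left
      have : z.re < -1 / m := by
        rcases hz with h2 | h2
        · exact h2
        · exact absurd h1 h2
      exact ⟨h1, this, im_G_real hm this h1⟩
    · left; exact ⟨h1, im_G_lt hm h1⟩
  rcases cl x hx with ⟨a1, a2⟩ | ⟨a1, a2, a3⟩ | ⟨a1, a2⟩
  · rcases cl y hy with ⟨b1, b2⟩ | ⟨b1, b2, b3⟩ | ⟨b1, b2⟩
    · exact G_injOn_upper hm a1 b1 h
    · exfalso; linarith
    · exfalso; linarith
  · rcases cl y hy with ⟨b1, b2⟩ | ⟨b1, b2, b3⟩ | ⟨b1, b2⟩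
    · exfalso; linarith
    · -- both real: strict monotonicity of the real part
      have hre := congrArg Complex.re h
      rw [re_G, re_G] at hre
      have mx : m * x.re < -1 := by
        have := mul_lt_mul_of_pos_left a2 hm
        rwa [mul_div_cancel₀ _ hm.ne'] at this
      have my : m * y.re < -1 := by
        have := mul_lt_mul_of_pos_left b2 hm
        rwa [mul_div_cancel₀ _ hm.ne'] at this
      have ex : x = (x.re : ℂ) := by apply Complex.ext <;> simp [a1]
      have ey : y = (y.re : ℂ) := by apply Complex.ext <;> simp [b1]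
      have nx1 : ‖1 - x‖ = 1 - x.re := by
        rw [ex, show (1 - ((x.re : ℝ) : ℂ)) = ((1 - x.re : ℝ) : ℂ) by push_cast; ring,
          Complex.norm_real, Real.norm_eq_abs, abs_of_pos (by nlinarith)]
        simp
      have nx2 : ‖-1 - m * x‖ = -1 - m * x.re := by
        rw [ex, show (-1 - m * ((x.re : ℝ) : ℂ)) = ((-1 - m * x.re : ℝ) : ℂ) by push_cast; ring,
          Complex.norm_real, Real.norm_eq_abs, abs_of_pos (by linarith)]
        simp
      have ny1 : ‖1 - y‖ = 1 - y.re := by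
        rw [ey, show (1 - ((y.re : ℝ) : ℂ)) = ((1 - y.re : ℝ) : ℂ) by push_cast; ring,
          Complex.norm_real, Real.norm_eq_abs, abs_of_pos (by nlinarith)]
        simp
      have ny2 : ‖-1 - m * y‖ = -1 - m * y.re := by
        rw [ey, show (-1 - m * ((y.re : ℝ) : ℂ)) = ((-1 - m * y.re : ℝ) : ℂ) by push_cast; ring,
          Complex.norm_real, Real.norm_eq_abs, abs_of_pos (by linarith)]
        simp
      rw [nx1, nx2, ny1, ny2] at hre
      have key : ∀ u v : ℝ, m * u < -1 → m * v < -1 → u < v →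
          Real.log (1 - v) + Real.log (-1 - m * v) / m <
          Real.log (1 - u) + Real.log (-1 - m * u) / m := by
        intro u v hu hv huv
        have l1 : Real.log (1 - v) < Real.log (1 - u) :=
          Real.log_lt_log (by nlinarith) (by linarith)
        have l2 : Real.log (-1 - m * v) < Real.log (-1 - m * u) :=
          Real.log_lt_log (by linarith) (by nlinarith)
        have l3 : Real.log (-1 - m * v) / m < Real.log (-1 - m * u) / m := by gcongr
        linarith
      rw [ex, ey]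
      congr 1
      rcases lt_trichotomy x.re y.re with h1 | h1 | h1
      · have := key _ _ mx my h1; linarith
      · exact h1
      · have := key _ _ my mx h1; linarith
    · exfalso; linarith
  · rcases cl y hy with ⟨b1, b2⟩ | ⟨b1, b2, b3⟩ | ⟨b1, b2⟩
    · exfalso; linarith
    · exfalso; linarith
    · -- conjugate
      have c1 : 0 < ((starRingEnd ℂ) x).im := by simpa using a1
      have c2 : 0 < ((starRingEnd ℂ) y).im := by simpa using b1
      have conjG : ∀ z : ℂ, z.im < 0 → G m ((starRingEnd ℂ) z) =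
          (starRingEnd ℂ) (G m z) + 2 * Real.pi * I / m := by
        intro z hz
        unfold G
        rw [map_add, map_div₀, map_add, conj_log' (by simpa using hz.ne),
          conj_log' (by simp; exact ⟨hm.ne', hz.ne⟩)]
        simp
        ring
      have : G m ((starRingEnd ℂ) x) = G m ((starRingEnd ℂ) y) := by
        rw [conjG x a1, conjG y b1, h]
      have := G_injOn_upper hm c1 c2 this
      have := congrArg (starRingEnd ℂ) this
      simpa using this

end

end Vale.Agent.P097.H849
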