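import Vale.Agent.P097.H849.Dat

namespace Vale.Agent.P097.H849

open Complex Filter Topology Set

noncomputable section

variable {m : ℝ} {X L : ℂ → ℂ} {R a : ℝ}

/-- the line variable -/
def Lam (m : ℝ) (X : ℂ → ℂ) (z : ℂ) : ℂ := G0 m (X (z + 1 / 2))

lemma V_of_upper (hm : 0 < m) {x : ℂ} (hx : 0 < x.im) : G m x ∈ V m := by
  have hpi := Real.pi_pos
  refine ⟨lt_im_G hm, ?_, ?_⟩
  · have h1 := im_G_lt hm hx
    have : Real.pi / m < 2 * Real.pi / m := by gcongr; linarith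
    linarith
  · by_cases h : (G m x).im = 0
    · left; exact G_re_pos hm hx h
    · right; exact h

variable (hD : Dat m X R L a)

include hD

lemma Lam_eq_H0 {z : ℂ} (h1 : R < ‖z - 1 / 2‖) (h2 : R < ‖z + 1 / 2‖) :
    Lam m X z = H0 m (X (z - 1 / 2)) := by
  have := hD.eqn (z - 1 / 2) h1 (by rwa [show z - 1 / 2 + 1 = z + 1 / 2 by ring])
  rw [← this, Lam, show z - 1 / 2 + 1 = z + 1 / 2 by ring]

lemma Lam_G (hm : 0 < m) {z : ℂ} (hz : z.im < 0) (h : R < ‖z + 1 / 2‖) :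
    Lam m X z = G m (X (z + 1 / 2)) ∧ 0 < (X (z + 1 / 2)).im := by
  have him : (z + 1 / 2).im < 0 := by simpa using hz
  have hup := hD.up _ h him
  exact ⟨by rw [Lam, G_eq_G0 hm hup], hup⟩

lemma Lam_mem (hm : 0 < m) {z : ℂ} (hz : z.im < 0) (h : R < ‖z + 1 / 2‖) :
    Lam m X z ∈ V m := by
  obtain ⟨h1, h2⟩ := Lam_G hD hm hz h
  rw [h1]; exact V_of_upper hm h2

lemma g_Lam (hm : 0 < m) {z : ℂ} (hz : z.im < 0) (h : R < ‖z + 1 / 2‖) :
    g m (Lam m X z) = X (z + 1 / 2) := by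
  obtain ⟨h1, h2⟩ := Lam_G hD hm hz h
  rw [h1, g_G hm (Or.inr h2.ne')]

lemma F_Lam (hm : 0 < m) {z : ℂ} (hz : z.im < 0) (h : R < ‖z + 1 / 2‖)
    (h' : R < ‖z + 1 + 1 / 2‖) : F m (Lam m X z) = Lam m X (z + 1) := by
  obtain ⟨h1, h2⟩ := Lam_G hD hm hz h
  show H m (g m (Lam m X z)) = _
  rw [g_Lam hD hm hz h, H_eq_H0 h2, Lam_eq_H0 hD (z := z + 1)
    (by rwa [show z + 1 - 1 / 2 = z + 1 / 2 by ring]) h']
  rw [show z + 1 - 1 / 2 = z + 1 / 2 by ring]

lemma im_Lam_lt (hm : 0 < m) {z : ℂ} (hz : z.im < 0) (h1 : R < ‖z - 1 / 2‖)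
    (h2 : R < ‖z + 1 / 2‖) : (Lam m X z).im < Real.pi := by
  rw [Lam_eq_H0 hD h1 h2]
  have him : (z - 1 / 2).im < 0 := by simpa using hz
  have hup := hD.up _ h1 him
  rw [← H_eq_H0 hup]
  exact im_H_lt hm hup

lemma iter_Lam (hm : 0 < m) {z : ℂ} (hz : z.im < -R) (j : ℕ) :
    (F m)^[j] (Lam m X z) = Lam m X (z + j) := by
  have hR := hD.hR
  have hbig : ∀ x : ℝ, R < ‖z + (x : ℂ)‖ := by
    intro x
    have h1 := abs_im_le_norm (z + x)
    have h2 : (z + (x:ℂ)).im = z.im := by simp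
    rw [h2, abs_of_neg (by linarith)] at h1
    linarith
  induction j with
  | zero => simp
  | succ j ih =>
    rw [Function.iterate_succ_apply', ih, F_Lam hD hm (by simp; linarith)]
    · push_cast; congr 1; ring
    · have := hbig (j + 1 / 2)
      convert this using 2; push_cast; ring
    · have := hbig (j + 1 + 1 / 2)
      convert this using 2; push_cast; ring

omit hD in
lemma conj_G0 {x : ℂ} (h1 : 1 - x ∈ slitPlane) (h2 : 1 + m * x ∈ slitPlane) :
    G0 m ((starRingEnd ℂ) x) = (starRingEnd ℂ) (G0 m x) := by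
  unfold G0
  rw [map_add, map_div₀, ← log_conj _ (slitPlane_arg_ne_pi h1),
    ← log_conj _ (slitPlane_arg_ne_pi h2)]
  simp

lemma Lam_conj (hm : 0 < m) (hm1 : m < 1) {z : ℂ} (h : R < ‖z + 1 / 2‖) :
    Lam m X ((starRingEnd ℂ) z) = (starRingEnd ℂ) (Lam m X z) := by
  unfold Lam
  have h2 := hD.real _ h
  have hs := hD.small _ h
  rw [← conj_G0 (slitG1 (by linarith)) (slitG2 hm hm1 (by linarith)), ← h2]
  congr 2
  rw [map_add, map_div₀, map_one, map_ofNat]

lemma Lam_neg {z : ℂ} (h1 : R < ‖z - 1 / 2‖) (h2 : R < ‖z + 1 / 2‖) :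
    Lam m X (-z) = Lam m X z := by
  have h3 := Lam_eq_H0 hD h1 h2
  rw [h3, H0_eq, ← hD.odd _ h1, Lam]
  congr 2; ring

/-- centre values -/
lemma centre_even (hm : 0 < m) (hm1 : m < 1) {z : ℂ} (hz : z.re = 0) (hz' : z.im < -R) :
    (Lam m X z).im = 0 := by
  have hR := hD.hR
  have hbig : ∀ x : ℝ, R < ‖z + (x : ℂ)‖ := by
    intro x
    have h1 := abs_im_le_norm (z + x)
    have h2 : (z + (x:ℂ)).im = z.im := by simp
    rw [h2, abs_of_neg (by linarith)] at h1
    linarith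
  have b1 : R < ‖z + 1 / 2‖ := by
    have := hbig (1 / 2); push_cast at this; exact this
  have b2 : R < ‖z - 1 / 2‖ := by
    have := hbig (-(1 / 2)); push_cast at this; rwa [← sub_eq_add_neg] at this
  have hzc : (starRingEnd ℂ) z = -z := by
    apply Complex.ext <;> simp [hz]
  have h1 := Lam_conj hD hm hm1 b1
  rw [hzc, Lam_neg hD b2 b1] at h1
  have := congrArg Complex.im h1
  rw [conj_im] at this; linarith

lemma centre_odd {z : ℂ} (hz : z.re = 0) (hz' : z.im < -R) : (X z).re = 0 := by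
  have hR := hD.hR
  have b1 : R < ‖z‖ := by
    have h1 := abs_im_le_norm z
    rw [abs_of_neg (by linarith)] at h1
    linarith
  have hzc : (starRingEnd ℂ) z = -z := by
    apply Complex.ext <;> simp [hz]
  have h1 := hD.real z b1
  rw [hzc, hD.odd z b1] at h1
  have := congrArg Complex.re h1
  rw [neg_re, conj_re] at this; linarith

omit hD in
/-- the expansion function on a vertical line -/
def ex (L : ℂ → ℂ) (A : ℝ) (s : ℝ) : ℂ := L ((s : ℂ) / (I - A * s)) / (I - A * s) ^ 2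

lemma ex_zero (A : ℝ) : ex L A 0 = a := by
  unfold ex
  simp [hD.L0]

lemma ex_der (A : ℝ) : HasDerivAt (ex L A) (-(2 * a * A) * I) 0 := by
  have h1 : HasDerivAt (fun s : ℂ => I - A * s) (-A) 0 := by
    simpa using ((hasDerivAt_id (0:ℂ)).const_mul (A : ℂ)).const_sub I
  have hne : (I - A * (0:ℂ)) ≠ 0 := by simp
  have h2 : HasDerivAt (fun s : ℂ => s / (I - A * s)) (1 / I) 0 := by
    have := (hasDerivAt_id (0:ℂ)).div h1 hne
    refine this.congr_deriv ?_
    simp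
    field_simp
  have hL : HasDerivAt L 0 ((0:ℂ) / (I - A * 0)) := by simpa using hD.dL
  have h3 : HasDerivAt (fun s : ℂ => L (s / (I - A * s))) (0 * (1 / I)) 0 := hL.comp (0:ℂ) h2
  have h4 := h3.div (h1.pow 2) (pow_ne_zero 2 hne)
  have h5 : HasDerivAt (fun s : ℂ => L (s / (I - A * s)) / (I - A * s) ^ 2)
      (-(2 * a * A) * I) 0 := by
    refine h4.congr_deriv ?_
    have hI2 : (I : ℂ) ^ 2 = -1 := I_sq
    have hI4 : (I ^ 2 : ℂ) ^ 2 = 1 := by rw [hI2]; norm_num
    simp only [mul_zero, sub_zero, zero_div, zero_mul, hD.L0, Pi.pow_apply]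
    rw [hI4]
    push_cast
    ring
  have h6 : HasDerivAt (fun s : ℂ => L (s / (I - A * s)) / (I - A * s) ^ 2)
      (-(2 * a * A) * I) ((0:ℝ) : ℂ) := by simpa using h5
  exact h6.comp_ofReal

lemma Lam_ex (A : ℝ) : ∀ᶠ s : ℝ in 𝓝[≠] (0:ℝ), Lam m X (-A + I / s) = s ^ 2 * ex L A s := by
  have hne0 : ∀ s : ℝ, (I - A * s : ℂ) ≠ 0 := by
    intro s h0
    have := congrArg Complex.im h0
    simp at this
  have ht : Tendsto (fun s : ℝ => (s : ℂ) / (I - A * s)) (𝓝[≠] 0) (𝓝[≠] 0) := by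
    rw [tendsto_nhdsWithin_iff]
    constructor
    · have hc : ContinuousAt (fun s : ℝ => (s : ℂ) / (I - A * s)) 0 := by
        exact ContinuousAt.div (f := fun s : ℝ => (s : ℂ)) (g := fun s : ℝ => (I - A * s : ℂ))
          (by fun_prop) (by fun_prop) (hne0 0)
      have := hc.tendsto.mono_left (nhdsWithin_le_nhds (s := {0}ᶜ))
      simpa using this
    · filter_upwards [self_mem_nhdsWithin] with s hs
      have : (s : ℂ) ≠ 0 := by exact_mod_cast hs
      exact div_ne_zero this (hne0 s)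
  filter_upwards [ht.eventually hD.lam, self_mem_nhdsWithin] with s hs hs0
  have hs0' : (s : ℂ) ≠ 0 := by exact_mod_cast hs0
  have e : ((s : ℂ) / (I - A * s))⁻¹ = -A + I / s := by
    have := hne0 s
    rw [inv_div]; field_simp; ring
  rw [e] at hs
  unfold Lam ex
  rw [hs, div_pow]
  ring

/-- positivity of the imaginary part far down on a vertical line left of the axis -/
lemma pos_bot {A : ℝ} (hA : 0 < A) : ∀ᶠ η in atBot, 0 < (Lam m X (-A + I * (η : ℝ))).im := by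
  have h1 : HasDerivAt (fun s : ℝ => (ex L A s).im) (-(2 * a * A)) 0 := by
    have := Complex.imCLM.hasFDerivAt.comp_hasDerivAt (0:ℝ) (ex_der hD A)
    refine this.congr_deriv ?_
    simp
  have hap := hD.apos
  have h0 : (ex L A 0).im = 0 := by rw [ex_zero hD]; simp
  have h2 := hasDerivAt_iff_tendsto_slope.mp h1
  have h3 : ∀ᶠ s : ℝ in 𝓝[≠] (0:ℝ), slope (fun s : ℝ => (ex L A s).im) 0 s < 0 :=
    h2.eventually (gt_mem_nhds (by
      have : 0 < 2 * a * A := by positivity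
      linarith))
  have h4 : ∀ᶠ s : ℝ in 𝓝[<] (0:ℝ), 0 < (Lam m X (-A + I / s)).im := by
    have hle : 𝓝[<] (0:ℝ) ≤ 𝓝[≠] 0 := nhdsWithin_mono 0 (fun s hs => ne_of_lt hs)
    filter_upwards [hle h3, hle (Lam_ex hD A), self_mem_nhdsWithin] with s hs1 hs2 hs3
    have hs3' : s < 0 := hs3
    rw [slope_def_field, h0, sub_zero, sub_zero] at hs1
    have hpos : 0 < (ex L A s).im := by
      by_contra hneg
      rw [not_lt] at hneg
      have := div_nonneg_of_nonpos hneg hs3'.le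
      linarith
    rw [hs2]
    have : ((s : ℂ) ^ 2 * ex L A s).im = s ^ 2 * (ex L A s).im := by
      rw [← ofReal_pow, im_ofReal_mul]
    rw [this]
    have : 0 < s ^ 2 := by
      have := mul_pos_of_neg_of_neg hs3' hs3'
      rwa [sq]
    positivity
  have ht : Tendsto (fun η : ℝ => η⁻¹) atBot (𝓝[<] 0) := tendsto_inv_atBot_nhdsLT_zero
  filter_upwards [ht.eventually h4] with η hη
  have : I / ((η⁻¹ : ℝ) : ℂ) = I * (η : ℝ) := by
    push_cast; rw [div_inv_eq_mul]
  rwa [this] at hη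

/-- far left the imaginary part is positive on the whole lower half line -/
lemma far_pos (hm : 0 < m) (hm1 : m < 1) {A : ℝ} (hA : R + 1 ≤ A) {η : ℝ} (hη : η < 0) :
    0 < (Lam m X (-A + I * (η : ℝ))).im := by
  have hR := hD.hR
  have hbig : ∀ t x : ℝ, |x| ≤ 1 / 2 → R < ‖(-A + I * (t : ℝ) : ℂ) + x‖ := by
    intro t x hx
    have h1 := abs_re_le_norm ((-A + I * (t : ℝ) : ℂ) + x)
    have h2 : ((-A + I * (t : ℝ) : ℂ) + x).re = -A + x := by simp
    rw [h2] at h1
    have h3 := abs_le.mp hx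
    rw [abs_of_neg (by linarith)] at h1
    linarith
  have b1 : ∀ t : ℝ, R < ‖(-A + I * (t : ℝ) : ℂ) + 1 / 2‖ := by
    intro t
    have := hbig t (1 / 2) (by rw [abs_of_pos] <;> norm_num)
    push_cast at this; exact this
  have b2 : ∀ t : ℝ, R < ‖(-A + I * (t : ℝ) : ℂ) - 1 / 2‖ := by
    intro t
    have := hbig t (-(1 / 2)) (by rw [abs_neg, abs_of_pos] <;> norm_num)
    push_cast at this; rwa [← sub_eq_add_neg] at this
  -- non vanishing
  have hnv : ∀ t : ℝ, t < 0 → (Lam m X (-A + I * (t : ℝ))).im ≠ 0 := by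
    intro t ht h0
    set z : ℂ := -A + I * (t : ℝ) with hz
    have hzim : z.im < 0 := by simp [hz]; exact ht
    obtain ⟨h1, h2⟩ := Lam_G hD hm hzim (b1 t)
    have h3 := Lam_eq_H0 hD (b2 t) (b1 t)
    have hup := hD.up _ (b2 t) (by simpa using ht)
    rw [← H_eq_H0 hup, ← hz] at h3
    -- conj
    have h4 : G m (-(starRingEnd ℂ) (X (z - 1 / 2))) = G m (X (z + 1 / 2)) := by
      rw [G_neg_conj hm hup, ← h3, ← h1]
      apply Complex.ext
      · simp
      · rw [conj_im, h0]; simp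
    have h5 := G_injOn_upper hm (by simpa using hup) h2 h4
    rw [← hD.real _ (b2 t), ← hD.odd] at h5
    · have hn : R < ‖-(starRingEnd ℂ) (z - 1 / 2)‖ := by
        rw [norm_neg, RCLike.norm_conj]; exact b2 t
      have h6 := hD.inj _ _ hn (b1 t) h5
      have h7 := congrArg Complex.re h6
      simp [hz] at h7
      linarith
    · rw [RCLike.norm_conj]; exact b2 t
  have hcont : ContinuousOn (fun t : ℝ => (Lam m X (-A + I * (t : ℝ))).im) (Iio 0) := by
    intro t _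
    apply ContinuousAt.continuousWithinAt
    apply continuous_im.continuousAt.comp
    unfold Lam
    have hx := hD.small _ (b1 t)
    have c1 : ContinuousAt (G0 m) (X (-A + I * (t : ℝ) + 1 / 2)) :=
      (G0_an hm hm1 (by linarith)).continuousAt
    have c2 : ContinuousAt X (-A + I * (t : ℝ) + 1 / 2) := (hD.dX _ (b1 t)).continuousAt
    have c3 : ContinuousAt (fun t : ℝ => (-A + I * (t : ℝ) + 1 / 2 : ℂ)) t := by fun_prop
    exact ContinuousAt.comp (f := fun t : ℝ => X (-A + I * (t : ℝ) + 1 / 2)) c1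
      (ContinuousAt.comp (f := fun t : ℝ => (-A + I * (t : ℝ) + 1 / 2 : ℂ)) c2 c3)
  obtain ⟨t₀, ht₀, ht₀'⟩ := ((pos_bot hD (A := A) (by linarith)).and
    (eventually_lt_atBot (0:ℝ))).exists
  by_contra hneg
  rw [not_lt] at hneg
  have hpc : IsPreconnected (Iio (0:ℝ)) := isPreconnected_Iio
  obtain ⟨t, ht, ht0⟩ := hpc.intermediate_value (show η ∈ Iio (0:ℝ) from hη)
    (show t₀ ∈ Iio (0:ℝ) from ht₀') hcont ⟨hneg, ht₀.le⟩
  exact hnv t ht ht0

end

end Vale.Agent.P097.H849
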