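import Vale.Agent.P097.H849.Germ

namespace Vale.Agent.P097.H849

open Complex Filter Topology Set

noncomputable section

variable {m : ℝ} {X L : ℂ → ℂ} {R a : ℝ}

/-- the vertices along a vertical line -/
def xs (m : ℝ) (X : ℂ → ℂ) (y : ℝ) : ℕ → ℝ → ℂ
  | 0, η => X (y + I * (η : ℝ))
  | j + 1, η => g m (H m (xs m X y j η))

/-- the lines along a vertical line -/
def gam (m : ℝ) (X : ℂ → ℂ) (A : ℝ) (η : ℝ) : ℂ := Lam m X (-A + I * (η : ℝ))

variable (hD : Dat m X R L a)

include hD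

lemma norm_big {y : ℝ} (hy : y < -R) (η : ℝ) : R < ‖(y + I * (η : ℝ) : ℂ)‖ := by
  have hR := hD.hR
  have h1 := abs_re_le_norm (y + I * (η : ℝ) : ℂ)
  have h2 : (y + I * (η : ℝ) : ℂ).re = y := by simp
  rw [h2, abs_of_neg (by linarith)] at h1
  linarith

lemma iter_eq_H {A : ℝ} (hA : R + 1 ≤ A) {η : ℝ} (hη : η < 0) (j : ℕ) :
    (F m)^[j] (gam m X A η) = H m (xs m X (-A - 1 / 2) j η) := by
  have hR := hD.hR
  induction j with
  | zero =>
    have e1 : (-A + I * (η : ℝ) : ℂ) - 1 / 2 = ((-A - 1 / 2 : ℝ) : ℂ) + I * (η : ℝ) := by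
      push_cast; ring
    have e2 : (-A + I * (η : ℝ) : ℂ) + 1 / 2 = ((-A + 1 / 2 : ℝ) : ℂ) + I * (η : ℝ) := by
      push_cast; ring
    have b1 : R < ‖(-A + I * (η : ℝ) : ℂ) - 1 / 2‖ := by
      rw [e1]; exact norm_big hD (by linarith) η
    have b2 : R < ‖(-A + I * (η : ℝ) : ℂ) + 1 / 2‖ := by
      rw [e2]; exact norm_big hD (by linarith) η
    have h1 := Lam_eq_H0 hD b1 b2
    have hup := hD.up _ b1 (by simpa using hη)
    rw [← H_eq_H0 hup, e1] at h1
    simp only [Function.iterate_zero, id, gam, h1, xs]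
  | succ j ih =>
    rw [Function.iterate_succ_apply', ih]
    rfl

lemma germ0 {y : ℝ} (hy : y < -R) : Germ (xs m X y 0) (X y).re := by
  have hR := hD.hR
  have ny : R < ‖(y : ℂ)‖ := by
    have := norm_big hD hy 0
    simpa using this
  have hyim : (X y).im = 0 := by
    have := hD.real y ny
    rw [conj_ofReal] at this
    have := congrArg Complex.im this
    rw [conj_im] at this; linarith
  obtain ⟨d, hd0, hd⟩ := hD.dneg y hy
  refine ⟨fun t => X (y + t), ?_, ?_, ?_, ⟨d, hd0, ?_⟩, ?_⟩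
  · have h1 : AnalyticAt ℂ (fun t : ℂ => (y : ℂ) + t) 0 := analyticAt_const.add analyticAt_id
    exact AnalyticAt.fun_comp (f := fun t : ℂ => (y : ℂ) + t) (by simpa using hD.dX _ ny) h1
  · simp only [add_zero]
    apply Complex.ext
    · simp
    · simp [hyim]
  · have hc : ContinuousAt (fun t : ℂ => ‖(y : ℂ) + t‖) 0 := by fun_prop
    have : ∀ᶠ t in 𝓝 (0:ℂ), R < ‖(y : ℂ) + t‖ :=
      hc.eventually (lt_mem_nhds (by simpa using ny))
    filter_upwards [this] with t ht
    rw [← hD.real _ ht]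
    simp
  · have h2 : HasDerivAt X (d : ℂ) ((y : ℂ) + 0) := by simpa using hd
    exact HasDerivAt.comp_const_add (y : ℂ) 0 h2
  · exact Eventually.of_forall (fun η => rfl)

lemma germs (hm : 0 < m) {y : ℝ} (hy : y < -R) (j : ℕ)
    (h : ∀ i < j, (rho m)^[i] (X y).re ∈ Ioo (-1 : ℝ) 0) :
    Germ (xs m X y j) ((rho m)^[j] (X y).re) := by
  induction j with
  | zero => exact germ0 hD hy
  | succ j ih =>
    have h1 := ih (fun i hi => h i (Nat.lt_succ_of_lt hi))
    rw [Function.iterate_succ_apply']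
    exact germ_step hm (h j (Nat.lt_succ_self j)) h1

/-- the line path is real analytic, far left -/
lemma gam_analytic (hm : 0 < m) (hm1 : m < 1) {A : ℝ} (hA : R + 1 ≤ A) (η : ℝ) :
    AnalyticAt ℝ (gam m X A) η := by
  have hR := hD.hR
  have e2 : (-A + I * (η : ℝ) : ℂ) + 1 / 2 = ((-A + 1 / 2 : ℝ) : ℂ) + I * (η : ℝ) := by
    push_cast; ring
  have b2 : R < ‖(-A + I * (η : ℝ) : ℂ) + 1 / 2‖ := by
    rw [e2]; exact norm_big hD (by linarith) η
  have h1 : AnalyticAt ℂ (Lam m X) (-A + I * (η : ℝ)) := by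
    unfold Lam
    have hx := hD.small _ b2
    have h3 : AnalyticAt ℂ (fun z : ℂ => z + 1 / 2) (-A + I * (η : ℝ)) :=
      analyticAt_id.add analyticAt_const
    have h4 : AnalyticAt ℂ (fun z : ℂ => X (z + 1 / 2)) (-A + I * (η : ℝ)) :=
      AnalyticAt.fun_comp (f := fun z : ℂ => z + 1 / 2) (hD.dX _ b2) h3
    exact AnalyticAt.fun_comp (f := fun z : ℂ => X (z + 1 / 2)) (G0_an hm hm1 (by linarith)) h4
  have h2 : AnalyticAt ℝ (fun η : ℝ => (-A + I * (η : ℝ) : ℂ)) η := by
    apply AnalyticAt.add analyticAt_const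
    apply AnalyticAt.mul analyticAt_const
    exact Complex.ofRealCLM.analyticAt η
  exact AnalyticAt.fun_comp (f := fun η : ℝ => (-A + I * (η : ℝ) : ℂ)) h1.restrictScalars h2

lemma gam_im (hm : 0 < m) (hm1 : m < 1) {A : ℝ} (hA : R + 1 ≤ A) {η : ℝ} (hη : η < 0) :
    0 < (gam m X A η).im ∧ (gam m X A η).im < Real.pi := by
  have hR := hD.hR
  refine ⟨far_pos hD hm hm1 hA hη, ?_⟩
  have e1 : (-A + I * (η : ℝ) : ℂ) - 1 / 2 = ((-A - 1 / 2 : ℝ) : ℂ) + I * (η : ℝ) := by
    push_cast; ring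
  have e2 : (-A + I * (η : ℝ) : ℂ) + 1 / 2 = ((-A + 1 / 2 : ℝ) : ℂ) + I * (η : ℝ) := by
    push_cast; ring
  have b1 : R < ‖(-A + I * (η : ℝ) : ℂ) - 1 / 2‖ := by
    rw [e1]; exact norm_big hD (by linarith) η
  have b2 : R < ‖(-A + I * (η : ℝ) : ℂ) + 1 / 2‖ := by
    rw [e2]; exact norm_big hD (by linarith) η
  exact im_Lam_lt hD hm (by simpa using hη) b1 b2

lemma iter_gam (hm : 0 < m) {A : ℝ} {η : ℝ} (hη : η < -R) (j : ℕ) :
    (F m)^[j] (gam m X A η) = gam m X (A - j) η := by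
  unfold gam
  rw [iter_Lam hD hm (by simpa using hη) j]
  congr 1; push_cast; ring

/-- Stage 1 -/
lemma stage1 (hm : 0 < m) (hm1 : m < 1) {K : ℕ} (hK : R + 1 ≤ (K : ℝ) / 2) {η : ℝ}
    (hη : η < 0) : Good m K (gam m X (K / 2) η) ∧ cen m K (gam m X (K / 2) η) = 0 := by
  have hR := hD.hR
  have hpi := Real.pi_pos
  -- start
  have hstart : ∀ᶠ t in atBot, Good m K (gam m X (K / 2) t) ∧ cen m K (gam m X (K / 2) t) = 0 := by
    have h1 : ∀ᶠ t in atBot, ∀ j ∈ Finset.range K, 2 * j < K →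
        0 < (gam m X ((K : ℝ) / 2 - j) t).im := by
      rw [Filter.eventually_all_finset]
      intro j _
      by_cases hj : 2 * j < K
      · have hj' : (2 * j : ℝ) < K := by exact_mod_cast hj
        filter_upwards [pos_bot hD (A := (K : ℝ) / 2 - j) (by linarith)] with t ht _ using ht
      · exact Eventually.of_forall (fun t ht => absurd ht hj)
    filter_upwards [h1, eventually_lt_atBot (-R)] with t ht htR
    constructor
    · intro j hj
      rw [iter_gam hD hm htR]
      exact ht j (Finset.mem_range.mpr (by omega)) hj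
    · unfold cen
      rw [iter_gam hD hm htR]
      by_cases hev : Even K
      · rw [if_pos hev]
        obtain ⟨l, hl⟩ := hev
        have hl2 : K / 2 = l := by omega
        have : (K : ℝ) / 2 - ((K / 2 : ℕ) : ℝ) = 0 := by
          rw [hl2, hl]; push_cast; ring
        rw [this]
        apply centre_even hD hm hm1
        · simp
        · simpa using htR
      · rw [if_neg hev]
        obtain ⟨l, hl⟩ := Nat.not_even_iff_odd.mp hev
        have hl2 : K / 2 = l := by omega
        have : (K : ℝ) / 2 - ((K / 2 : ℕ) : ℝ) = 1 / 2 := by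
          rw [hl2, hl]; push_cast; ring
        rw [this]
        have e : (-((1 / 2 : ℝ) : ℂ) + I * (t : ℝ)) + 1 / 2 = I * (t : ℝ) := by
          push_cast; ring
        have hb : R < ‖(-((1 / 2 : ℝ) : ℂ) + I * (t : ℝ)) + 1 / 2‖ := by
          rw [e]
          have h3 := abs_im_le_norm (I * (t : ℝ) : ℂ)
          have h4 : (I * (t : ℝ) : ℂ).im = t := by simp
          rw [h4, abs_of_neg (by linarith)] at h3
          linarith
        unfold gam
        rw [g_Lam hD hm (by simp; linarith) hb, e]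
        apply centre_odd hD
        · simp
        · simpa using htR
  obtain ⟨t₀, ht₀⟩ := (eventually_atBot.mp (hstart.and (eventually_lt_atBot (0:ℝ))))
  refine chain hm hm1 (J := Iio 0) isOpen_Iio ordConnected_Iio
    (fun t _ => gam_analytic hD hm hm1 hK t)
    (fun t ht => ?_) (t₀ := t₀) (ht₀ t₀ le_rfl).2 (fun t _ htt => (ht₀ t htt).1) η hη
  have := gam_im hD hm hm1 hK (show t < 0 from ht)
  exact ⟨this.1, by linarith⟩

end

end Vale.Agent.P097.H849
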