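import Vale.Agent.P097.H849.Inj

namespace Vale.Agent.P097.H849

open Complex Filter Topology Set

noncomputable section

variable {m : ℝ}

/-- target region -/
def V (m : ℝ) : Set ℂ :=
  {w | -Real.pi < w.im ∧ w.im < 2 * Real.pi / m ∧ (0 < w.re ∨ w.im ≠ 0)}

lemma isOpen_V (m : ℝ) : IsOpen (V m) := by
  have : V m = {w | -Real.pi < w.im} ∩ ({w | w.im < 2 * Real.pi / m} ∩
      ({w | 0 < w.re} ∪ {w | w.im ≠ 0})) := rfl
  rw [this]
  refine (isOpen_lt continuous_const continuous_im).inter
    ((isOpen_lt continuous_im continuous_const).inter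
    ((isOpen_lt continuous_const continuous_re).union (isOpen_ne_fun continuous_im continuous_const)))

lemma isPreconnected_V (hm : 0 < m) : IsPreconnected (V m) := by
  have h1 : (1 : ℂ) ∈ V m := by
    have := Real.pi_pos
    refine ⟨by simpa using this, ?_, Or.inl (by simp)⟩
    simp; positivity
  have hst : StarConvex ℝ (1 : ℂ) (V m) := by
    intro y hy a b ha hb hab
    have him : (a • (1 : ℂ) + b • y).im = b * y.im := by simp
    have hre : (a • (1 : ℂ) + b • y).re = a + b * y.re := by simp
    have hpi := Real.pi_pos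
    have hL : 0 < 2 * Real.pi / m := by positivity
    refine ⟨?_, ?_, ?_⟩
    · rw [him]
      rcases hb.eq_or_lt with h | h
      · rw [← h]; simpa using hpi
      · have : b * (-Real.pi) < b * y.im := mul_lt_mul_of_pos_left hy.1 h
        nlinarith
    · rw [him]
      rcases hb.eq_or_lt with h | h
      · rw [← h]; simpa using hL
      · have : b * y.im < b * (2 * Real.pi / m) := mul_lt_mul_of_pos_left hy.2.1 h
        nlinarith
    · rw [hre, him]
      rcases hb.eq_or_lt with h | h
      · left; rw [← h]; have : a = 1 := by linarith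
        rw [this]; norm_num
      · rcases hy.2.2 with h2 | h2
        · left; have := mul_pos h h2; linarith
        · right; exact mul_ne_zero h.ne' h2
  exact (hst.isPathConnected h1).isConnected.isPreconnected

lemma isOpen_image (hm : 0 < m) : IsOpen (G m '' D m) := by
  have hdiff : DifferentiableOn ℂ (G m) (D m) := fun x hx =>
    (hasDerivAt_G hm hx).differentiableAt.differentiableWithinAt
  rw [isOpen_iff_mem_nhds]
  rintro _ ⟨x, hx, rfl⟩
  have hD : D m ∈ 𝓝 x := (isOpen_D m).mem_nhds hx
  have han : AnalyticAt ℂ (G m) x := hdiff.analyticAt hD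
  have hs := han.hasStrictDerivAt
  rw [(hasDerivAt_G hm hx).deriv] at hs
  have := hs.map_nhds_eq (deriv_G_ne hm hx)
  rw [← this]
  exact image_mem_map hD

/-- compactness: limits of values -/
lemma exists_limit (hm : 0 < m) (hm1 : m < 1) {w : ℂ} (hw : w ∈ V m) (u : Ultrafilter ℂ)
    (hu : D m ∈ u) (ht : Tendsto (G m) u (𝓝 w)) : w ∈ G m '' D m := by
  have hpi := Real.pi_pos
  have hre : Tendsto (fun y => (G m y).re) u (𝓝 w.re) :=
    (continuous_re.tendsto w).comp ht
  have him : Tendsto (fun y => (G m y).im) u (𝓝 w.im) :=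
    (continuous_im.tendsto w).comp ht
  -- boundedness
  set C := |w.re| + 1 with hC
  set K := 2 + (1 + Real.exp (m * C)) / m with hK
  have hKpos : 2 < K := by rw [hK]; have := Real.exp_pos (m * C); have : 0 < (1 + Real.exp (m * C)) / m := by positivity
                           linarith
  have hev : ∀ᶠ y in (u : Filter ℂ), (G m y).re < C := by
    apply hre.eventually (gt_mem_nhds _)
    rw [hC]; linarith [le_abs_self w.re]
  have hbd : ∀ᶠ y in (u : Filter ℂ), y ∈ Metric.closedBall (0:ℂ) K := by
    filter_upwards [hev] with y hy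
    rw [mem_closedBall_zero_iff]
    by_contra hlt
    rw [not_le] at hlt
    have n1 : 1 ≤ ‖1 - y‖ := by
      have := norm_sub_norm_le y 1
      rw [norm_one, norm_sub_rev] at this
      linarith
    have n2 : Real.exp (m * C) ≤ ‖-1 - m * y‖ := by
      have h1 : ‖(m : ℂ) * y‖ - ‖(-1 : ℂ)‖ ≤ ‖(m : ℂ) * y - (-1)‖ := norm_sub_norm_le _ _
      rw [norm_sub_rev, norm_neg, norm_one, norm_mul, Complex.norm_real, Real.norm_eq_abs,
        abs_of_pos hm] at h1
      have h2 : m * K < m * ‖y‖ := mul_lt_mul_of_pos_left hlt hm
      have h3 : m * K = 2 * m + (1 + Real.exp (m * C)) := by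
        rw [hK]; field_simp
      linarith
    have l1 : 0 ≤ Real.log ‖1 - y‖ := Real.log_nonneg n1
    have l2 : m * C ≤ Real.log ‖-1 - m * y‖ := by
      rw [Real.le_log_iff_exp_le (lt_of_lt_of_le (Real.exp_pos _) n2)]
      exact n2
    have l3 : C ≤ Real.log ‖-1 - m * y‖ / m := by
      rw [le_div_iff₀ hm]; linarith
    rw [re_G] at hy
    linarith
  obtain ⟨x, -, hx⟩ := (isCompact_closedBall (0:ℂ) K).ultrafilter_le_nhds u
    (le_principal_iff.mpr hbd)
  have hm' : (m : ℂ) ≠ 0 := by exact_mod_cast hm.ne'
  -- x ≠ 1
  have t1 : Tendsto (fun y : ℂ => 1 - y) u (𝓝 (1 - x)) :=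
    ((continuous_const.sub continuous_id).tendsto x).mono_left hx
  have t2 : Tendsto (fun y : ℂ => -1 - m * y) u (𝓝 (-1 - m * x)) :=
    ((continuous_const.sub (continuous_const.mul continuous_id)).tendsto x).mono_left hx
  have hx1 : 1 - x ≠ 0 := by
    intro h0
    have hxe : x = 1 := by linear_combination -h0
    have a1 : Tendsto (fun y : ℂ => ‖1 - y‖) u (𝓝[>] 0) := by
      rw [tendsto_nhdsWithin_iff]
      constructor
      · have := t1.norm; rwa [h0, norm_zero] at this
      · filter_upwards [hu] with y hy
        exact norm_pos_iff.mpr (slitPlane_ne_zero (slit1 hm hy))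
    have a2 := Real.tendsto_log_nhdsGT_zero.comp a1
    have a3 : Tendsto (fun y : ℂ => Real.log ‖-1 - m * y‖ / m) u
        (𝓝 (Real.log ‖-1 - m * x‖ / m)) := by
      apply Tendsto.div_const
      apply Tendsto.log t2.norm
      rw [hxe]
      have : (-1 - m * 1 : ℂ) = ((-1 - m : ℝ) : ℂ) := by push_cast; ring
      rw [this, norm_ne_zero_iff]
      exact_mod_cast (by linarith : (-1 - m) ≠ 0)
    have a4 := a2.atBot_add a3
    have : Tendsto (fun y => (G m y).re) u atBot := by
      refine a4.congr (fun y => ?_)
      rw [re_G]; rfl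
    exact not_tendsto_nhds_of_tendsto_atBot this _ hre
  have hx2 : -1 - m * x ≠ 0 := by
    intro h0
    have hxe : x = ((-1 / m : ℝ) : ℂ) := by push_cast; field_simp; linear_combination -h0
    have a1 : Tendsto (fun y : ℂ => ‖-1 - m * y‖) u (𝓝[>] 0) := by
      rw [tendsto_nhdsWithin_iff]
      constructor
      · have := t2.norm; rwa [h0, norm_zero] at this
      · filter_upwards [hu] with y hy
        exact norm_pos_iff.mpr (slitPlane_ne_zero (slit2 hm hy))
    have a2 := (Real.tendsto_log_nhdsGT_zero.comp a1).atBot_div_const hm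
    have a3 : Tendsto (fun y : ℂ => Real.log ‖1 - y‖) u (𝓝 (Real.log ‖1 - x‖)) :=
      Tendsto.log t1.norm (norm_ne_zero_iff.mpr hx1)
    have a4 := a3.add_atBot a2
    have : Tendsto (fun y => (G m y).re) u atBot := by
      refine a4.congr (fun y => ?_)
      rw [re_G]; rfl
    exact not_tendsto_nhds_of_tendsto_atBot this _ hre
  by_cases hxD : x ∈ D m
  · refine ⟨x, hxD, ?_⟩
    have := ((hasDerivAt_G hm hxD).continuousAt.tendsto).mono_left hx
    exact tendsto_nhds_unique this ht
  exfalso
  -- boundary point
  have hxim : x.im = 0 := by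
    by_contra h; exact hxD (Or.inr h)
  have hxre : -1 / m ≤ x.re := by
    by_contra h; exact hxD (Or.inl (not_le.mp h))
  have hxre' : -1 / m < x.re := by
    rcases hxre.lt_or_eq with h | h
    · exact h
    · exfalso; apply hx2
      have : x = ((-1 / m : ℝ) : ℂ) := by
        apply Complex.ext
        · rw [ofReal_re]; exact h.symm
        · rw [ofReal_im]; exact hxim
      rw [this]; push_cast; field_simp; ring
  have hmx : -1 < m * x.re := by
    have := mul_lt_mul_of_pos_left hxre' hm
    rwa [mul_div_cancel₀ _ hm.ne'] at this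
  have hev2 : ∀ᶠ y in (u : Filter ℂ), -1 / m < y.re :=
    (((continuous_re.tendsto x).mono_left hx).eventually (lt_mem_nhds hxre'))
  have hne1 : x.re ≠ 1 := by
    intro h; apply hx1
    apply Complex.ext
    · simp [h]
    · simp [hxim]
  have him0 : ∀ᶠ y in (u : Filter ℂ), y.im ≠ 0 := by
    filter_upwards [hu, hev2] with y hy hy2
    rcases hy with h | h
    · exact absurd h (not_lt.mpr hy2.le)
    · exact h
  have hdich : (∀ᶠ y in (u : Filter ℂ), 0 < y.im) ∨ (∀ᶠ y in (u : Filter ℂ), y.im < 0) := by
    have : ∀ᶠ y in (u : Filter ℂ), 0 < y.im ∨ y.im < 0 := by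
      filter_upwards [him0] with y hy
      rcases lt_or_gt_of_ne hy with h | h
      · right; exact h
      · left; exact h
    exact Ultrafilter.eventually_or.mp this
  have r1 : (1 - x).im = 0 := by simp [hxim]
  have r2 : (-1 - m * x).im = 0 := by simp [hxim]
  have r3 : (-1 - m * x).re < 0 := by simp; linarith
  rcases hdich with hsg | hsg
  · -- upper side
    have b2 : Tendsto (fun y : ℂ => arg (-1 - m * y)) u (𝓝 (-Real.pi)) := by
      refine (tendsto_arg_nhdsWithin_im_neg_of_re_neg_of_im_zero r3 r2).comp ?_
      rw [tendsto_nhdsWithin_iff]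
      refine ⟨t2, ?_⟩
      filter_upwards [hsg] with y hy
      simp; positivity
    rcases lt_or_gt_of_ne hne1 with h | h
    · have b1 : Tendsto (fun y : ℂ => arg (1 - y)) u (𝓝 0) := by
        have hsl : 1 - x ∈ slitPlane := by
          rw [mem_slitPlane_iff]; left; simp; linarith
        have := (continuousAt_arg hsl).tendsto.comp t1
        have h0 : arg (1 - x) = 0 := by
          rw [arg_eq_zero_iff]; exact ⟨by simp; linarith, r1⟩
        rwa [h0] at this
      have b3 : Tendsto (fun y => (G m y).im) u (𝓝 (0 + (-Real.pi + Real.pi) / m)) := by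
        refine (b1.add ((b2.add_const Real.pi).div_const m)).congr (fun y => ?_)
        rw [im_G]
      have hwim : w.im = 0 := by
        have := tendsto_nhds_unique him b3
        simpa using this
      have hwre : 0 < w.re := by
        rcases hw.2.2 with h | h
        · exact h
        · exact absurd hwim h
      have b4 : Tendsto (fun y => (G m y).re) u
          (𝓝 (Real.log ‖1 - x‖ + Real.log ‖-1 - m * x‖ / m)) := by
        refine ((Tendsto.log t1.norm (norm_ne_zero_iff.mpr hx1)).add
          ((Tendsto.log t2.norm (norm_ne_zero_iff.mpr hx2)).div_const m)).congr (fun y => ?_)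
        rw [re_G]
      have hw2 := tendsto_nhds_unique hre b4
      have ex : x = (x.re : ℂ) := by apply Complex.ext <;> simp [hxim]
      have nx1 : ‖1 - x‖ = 1 - x.re := by
        rw [ex, show (1 - ((x.re : ℝ) : ℂ)) = ((1 - x.re : ℝ) : ℂ) by push_cast; ring,
          Complex.norm_real, Real.norm_eq_abs, abs_of_pos (by linarith)]
        simp
      have nx2 : ‖-1 - m * x‖ = 1 + m * x.re := by
        rw [ex, show (-1 - m * ((x.re : ℝ) : ℂ)) = ((-(1 + m * x.re) : ℝ) : ℂ) by push_cast; ring,
          Complex.norm_real, Real.norm_eq_abs, abs_neg, abs_of_pos (by linarith)]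
        simp
      rw [nx1, nx2] at hw2
      have c1 : Real.log (1 - x.re) ≤ -x.re := by
        have := Real.log_le_sub_one_of_pos (x := 1 - x.re) (by linarith)
        linarith
      have c2 : Real.log (1 + m * x.re) / m ≤ x.re := by
        rw [div_le_iff₀ hm]
        have := Real.log_le_sub_one_of_pos (x := 1 + m * x.re) (by linarith)
        linarith
      linarith
    · have b1 : Tendsto (fun y : ℂ => arg (1 - y)) u (𝓝 (-Real.pi)) := by
        refine (tendsto_arg_nhdsWithin_im_neg_of_re_neg_of_im_zero (by simp; linarith) r1).comp ?_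
        rw [tendsto_nhdsWithin_iff]
        refine ⟨t1, ?_⟩
        filter_upwards [hsg] with y hy
        simpa using hy
      have b3 : Tendsto (fun y => (G m y).im) u (𝓝 (-Real.pi + (-Real.pi + Real.pi) / m)) := by
        refine (b1.add ((b2.add_const Real.pi).div_const m)).congr (fun y => ?_)
        rw [im_G]
      have := tendsto_nhds_unique him b3
      have h3 := hw.1
      simp at this; linarith
  · -- lower side
    have b2 : Tendsto (fun y : ℂ => arg (-1 - m * y)) u (𝓝 Real.pi) := by
      have h0 : arg (-1 - m * x) = Real.pi := arg_eq_pi_iff.mpr ⟨r3, r2⟩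
      rw [← h0]
      refine (continuousWithinAt_arg_of_re_neg_of_im_zero r3 r2).tendsto.comp ?_
      rw [tendsto_nhdsWithin_iff]
      refine ⟨t2, ?_⟩
      filter_upwards [hsg] with y hy
      simp; nlinarith
    rcases lt_or_gt_of_ne hne1 with h | h
    · have b1 : Tendsto (fun y : ℂ => arg (1 - y)) u (𝓝 0) := by
        have hsl : 1 - x ∈ slitPlane := by
          rw [mem_slitPlane_iff]; left; simp; linarith
        have := (continuousAt_arg hsl).tendsto.comp t1
        have h0 : arg (1 - x) = 0 := by
          rw [arg_eq_zero_iff]; exact ⟨by simp; linarith, r1⟩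
        rwa [h0] at this
      have b3 : Tendsto (fun y => (G m y).im) u (𝓝 (0 + (Real.pi + Real.pi) / m)) := by
        refine (b1.add ((b2.add_const Real.pi).div_const m)).congr (fun y => ?_)
        rw [im_G]
      have := tendsto_nhds_unique him b3
      have h3 := hw.2.1
      rw [this] at h3
      have : (0 + (Real.pi + Real.pi) / m) = 2 * Real.pi / m := by ring
      linarith
    · have b1 : Tendsto (fun y : ℂ => arg (1 - y)) u (𝓝 Real.pi) := by
        have h0 : arg (1 - x) = Real.pi := arg_eq_pi_iff.mpr ⟨by simp; linarith, r1⟩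
        rw [← h0]
        refine (continuousWithinAt_arg_of_re_neg_of_im_zero (by simp; linarith) r1).tendsto.comp ?_
        rw [tendsto_nhdsWithin_iff]
        refine ⟨t1, ?_⟩
        filter_upwards [hsg] with y hy
        simpa using hy.le
      have b3 : Tendsto (fun y => (G m y).im) u (𝓝 (Real.pi + (Real.pi + Real.pi) / m)) := by
        refine (b1.add ((b2.add_const Real.pi).div_const m)).congr (fun y => ?_)
        rw [im_G]
      have := tendsto_nhds_unique him b3
      have h3 := hw.2.1
      rw [this] at h3
      have : (Real.pi + Real.pi) / m = 2 * Real.pi / m := by ring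
      linarith

/-- `G` maps `D` onto (at least) `V` -/
lemma V_subset (hm : 0 < m) (hm1 : m < 1) : V m ⊆ G m '' D m := by
  apply (isPreconnected_V hm).subset_of_closure_inter_subset (isOpen_image hm)
  · -- nonempty intersection: a small point of the upper half plane
    refine ⟨G m (I), ?_, ⟨I, Or.inr (by simp), rfl⟩⟩
    have hI : 0 < (I : ℂ).im := by simp
    refine ⟨lt_im_G hm, ?_, ?_⟩
    · have := im_G_lt hm hI
      have hpi := Real.pi_pos
      have : Real.pi / m < 2 * Real.pi / m := by gcongr; linarith
      linarith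
    · by_cases h : (G m I).im = 0
      · left; exact G_re_pos hm hI h
      · right; exact h
  · rintro w ⟨hw1, hw2⟩
    rw [mem_closure_iff_ultrafilter] at hw1
    obtain ⟨v, hv1, hv2⟩ := hw1
    have hmap := Ultrafilter.ofComapInfPrincipal_eq_of_map hv1
    apply exists_limit hm hm1 hw2 (Ultrafilter.ofComapInfPrincipal hv1)
      (Ultrafilter.ofComapInfPrincipal_mem hv1)
    rw [Tendsto, ← Ultrafilter.coe_map, hmap]
    exact hv2

end

end Vale.Agent.P097.H849
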